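import Vale.Agent.P170.Interp

/-!
Asymptotic forms of the interpolation and restriction inequalities.
-/

namespace Vale.Agent.P170

open Finset

variable {k : ℕ}

lemma floor_bounds {x : ℝ} (hx : 0 ≤ x) : x - 1 < (⌊x⌋₊ : ℝ) ∧ (⌊x⌋₊ : ℝ) ≤ x :=
  ⟨by linarith [Nat.lt_floor_add_one x], Nat.floor_le hx⟩

lemma num1 {θ X q m M m' : ℝ} (h0 : 0 < θ) (h1 : θ < 1 / 4) (hX : 4 * q ≤ θ * X) (hq : 1 ≤ q)
    (hqm : X - q ≤ q * m) (hM : (1 - θ) * (q * m) - 1 < M) (hm' : m' ≤ (1 - 4 * θ) * X) :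
    θ * X / 2 ≤ (1 - θ) * M - m' := by
  have e1 : (1 - θ) * ((1 - θ) * (q * m) - 1) ≤ (1 - θ) * M :=
    mul_le_mul_of_nonneg_left hM.le (by linarith)
  have e2 : (1 - θ) * (1 - θ) * (X - q) ≤ (1 - θ) * (1 - θ) * (q * m) :=
    mul_le_mul_of_nonneg_left hqm (mul_nonneg (by linarith) (by linarith))
  have hXq : 0 ≤ X - q := by nlinarith
  have e3 : (1 - 2 * θ) * (X - q) ≤ (1 - θ) * (1 - θ) * (X - q) :=
    mul_le_mul_of_nonneg_right (by nlinarith) hXq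
  have e4 : (1 - 2 * θ) * X - q ≤ (1 - 2 * θ) * (X - q) := by nlinarith
  nlinarith

lemma num2 {θ c n q m M : ℝ} (hθ : 0 < θ) (hc : 0 < c) (hn : 0 < n) (hq : 1 ≤ q)
    (hMub : M ≤ q * (c * n)) (g1 : θ * (c * n) / 2 ≤ m - M / q) {K η : ℝ} (hη : 0 < η)
    (hcη : η ≤ c) (hqK : q ≤ K) :
    M / (m - M / q) ^ 2 ≤ (4 * K / (θ ^ 2 * η)) / n := by
  have hq0 : 0 < q := by linarith
  have hK0 : 0 < K := by linarith
  have g2 : (θ * (c * n) / 2) ^ 2 ≤ (m - M / q) ^ 2 := pow_le_pow_left₀ (by positivity) g1 2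
  calc M / (m - M / q) ^ 2 ≤ (q * (c * n)) / (θ * (c * n) / 2) ^ 2 :=
        div_le_div₀ (by positivity) hMub (by positivity) g2
    _ = 4 * q / (θ ^ 2 * c) / n := by field_simp; ring
    _ ≤ (4 * K / (θ ^ 2 * η)) / n := by
        apply div_le_div_of_nonneg_right _ hn.le
        apply div_le_div₀ (by positivity) (by linarith) (by positivity)
        exact mul_le_mul_of_nonneg_left hcη (by positivity)

lemma num3 {θ c n q M m' : ℝ} (hθ : 0 < θ) (hc : 0 < c) (hn : 0 < n) (hq : 1 ≤ q)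
    (hMub : M ≤ q * (c * n)) (hD2 : θ * (c * (q * n)) / 2 ≤ (1 - θ) * M - m') {η : ℝ}
    (hη : 0 < η) (hcη : η ≤ c) :
    M / ((1 - θ) * M - m') ^ 2 ≤ (4 / (θ ^ 2 * η)) / n := by
  have hq0 : 0 < q := by linarith
  have g2 : (θ * (c * (q * n)) / 2) ^ 2 ≤ ((1 - θ) * M - m') ^ 2 :=
    pow_le_pow_left₀ (by positivity) hD2 2
  calc M / ((1 - θ) * M - m') ^ 2 ≤ (q * (c * n)) / (θ * (c * (q * n)) / 2) ^ 2 :=
        div_le_div₀ (by positivity) hMub (by positivity) g2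
    _ = 4 / (θ ^ 2 * (c * q)) / n := by field_simp; ring
    _ ≤ (4 / (θ ^ 2 * η)) / n := by
        apply div_le_div_of_nonneg_right _ hn.le
        apply div_le_div_of_nonneg_left (by positivity) (by positivity)
        apply mul_le_mul_of_nonneg_left _ (by positivity)
        nlinarith

lemma num4 {k : ℕ} (hk : 2 ≤ k) {θ c n q M : ℝ} (hθ : 0 < θ) (hc : 0 < c) (hn : 1 ≤ n)
    (hq : 1 ≤ q) (hMub : M ≤ q * (c * n)) {K B : ℝ} (hqK : q ≤ K) (hcB : c ≤ B) :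
    M * ((k : ℝ) ^ 2 / (θ * n)) ^ k ≤ (K * |B| * ((k : ℝ) ^ 2 / θ) ^ k) / n := by
  have hBabs : |B| = B := abs_of_pos (by linarith)
  have hBpos : 0 < B := by linarith
  have hKpos : 0 < K := by linarith
  have hn0 : 0 < n := by linarith
  have g1 : ((k : ℝ) ^ 2 / (θ * n)) ^ k = ((k : ℝ) ^ 2 / θ) ^ k / n ^ k := by
    rw [← div_pow, div_div]
  have g2 : n ^ 2 ≤ n ^ k := pow_le_pow_right₀ hn hk
  rw [g1, hBabs]
  calc M * (((k : ℝ) ^ 2 / θ) ^ k / n ^ k)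
      ≤ (K * (B * n)) * (((k : ℝ) ^ 2 / θ) ^ k / n ^ 2) := by
        apply mul_le_mul _ _ (by positivity) (by positivity)
        · refine hMub.trans ?_
          apply mul_le_mul hqK _ (by positivity) (by positivity)
          exact mul_le_mul_of_nonneg_right hcB hn0.le
        · exact div_le_div_of_nonneg_left (by positivity) (by positivity) g2
    _ = _ := by field_simp

/-- Uniform superadditivity over densities in `[η, B]` and `1 ≤ q ≤ K` blocks. -/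
lemma unif_mul (hk : 2 ≤ k) (K : ℕ) {η B δ : ℝ} (hη : 0 < η) (hδ : 0 < δ) (hδ1 : δ < 1) :
    ∃ C : ℝ, ∃ n₀ : ℕ, 0 ≤ C ∧ k ≤ n₀ ∧ ∀ n, n₀ ≤ n → ∀ q, 1 ≤ q → q ≤ K → ∀ c, η ≤ c → c ≤ B →
      ∀ c', c' ≤ (1 - δ) * c →
      satProb k n ⌊c * n⌋₊ ^ q ≤ satProb k (q * n) ⌊c' * (q * n : ℕ)⌋₊ + C / n := by
  set θ : ℝ := δ / 4 with hθ
  have hθ0 : 0 < θ := by rw [hθ]; positivity
  have hθ1 : θ < 1 / 4 := by rw [hθ]; linarith
  refine ⟨4 * K / (θ ^ 2 * η) + 4 / (θ ^ 2 * η) + K * |B| * ((k : ℝ) ^ 2 / θ) ^ k,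
    k + ⌈4 / (θ * η)⌉₊ + ⌈2 / η⌉₊, by positivity, by omega, ?_⟩
  intro n hn q hq hqK c hcη hcB c' hc'
  have hn1 : k ≤ n := by omega
  have hnpos : 0 < n := by omega
  have hnR : (0 : ℝ) < n := by exact_mod_cast hnpos
  have hn1R : (1 : ℝ) ≤ n := by exact_mod_cast hnpos
  have hqR : (1 : ℝ) ≤ q := by exact_mod_cast hq
  have hqKR : (q : ℝ) ≤ K := by exact_mod_cast hqK
  have hc0 : 0 < c := lt_of_lt_of_le hη hcη
  have hBpos : 0 < B := lt_of_lt_of_le hc0 hcB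
  have hBabs : |B| = B := abs_of_pos hBpos
  have hnA : 4 / (θ * η) ≤ n := by
    have h1 : (⌈4 / (θ * η)⌉₊ : ℝ) ≤ n := by exact_mod_cast (by omega : ⌈4 / (θ * η)⌉₊ ≤ n)
    exact (Nat.le_ceil _).trans h1
  have hnB : 2 / η ≤ n := by
    have h1 : (⌈2 / η⌉₊ : ℝ) ≤ n := by exact_mod_cast (by omega : ⌈2 / η⌉₊ ≤ n)
    exact (Nat.le_ceil _).trans h1
  have h4 : 4 ≤ θ * η * n := by
    rw [div_le_iff₀ (by positivity)] at hnA; linarith
  have h2 : 2 ≤ η * n := by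
    rw [div_le_iff₀ hη] at hnB; linarith
  have hcn : η * n ≤ c * n := mul_le_mul_of_nonneg_right hcη hnR.le
  have h4c : 4 ≤ θ * (c * n) := by nlinarith
  obtain ⟨hm1, hm2⟩ := floor_bounds (x := c * n) (by positivity)
  set m : ℕ := ⌊c * n⌋₊ with hm
  have hmpos : (0 : ℝ) < m := by linarith
  have hmhalf : c * n / 2 ≤ m := by linarith
  obtain ⟨hM1, hM2⟩ := floor_bounds (x := (1 - θ) * (q * m)) (by
    have : 0 ≤ 1 - θ := by linarith
    positivity)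
  set M : ℕ := ⌊(1 - θ) * (q * m)⌋₊ with hM
  have hMq : (M : ℝ) / q ≤ (1 - θ) * m := by
    rw [div_le_iff₀ (by linarith)]; linarith
  have hMub : (M : ℝ) ≤ q * (c * n) := by
    have : (1 - θ) * ((q : ℝ) * m) ≤ 1 * (q * m) :=
      mul_le_mul_of_nonneg_right (by linarith) (by positivity)
    have h3 : (q : ℝ) * m ≤ q * (c * n) := mul_le_mul_of_nonneg_left hm2 (by positivity)
    linarith
  have hc'ub : c' * ((q * n : ℕ) : ℝ) ≤ (1 - δ) * (c * (q * n)) := by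
    push_cast
    have := mul_le_mul_of_nonneg_right hc' (by positivity : (0 : ℝ) ≤ q * n)
    linarith
  have hm'ub : (⌊c' * ((q * n : ℕ) : ℝ)⌋₊ : ℝ) ≤ (1 - δ) * (c * (q * n)) := by
    rcases le_or_gt 0 (c' * ((q * n : ℕ) : ℝ)) with h | h
    · exact (Nat.floor_le h).trans hc'ub
    · rw [Nat.floor_of_nonpos h.le]
      have : 0 ≤ 1 - δ := by linarith
      push_cast
      positivity
  set m' : ℕ := ⌊c' * ((q * n : ℕ) : ℝ)⌋₊ with hm'
  set X : ℝ := c * (q * n) with hX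
  have hXpos : 0 < X := by rw [hX]; positivity
  have hqm : X - q ≤ q * m := by
    rw [hX]
    have : (q : ℝ) * (c * n - 1) ≤ q * m := mul_le_mul_of_nonneg_left hm1.le (by positivity)
    nlinarith
  have hqX : θ * X ≥ 4 * q := by
    rw [hX]
    have : (q : ℝ) * 4 ≤ q * (θ * (c * n)) := mul_le_mul_of_nonneg_left h4c (by positivity)
    nlinarith
  have hD2 : θ * X / 2 ≤ (1 - θ) * M - m' := by
    have e5 : (1 - δ) * X = (1 - 4 * θ) * X := by rw [hθ]; ring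
    exact num1 hθ0 hθ1 hqX hqR hqm hM1 (e5 ▸ hm'ub)
  have hD2pos : 0 < θ * X / 2 := by positivity
  have key := satProb_mul (k := k) (q := q) (n := n) hq (by omega) hn1 hθ0 (by linarith)
    (M := M) (m := m) (m' := m') (by
      have : 0 < θ * m := by positivity
      linarith) (by linarith)
  refine key.trans ?_
  have g1 : θ * (c * n) / 2 ≤ m - M / q := by
    have : θ * (c * n / 2) ≤ θ * m := mul_le_mul_of_nonneg_left hmhalf hθ0.le
    linarith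
  have b1 := num2 (m := (m : ℝ)) (M := (M : ℝ)) hθ0 hc0 hnR hqR hMub g1 hη hcη hqKR
  have b2 := num3 (m' := (m' : ℝ)) (M := (M : ℝ)) hθ0 hc0 hnR hqR hMub hD2 hη hcη
  have b3 := num4 hk (M := (M : ℝ)) hθ0 hc0 hn1R hqR hMub hqKR hcB
  have : (4 * K / (θ ^ 2 * η) + 4 / (θ ^ 2 * η) + K * |B| * ((k : ℝ) ^ 2 / θ) ^ k) / n
      = (4 * K / (θ ^ 2 * η)) / n + (4 / (θ ^ 2 * η)) / n
        + (K * |B| * ((k : ℝ) ^ 2 / θ) ^ k) / n := by ring
  rw [this]
  linarith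

lemma num5 {k : ℕ} {δ a c n K ρ M m : ℝ} (hδ : 0 < δ) (ha0 : 0 < a) (hc0 : 0 < c)
    (hnR : 0 < n) (hK : 1 ≤ K) (haK' : 1 ≤ a * K ^ (k - 1))
    (hD : δ * (a * (c * n)) / 4 ≤ ρ * M - m) (hMub : M ≤ c * (K * n)) {η : ℝ} (hη : 0 < η)
    (hcη : η ≤ c) :
    M / (ρ * M - m) ^ 2 ≤ (16 * K * (K ^ (k - 1)) ^ 2 / (δ ^ 2 * η)) / n := by
  have g2 : (δ * (a * (c * n)) / 4) ^ 2 ≤ (ρ * M - m) ^ 2 := pow_le_pow_left₀ (by positivity) hD 2
  calc M / (ρ * M - m) ^ 2 ≤ (c * (K * n)) / (δ * (a * (c * n)) / 4) ^ 2 :=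
        div_le_div₀ (by positivity) hMub (by positivity) g2
    _ = 16 * K / (δ ^ 2 * c * a ^ 2) / n := by field_simp; ring
    _ ≤ _ := by
        apply div_le_div_of_nonneg_right _ hnR.le
        rw [div_le_div_iff₀ (by positivity) (by positivity)]
        have e1 : 1 ≤ (a * K ^ (k - 1)) ^ 2 := one_le_pow₀ haK'
        have e2 : η * 1 ≤ c * (a * K ^ (k - 1)) ^ 2 :=
          mul_le_mul hcη e1 (by norm_num) hc0.le
        have e3 : 0 ≤ 16 * K * δ ^ 2 := by positivity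
        nlinarith [mul_le_mul_of_nonneg_left e2 e3]

lemma num6 {a K' δ c η n : ℝ} (ha0 : 0 < a) (haK' : 1 ≤ a * K') (hδ : 0 < δ) (hn : 0 < n)
    (hcη : η ≤ c) (h : 8 * K' ≤ n * (δ * η)) : 8 ≤ δ * (a * (c * n)) := by
  have e1 : 8 * K' ≤ δ * (c * n) := by
    have : n * (δ * η) ≤ n * (δ * c) :=
      mul_le_mul_of_nonneg_left (mul_le_mul_of_nonneg_left hcη hδ.le) hn.le
    nlinarith
  have e2 : a * (8 * K') ≤ a * (δ * (c * n)) := mul_le_mul_of_nonneg_left e1 ha0.le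
  nlinarith

/-- Uniform restriction inequality. -/
lemma unif_restrict (hk : 2 ≤ k) (K : ℕ) {η B δ : ℝ} (hη : 0 < η) (hδ : 0 < δ) (hδ1 : δ < 1) :
    ∃ C : ℝ, ∃ n₀ : ℕ, 0 ≤ C ∧ k ≤ n₀ ∧ ∀ n, n₀ ≤ n → ∀ N, n ≤ N → N ≤ K * n → ∀ c, η ≤ c → c ≤ B →
      ∀ c', c' ≤ (1 - δ) * c * ((n : ℝ) / N) ^ (k - 1) →
      satProb k N ⌊c * N⌋₊ ≤ satProb k n ⌊c' * n⌋₊ + C / n := by
  refine ⟨16 * K * ((K : ℝ) ^ (k - 1)) ^ 2 / (δ ^ 2 * η),
    k + ⌈2 * (k : ℝ) ^ 2 / δ⌉₊ + ⌈8 * (K : ℝ) ^ (k - 1) / (δ * η)⌉₊, by positivity, by omega, ?_⟩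
  intro n hn N hnN hNK c hcη hcB c' hc'
  have hn1 : k ≤ n := by omega
  have hnpos : 0 < n := by omega
  have hnR : (0 : ℝ) < n := by exact_mod_cast hnpos
  have hNR : (0 : ℝ) < N := by exact_mod_cast (lt_of_lt_of_le hnpos hnN)
  have hc0 : 0 < c := lt_of_lt_of_le hη hcη
  have hK1 : 1 ≤ K := by
    by_contra h
    have : K = 0 := by omega
    subst this
    omega
  have hKR : (1 : ℝ) ≤ K := by exact_mod_cast hK1
  have hNKR : (N : ℝ) ≤ K * n := by exact_mod_cast hNK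
  have hnNR : (n : ℝ) ≤ N := by exact_mod_cast hnN
  have hnA : 2 * (k : ℝ) ^ 2 / δ ≤ n := by
    have h1 : (⌈2 * (k : ℝ) ^ 2 / δ⌉₊ : ℝ) ≤ n := by
      exact_mod_cast (by omega : ⌈2 * (k : ℝ) ^ 2 / δ⌉₊ ≤ n)
    exact (Nat.le_ceil _).trans h1
  have hnB : 8 * (K : ℝ) ^ (k - 1) / (δ * η) ≤ n := by
    have h1 : (⌈8 * (K : ℝ) ^ (k - 1) / (δ * η)⌉₊ : ℝ) ≤ n := by
      exact_mod_cast (by omega : ⌈8 * (K : ℝ) ^ (k - 1) / (δ * η)⌉₊ ≤ n)
    exact (Nat.le_ceil _).trans h1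
  set a : ℝ := ((n : ℝ) / N) ^ (k - 1) with ha
  have ha0 : 0 < a := by rw [ha]; positivity
  have ha1 : a ≤ 1 := by
    rw [ha]
    exact pow_le_one₀ (by positivity) ((div_le_one hNR).2 hnNR)
  have haK : 1 / (K : ℝ) ^ (k - 1) ≤ a := by
    rw [ha, ← one_div_pow]
    apply pow_le_pow_left₀ (by positivity)
    rw [div_le_div_iff₀ (by positivity) hNR]
    linarith
  have haK' : 1 ≤ a * (K : ℝ) ^ (k - 1) := by
    rw [div_le_iff₀ (by positivity)] at haK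
    exact haK
  obtain ⟨hM1, hM2⟩ := floor_bounds (x := c * N) (by positivity)
  set M : ℕ := ⌊c * N⌋₊ with hM
  set ρ : ℝ := (n.choose k : ℝ) / (N.choose k : ℝ) with hρ
  have hρ1 : (1 - (k : ℝ) ^ 2 / n) * ((n : ℝ) / N) ^ k ≤ ρ :=
    le_choose_div_choose (hn1.trans hnN) hnN hn1
  have hpow : ((n : ℝ) / N) ^ k = a * ((n : ℝ) / N) := by
    rw [ha, ← pow_succ]
    congr 1
    omega
  have hkn : (k : ℝ) ^ 2 / n ≤ δ / 2 := by
    rw [div_le_iff₀ hnR]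
    rw [div_le_iff₀ hδ] at hnA
    linarith
  have hρ2 : (1 - δ / 2) * (a * ((n : ℝ) / N)) ≤ ρ := by
    refine le_trans ?_ hρ1
    rw [hpow]
    exact mul_le_mul_of_nonneg_right (by linarith) (by positivity)
  have hρle1 : ρ ≤ 1 := by
    rw [hρ]
    apply div_le_one_of_le₀
    · exact_mod_cast Nat.choose_le_choose k hnN
    · positivity
  have hρ0 : 0 ≤ ρ := by rw [hρ]; positivity
  have hρM : (1 - δ / 2) * (a * (c * n)) - 1 ≤ ρ * M := by
    have e1 : ρ * (c * N - 1) ≤ ρ * M := mul_le_mul_of_nonneg_left hM1.le hρ0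
    have e2 : (1 - δ / 2) * (a * ((n : ℝ) / N)) * (c * N) ≤ ρ * (c * N) :=
      mul_le_mul_of_nonneg_right hρ2 (by positivity)
    have e3 : (1 - δ / 2) * (a * ((n : ℝ) / N)) * (c * N) = (1 - δ / 2) * (a * (c * n)) := by
      field_simp
    nlinarith
  have hmub : (⌊c' * n⌋₊ : ℝ) ≤ (1 - δ) * (a * (c * n)) := by
    have e1 : c' * n ≤ (1 - δ) * (a * (c * n)) := by
      have := mul_le_mul_of_nonneg_right hc' hnR.le
      calc c' * n ≤ (1 - δ) * c * a * n := this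
        _ = _ := by ring
    rcases le_or_gt 0 (c' * (n : ℝ)) with h | h
    · exact (Nat.floor_le h).trans e1
    · rw [Nat.floor_of_nonpos h.le]
      have : 0 ≤ 1 - δ := by linarith
      push_cast
      positivity
  set m : ℕ := ⌊c' * n⌋₊ with hm
  have hbig : 8 ≤ δ * (a * (c * n)) := by
    rw [div_le_iff₀ (by positivity)] at hnB
    exact num6 ha0 haK' hδ hnR hcη hnB
  have hD : δ * (a * (c * n)) / 4 ≤ ρ * M - m := by linarith
  have hDpos : 0 < δ * (a * (c * n)) / 4 := by positivity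
  have key := satProb_restrict (k := k) (n := n) (N := N) hn1 hnN (M := M) (m := m)
    (by linarith)
  refine key.trans ?_
  have hMub : (M : ℝ) ≤ c * (K * n) := hM2.trans (mul_le_mul_of_nonneg_left hNKR hc0.le)
  have b1 := num5 (k := k) (M := (M : ℝ)) (m := (m : ℝ)) hδ ha0 hc0 hnR hKR haK' hD hMub hη hcη
  linarith

/-- Comparison of `n` and `N` variables when `T n ≤ N ≤ K n`. -/
lemma unif_compare (hk : 2 ≤ k) {δ : ℝ} (hδ : 0 < δ) (hδ1 : δ < 1) :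
    ∃ T : ℕ, 1 ≤ T ∧ ∀ (K : ℕ) (η B : ℝ), 0 < η → ∃ C : ℝ, ∃ n₀ : ℕ, 0 ≤ C ∧ k ≤ n₀ ∧
      ∀ n, n₀ ≤ n → ∀ N, T * n ≤ N → N ≤ K * n → ∀ c, η ≤ c → c ≤ B →
      ∀ c', c' ≤ (1 - δ) * c →
      satProb k n ⌊c * n⌋₊ ^ K ≤ satProb k N ⌊c' * N⌋₊ + C / n := by
  set δ' : ℝ := δ / 3 with hδ'
  have hδ'0 : 0 < δ' := by rw [hδ']; positivity
  have hδ'1 : δ' < 1 / 3 := by rw [hδ']; linarith
  refine ⟨⌈(k : ℝ) / δ'⌉₊ + 1, by omega, ?_⟩
  intro K η B hη
  obtain ⟨C₁, n₁, hC₁, hkn₁, h₁⟩ := unif_mul (k := k) hk K (B := B) hη hδ'0 (by linarith)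
  obtain ⟨C₂, n₂, hC₂, hkn₂, h₂⟩ := unif_restrict (k := k) hk 2 (η := (1 - δ') * η) (B := B)
    (by have : 0 < 1 - δ' := by linarith
        positivity) hδ'0 (by linarith)
  refine ⟨C₁ + C₂, n₁ + n₂, by positivity, by omega, ?_⟩
  intro n hn N hTN hNK c hcη hcB c' hc'
  have hnpos : 0 < n := by omega
  have hnR : (0 : ℝ) < n := by exact_mod_cast hnpos
  have hc0 : 0 < c := lt_of_lt_of_le hη hcη
  have hkR : (2 : ℝ) ≤ k := by exact_mod_cast hk
  set T : ℕ := ⌈(k : ℝ) / δ'⌉₊ + 1 with hT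
  have hTR : (k : ℝ) / δ' ≤ T := by
    rw [hT]; push_cast; linarith [Nat.le_ceil ((k : ℝ) / δ')]
  have hTpos : (0 : ℝ) < T := by
    have : 0 < (k : ℝ) / δ' := by positivity
    linarith
  have hnN : n ≤ N := by
    have : 1 * n ≤ T * n := Nat.mul_le_mul_right n (by omega)
    omega
  have hNpos : 0 < N := by omega
  have hNR : (0 : ℝ) < N := by exact_mod_cast hNpos
  -- q = ceil(N / n)
  set q : ℕ := (N + n - 1) / n with hq
  have hq1 : N ≤ q * n := by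
    have h3 := Nat.div_add_mod (N + n - 1) n
    have h4 := Nat.mod_lt (N + n - 1) hnpos
    rw [← hq] at h3
    have h5 : n * q = q * n := Nat.mul_comm _ _
    omega
  have hq2 : q * n < N + n := by
    have h3 := Nat.div_mul_le_self (N + n - 1) n
    rw [← hq] at h3
    omega
  have hqpos : 1 ≤ q := by
    rcases Nat.eq_zero_or_pos q with h | h
    · rw [h] at hq1
      omega
    · exact h
  have hqK : q ≤ K := by
    have h3 : q * n < (K + 1) * n := by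
      calc q * n < N + n := hq2
        _ ≤ K * n + n := by omega
        _ = (K + 1) * n := by ring
    have := Nat.lt_of_mul_lt_mul_right h3
    omega
  set c₁ : ℝ := (1 - δ') * c with hc₁
  have step1 := h₁ n (by omega) q hqpos hqK c hcη hcB c₁ le_rfl
  have hqnR : ((q * n : ℕ) : ℝ) ≤ N + n := by exact_mod_cast hq2.le
  have hqnpos : (0 : ℝ) < ((q * n : ℕ) : ℝ) := by
    exact_mod_cast Nat.mul_pos hqpos hnpos
  have hratio : 1 - δ' ≤ ((N : ℝ) / ((q * n : ℕ) : ℝ)) ^ (k - 1) := by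
    have e1 : 1 - 1 / (T : ℝ) ≤ (N : ℝ) / ((q * n : ℕ) : ℝ) := by
      rw [le_div_iff₀ hqnpos]
      have hTn : (T : ℝ) * n ≤ N := by exact_mod_cast hTN
      have e2 : (1 - 1 / (T : ℝ)) * ((q * n : ℕ) : ℝ) ≤ (1 - 1 / (T : ℝ)) * (N + n) := by
        apply mul_le_mul_of_nonneg_left hqnR
        have : 1 / (T : ℝ) ≤ 1 := by
          rw [div_le_one hTpos]
          rw [hT]; push_cast; linarith [Nat.cast_nonneg (α := ℝ) ⌈(k : ℝ) / δ'⌉₊]
        linarith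
      have e3 : (1 - 1 / (T : ℝ)) * (N + n) ≤ N := by
        have e4 : (n : ℝ) ≤ N / T := by rw [le_div_iff₀ hTpos]; linarith
        have e5 : (1 - 1 / (T : ℝ)) * (N + n) = N - N / T + n - n / T := by ring
        have e6 : 0 ≤ (n : ℝ) / T := by positivity
        linarith
      linarith
    have e2 : 1 - (k : ℝ) / T ≤ (1 - 1 / (T : ℝ)) ^ (k - 1) := by
      have e3 : (-2 : ℝ) ≤ -(1 / (T : ℝ)) := by
        have : 1 / (T : ℝ) ≤ 1 := by
          rw [div_le_one hTpos]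
          rw [hT]; push_cast; linarith [Nat.cast_nonneg (α := ℝ) ⌈(k : ℝ) / δ'⌉₊]
        linarith
      have e4 := one_add_mul_le_pow e3 (k - 1)
      have e5 : ((k - 1 : ℕ) : ℝ) = k - 1 := by
        rw [Nat.cast_sub (by omega)]; simp
      rw [e5] at e4
      have e6 : 0 ≤ 1 / (T : ℝ) := by positivity
      calc 1 - (k : ℝ) / T ≤ 1 + ((k : ℝ) - 1) * -(1 / (T : ℝ)) := by
            have : (k : ℝ) / T = k * (1 / T) := by ring
            rw [this]; linarith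
        _ ≤ (1 + -(1 / (T : ℝ))) ^ (k - 1) := e4
        _ = _ := by ring
    have e3 : (k : ℝ) / T ≤ δ' := by
      rw [div_le_iff₀ hTpos]
      rw [div_le_iff₀ hδ'0] at hTR
      linarith
    have e4 : (0 : ℝ) ≤ 1 - 1 / (T : ℝ) := by
      have : 1 / (T : ℝ) ≤ 1 := by
        rw [div_le_one hTpos]
        rw [hT]; push_cast; linarith [Nat.cast_nonneg (α := ℝ) ⌈(k : ℝ) / δ'⌉₊]
      linarith
    have e5 := pow_le_pow_left₀ e4 e1 (k - 1)
    linarith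
  have hc'2 : c' ≤ (1 - δ') * c₁ * ((N : ℝ) / ((q * n : ℕ) : ℝ)) ^ (k - 1) := by
    have e1 : (1 - δ) * c ≤ (1 - δ') * c₁ * (1 - δ') := by
      rw [hc₁]
      have e2 : (1 - δ) ≤ (1 - δ') * (1 - δ') * (1 - δ') := by
        have : δ = 3 * δ' := by rw [hδ']; ring
        rw [this]
        nlinarith [mul_pos hδ'0 hδ'0]
      calc (1 - δ) * c ≤ ((1 - δ') * (1 - δ') * (1 - δ')) * c :=
            mul_le_mul_of_nonneg_right e2 hc0.le
        _ = _ := by ring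
    have e2 : (1 - δ') * c₁ * (1 - δ')
        ≤ (1 - δ') * c₁ * ((N : ℝ) / ((q * n : ℕ) : ℝ)) ^ (k - 1) := by
      apply mul_le_mul_of_nonneg_left hratio
      rw [hc₁]
      have : 0 < 1 - δ' := by linarith
      positivity
    linarith
  have step2 := h₂ N (by omega) (q * n) hq1 (by omega) c₁
    (by rw [hc₁]; exact mul_le_mul_of_nonneg_left hcη (by linarith))
    (by rw [hc₁]
        have : (1 - δ') * c ≤ 1 * c := mul_le_mul_of_nonneg_right (by linarith) hc0.le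
        linarith) c' hc'2
  have hpowle : satProb k n ⌊c * n⌋₊ ^ K ≤ satProb k n ⌊c * n⌋₊ ^ q :=
    pow_le_pow_of_le_one (satProb_nonneg _ _) (satProb_le_one _ _) hqK
  have hdiv : C₂ / (N : ℝ) ≤ C₂ / n :=
    div_le_div_of_nonneg_left hC₂ hnR (by exact_mod_cast hnN)
  rw [add_div]
  linarith

end Vale.Agent.P170
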