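import Vale.Agent.P170.Clauses

/-!
Block model: `q` disjoint blocks of `n` variables; restriction to fewer variables; lazy clauses.
-/

namespace Vale.Agent.P170

open Finset

section Restrict

variable {k : ℕ}

/-- Transport of clauses along an injection of variables. -/
def mapClause {V V' : Type} (e : V' ↪ V) (C : ProperClause k V') : ProperClause k V :=
  ⟨C.1.map (e.prodMap (Function.Embedding.refl Bool)), by
    rw [Finset.card_map]; exact C.2.1, by
    intro l hl l' hl' h
    simp only [Finset.coe_map, Set.mem_image, Finset.mem_coe] at hl hl'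
    obtain ⟨x, hx, rfl⟩ := hl
    obtain ⟨x', hx', rfl⟩ := hl'
    have : x.1 = x'.1 := e.injective (by simpa using h)
    rw [C.2.2 hx hx' this]⟩

lemma mapClause_injective {V V' : Type} (e : V' ↪ V) :
    Function.Injective (mapClause (k := k) e) := by
  intro C C' h
  have h1 := congrArg Subtype.val h
  exact Subtype.ext (Finset.map_injective _ h1)

variable {V V' : Type} [Fintype V] [DecidableEq V] [Fintype V'] [DecidableEq V']

lemma mem_sols_mapClause (e : V' ↪ V) (C : ProperClause k V') (σ : V → Bool) :
    σ ∈ sols (mapClause e C) ↔ (fun v => σ (e v)) ∈ sols C := by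
  rw [mem_sols, mem_sols]
  constructor
  · rintro ⟨l, hl, h⟩
    simp only [mapClause, Finset.mem_map] at hl
    obtain ⟨x, hx, rfl⟩ := hl
    exact ⟨x, hx, by simpa using h⟩
  · rintro ⟨l, hl, h⟩
    refine ⟨(e.prodMap (Function.Embedding.refl Bool)) l, ?_, by simpa using h⟩
    simp only [mapClause]
    exact Finset.mem_map_of_mem _ hl

/-- Restricting the formula to the clauses inside a subset of the variables. -/
lemma surv_restrict (e : V' ↪ V) (h' : k ≤ Fintype.card V') (h : k ≤ Fintype.card V) (M : ℕ)
    (S : Finset (V → Bool)) (S' : Finset (V' → Bool))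
    (hS : ∀ σ ∈ S, (fun v => σ (e v)) ∈ S') :
    surv k V M S ≤ lazyF (1 - ((Fintype.card (ProperClause k V') : ℝ) /
      (Fintype.card (ProperClause k V) : ℝ))) M (fun j => surv k V' j S') := by
  classical
  have hpos := card_properClause_pos (k := k) (V := V) h
  have hpos' := card_properClause_pos (k := k) (V := V') h'
  have hle : Fintype.card (ProperClause k V') ≤ Fintype.card (ProperClause k V) :=
    Fintype.card_le_of_injective _ (mapClause_injective e)
  set N : ℝ := (Fintype.card (ProperClause k V) : ℝ) with hN
  set N' : ℝ := (Fintype.card (ProperClause k V') : ℝ) with hN'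
  have hNpos : 0 < N := by rw [hN]; exact_mod_cast hpos
  have hNpos' : 0 < N' := by rw [hN']; exact_mod_cast hpos'
  have hle' : N' ≤ N := by rw [hN, hN']; exact_mod_cast hle
  induction M generalizing S S' with
  | zero =>
    simp only [surv_zero, lazyF]
    by_cases hne : S.Nonempty
    · obtain ⟨σ, hσ⟩ := hne
      rw [nonemp_of_nonempty (⟨_, hS σ hσ⟩ : S'.Nonempty)]
      exact nonemp_le_one S
    · rw [Finset.not_nonempty_iff_eq_empty] at hne
      rw [hne, nonemp_empty]
      exact nonemp_nonneg S'
  | succ M ih =>
    rw [surv_succ]
    simp only [lazyF]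
    set L := lazyF (1 - N' / N) M (fun j => surv k V' j S') with hL
    -- split the clauses
    let I : Finset (ProperClause k V) := Finset.univ.image (mapClause e)
    have hI : I.card = Fintype.card (ProperClause k V') := by
      rw [Finset.card_image_of_injective _ (mapClause_injective e), Finset.card_univ]
    rw [← Finset.sum_add_sum_compl I]
    have hin : ∑ C ∈ I, cw k V C * surv k V M (S ∩ sols C)
        ≤ (N' / N) * lazyF (1 - N' / N) M (fun j => surv k V' (j + 1) S') := by
      have hsum : (fun j => surv k V' (j + 1) S')
          = fun j => ∑ C ∈ (Finset.univ : Finset (ProperClause k V')),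
            cw k V' C * surv k V' j (S' ∩ sols C) := by
        funext j; exact surv_succ j S'
      rw [hsum, lazyF_sum _ M Finset.univ (cw k V') (fun C j => surv k V' j (S' ∩ sols C)),
        Finset.sum_image (fun C _ C' _ hCC => mapClause_injective e hCC), Finset.mul_sum]
      refine Finset.sum_le_sum fun C _ => ?_
      have h1 : surv k V M (S ∩ sols (mapClause e C))
          ≤ lazyF (1 - N' / N) M (fun j => surv k V' j (S' ∩ sols C)) := by
        refine ih (S ∩ sols (mapClause e C)) (S' ∩ sols C) ?_
        intro σ hσ
        rw [Finset.mem_inter] at hσ ⊢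
        exact ⟨hS σ hσ.1, (mem_sols_mapClause e C σ).1 hσ.2⟩
      have h2 : cw k V (mapClause e C) = N' / N * cw k V' C := by
        simp only [cw, ← hN, ← hN']
        field_simp
      rw [h2, mul_assoc]
      exact mul_le_mul_of_nonneg_left
        (mul_le_mul_of_nonneg_left h1 (cw_nonneg C)) (by positivity)
    have hout : ∑ C ∈ Iᶜ, cw k V C * surv k V M (S ∩ sols C) ≤ (1 - N' / N) * L := by
      have h1 : ∀ C ∈ Iᶜ, cw k V C * surv k V M (S ∩ sols C) ≤ (1 / N) * L := by
        intro C _
        have h2 : surv k V M (S ∩ sols C) ≤ L :=
          (surv_mono_set M Finset.inter_subset_left).trans (ih S S' hS)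
        exact mul_le_mul_of_nonneg_left h2 (by simp only [cw]; positivity)
      refine (Finset.sum_le_sum h1).trans ?_
      rw [Finset.sum_const, Finset.card_compl, hI, nsmul_eq_mul, Nat.cast_sub hle, ← hN, ← hN']
      have h3 : (N - N') * (1 / N * L) = (1 - N' / N) * L := by
        field_simp
      rw [h3]
    have h5 : (1 : ℝ) - (1 - N' / N) = N' / N := by ring
    rw [h5]
    linarith

end Restrict

section Equiv

variable {k : ℕ} {V V' : Type} [Fintype V] [DecidableEq V] [Fintype V'] [DecidableEq V']

/-- The survival probability only depends on the number of variables. -/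
lemma surv_equiv (e : V' ≃ V) (m : ℕ) (h : k ≤ Fintype.card V') :
    surv k V m Finset.univ = surv k V' m Finset.univ := by
  have hc : Fintype.card V' = Fintype.card V := Fintype.card_congr e
  have key : ∀ {A B : Type} [Fintype A] [DecidableEq A] [Fintype B] [DecidableEq B]
      (e : A ≃ B), k ≤ Fintype.card A → surv k B m Finset.univ ≤ surv k A m Finset.univ := by
    intro A B _ _ _ _ e hA
    have hAB : Fintype.card A = Fintype.card B := Fintype.card_congr e
    have h1 := surv_restrict (k := k) e.toEmbedding hA (hAB ▸ hA) m Finset.univ Finset.univ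
      (fun _ _ => Finset.mem_univ _)
    have hposA := card_properClause_pos (k := k) (V := A) hA
    have h2 : (Fintype.card (ProperClause k A) : ℝ) / (Fintype.card (ProperClause k B) : ℝ)
        = 1 := by
      rw [card_properClause, card_properClause, ← hAB, div_self]
      rw [card_properClause] at hposA
      exact_mod_cast hposA.ne'
    rw [h2] at h1
    have h3 : ∀ (M : ℕ) (s : ℕ → ℝ), lazyF (1 - 1) M s = s M := by
      intro M
      induction M with
      | zero => intro s; rfl
      | succ M ih => intro s; simp only [lazyF, ih]; ring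
    rw [h3] at h1
    exact h1
  exact le_antisymm (key e h) (key e.symm (hc ▸ h))

end Equiv

section Lazy

variable {k : ℕ} {V : Type} [Fintype V] [DecidableEq V]

/-- Weights of a lazy random clause: nothing with probability `θ`. -/
noncomputable def lw (k : ℕ) (V : Type) [Fintype V] [DecidableEq V] (θ : ℝ) :
    Option (ProperClause k V) → ℝ
  | none => θ
  | some C => (1 - θ) * cw k V C

/-- Solution sets of a lazy random clause. -/
def lsols : Option (ProperClause k V) → Finset (V → Bool)
  | none => Finset.univ
  | some C => sols C

lemma lw_nonneg {θ : ℝ} (h0 : 0 ≤ θ) (h1 : θ ≤ 1) (C : Option (ProperClause k V)) :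
    0 ≤ lw k V θ C := by
  cases C with
  | none => exact h0
  | some C => exact mul_nonneg (by linarith) (cw_nonneg C)

lemma lw_sum (h : k ≤ Fintype.card V) (θ : ℝ) : ∑ C, lw k V θ C = 1 := by
  rw [Fintype.sum_option]
  simp only [lw, ← Finset.mul_sum, cw_sum h]
  ring

lemma lazyOp_apply (θ : ℝ) (F : Finset (V → Bool) → ℝ) (S : Finset (V → Bool)) :
    avgOp (lw k V θ) lsols F S = θ * F S + (1 - θ) * clauseOp k V F S := by
  unfold avgOp clauseOp
  rw [Fintype.sum_option]
  simp only [lw, lsols, Finset.inter_univ, avgOp, Finset.mul_sum, mul_assoc]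

lemma clauseOp_linear (F G : Finset (V → Bool) → ℝ) (a b : ℝ) :
    clauseOp k V (fun S => a * F S + b * G S)
      = fun S => a * clauseOp k V F S + b * clauseOp k V G S := by
  funext S
  simp only [clauseOp, avgOp, Finset.mul_sum, ← Finset.sum_add_distrib]
  refine Finset.sum_congr rfl fun C _ => ?_
  ring

lemma lazy_iter (θ : ℝ) (M : ℕ) (S : Finset (V → Bool)) (i : ℕ) :
    (avgOp (lw k V θ) lsols)^[M] (fun S => surv k V i S) S
      = lazyF θ M (fun j => surv k V (j + i) S) := by
  induction M generalizing i with
  | zero => simp [lazyF]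
  | succ M ih =>
    rw [Function.iterate_succ_apply]
    have h1 : avgOp (lw k V θ) lsols (fun S => surv k V i S)
        = fun S => θ * surv k V i S + (1 - θ) * surv k V (i + 1) S := by
      funext S
      rw [lazyOp_apply]
      unfold surv
      rw [Function.iterate_succ_apply']
    rw [h1]
    have h2 : ∀ (M : ℕ) (F G : Finset (V → Bool) → ℝ) (a b : ℝ) (S : Finset (V → Bool)),
        (avgOp (lw k V θ) lsols)^[M] (fun S => a * F S + b * G S) S
          = a * (avgOp (lw k V θ) lsols)^[M] F S + b * (avgOp (lw k V θ) lsols)^[M] G S := by
      intro M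
      induction M with
      | zero => intro F G a b S; rfl
      | succ M ih' =>
        intro F G a b S
        rw [Function.iterate_succ_apply', Function.iterate_succ_apply',
          Function.iterate_succ_apply']
        unfold avgOp
        rw [Finset.mul_sum, Finset.mul_sum, ← Finset.sum_add_distrib]
        refine Finset.sum_congr rfl fun C _ => ?_
        have := ih' F G a b (S ∩ lsols C)
        unfold avgOp at this
        rw [this]
        ring
    rw [h2, ih i, ih (i + 1)]
    simp only [lazyF]
    have h3 : (fun j => surv k V (j + (i + 1)) S) = fun j => surv k V (j + 1 + i) S := by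
      funext j; congr 1; ring
    rw [h3]

end Lazy

section Blocks

variable {k q n : ℕ}

/-- Weights of a random block clause. -/
noncomputable def bw (k q n : ℕ) : Fin q × ProperClause k (Fin n) → ℝ :=
  fun p => 1 / q * cw k (Fin n) p.2

/-- Satisfying assignments of a block clause. -/
def bsols (p : Fin q × ProperClause k (Fin n)) : Finset (Fin q × Fin n → Bool) :=
  Finset.univ.filter fun σ => (fun i => σ (p.1, i)) ∈ sols p.2

lemma bw_nonneg (p : Fin q × ProperClause k (Fin n)) : 0 ≤ bw k q n p := by
  unfold bw
  have := cw_nonneg p.2
  positivity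

lemma bw_sum (hq : 0 < q) (h : k ≤ n) : ∑ p, bw k q n p = 1 := by
  have hq' : (q : ℝ) ≠ 0 := by positivity
  rw [Fintype.sum_prod_type]
  simp only [bw, ← Finset.mul_sum]
  rw [cw_sum (by simpa using h)]
  simp
  field_simp

/-- Product sets of assignments. -/
def cyl (S : Fin q → Finset (Fin n → Bool)) : Finset (Fin q × Fin n → Bool) :=
  Finset.univ.filter fun σ => ∀ b, (fun i => σ (b, i)) ∈ S b

lemma nonemp_cyl (S : Fin q → Finset (Fin n → Bool)) :
    nonemp (cyl S) = ∏ b, nonemp (S b) := by
  classical
  by_cases h : ∀ b, (S b).Nonempty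
  · have h1 : (cyl S).Nonempty := by
      choose f hf using h
      refine ⟨fun p => f p.1 p.2, ?_⟩
      simp only [cyl, Finset.mem_filter, Finset.mem_univ, true_and]
      exact fun b => hf b
    rw [nonemp_of_nonempty h1, Finset.prod_congr rfl fun b _ => nonemp_of_nonempty (h b)]
    simp
  · push Not at h
    obtain ⟨b, hb⟩ := h
    have h1 : cyl S = ∅ := by
      rw [Finset.eq_empty_iff_forall_notMem]
      intro σ hσ
      simp only [cyl, Finset.mem_filter, Finset.mem_univ, true_and] at hσ
      have := hσ b
      rw [hb] at this
      simp at this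
    rw [h1, nonemp_empty, Finset.prod_eq_zero (Finset.mem_univ b)]
    rw [hb, nonemp_empty]

lemma cyl_inter_bsols (S : Fin q → Finset (Fin n → Bool)) (b : Fin q)
    (C : ProperClause k (Fin n)) :
    cyl S ∩ bsols (b, C) = cyl (Function.update S b (S b ∩ sols C)) := by
  ext σ
  simp only [cyl, bsols, Finset.mem_inter, Finset.mem_filter, Finset.mem_univ, true_and]
  constructor
  · rintro ⟨h1, h2⟩ b'
    by_cases hb : b' = b
    · subst hb
      rw [Function.update_self, Finset.mem_inter]
      exact ⟨h1 b', h2⟩
    · rw [Function.update_of_ne hb]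
      exact h1 b'
  · intro h
    constructor
    · intro b'
      have := h b'
      by_cases hb : b' = b
      · subst hb
        rw [Function.update_self, Finset.mem_inter] at this
        exact this.1
      · rw [Function.update_of_ne hb] at this
        exact this
    · have := h b
      rw [Function.update_self, Finset.mem_inter] at this
      exact this.2

/-- The block model factorizes. -/
lemma block_iter (M : ℕ) (S : Fin q → Finset (Fin n → Bool)) :
    (avgOp (bw k q n) bsols)^[M] nonemp (cyl S)
      = multiF q M (fun m => ∏ b, surv k (Fin n) (m b) (S b)) := by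
  classical
  induction M generalizing S with
  | zero =>
    simp only [Function.iterate_zero, id_eq, multiF, Pi.zero_apply, surv_zero]
    exact nonemp_cyl S
  | succ M ih =>
    rw [Function.iterate_succ_apply']
    unfold avgOp
    rw [Fintype.sum_prod_type]
    simp only [multiF]
    rw [Finset.sum_div]
    refine Finset.sum_congr rfl fun b _ => ?_
    have h1 : ∀ C : ProperClause k (Fin n),
        bw k q n (b, C) * (fun F S => ∑ i, bw k q n i * F (S ∩ bsols i))^[M] nonemp
          (cyl S ∩ bsols (b, C))
        = 1 / q * (cw k (Fin n) C * multiF q M (fun m => ∏ b', surv k (Fin n) (m b')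
            (Function.update S b (S b ∩ sols C) b'))) := by
      intro C
      have := ih (Function.update S b (S b ∩ sols C))
      unfold avgOp at this
      rw [cyl_inter_bsols, this, bw, mul_assoc]
    rw [Finset.sum_congr rfl fun C _ => h1 C, ← Finset.mul_sum,
      ← multiF_sum q M Finset.univ (cw k (Fin n)) (fun C m => ∏ b', surv k (Fin n) (m b')
            (Function.update S b (S b ∩ sols C) b'))]
    have h2 : (fun m : Fin q → ℕ => ∑ C : ProperClause k (Fin n), cw k (Fin n) C *
        ∏ b', surv k (Fin n) (m b') (Function.update S b (S b ∩ sols C) b'))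
        = fun m => ∏ b', surv k (Fin n) ((m + Pi.single b 1 : Fin q → ℕ) b') (S b') := by
      funext m
      rw [← Finset.mul_prod_erase Finset.univ _ (Finset.mem_univ b)]
      have h3 : ∀ C : ProperClause k (Fin n),
          ∏ b', surv k (Fin n) (m b') (Function.update S b (S b ∩ sols C) b')
          = surv k (Fin n) (m b) (S b ∩ sols C) *
            ∏ b' ∈ Finset.univ.erase b, surv k (Fin n) (m b') (S b') := by
        intro C
        rw [← Finset.mul_prod_erase Finset.univ _ (Finset.mem_univ b), Function.update_self]
        congr 1
        refine Finset.prod_congr rfl fun b' hb' => ?_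
        rw [Function.update_of_ne (Finset.ne_of_mem_erase hb')]
      have h4 : ∏ b' ∈ Finset.univ.erase b,
          surv k (Fin n) ((m + Pi.single b 1 : Fin q → ℕ) b') (S b')
          = ∏ b' ∈ Finset.univ.erase b, surv k (Fin n) (m b') (S b') := by
        refine Finset.prod_congr rfl fun b' hb' => ?_
        rw [Pi.add_apply, Pi.single_apply, if_neg (Finset.ne_of_mem_erase hb'), add_zero]
      rw [h4, Pi.add_apply, Pi.single_eq_same, surv_succ, Finset.sum_mul]
      refine Finset.sum_congr rfl fun C _ => ?_
      rw [h3 C]
      ring
    rw [h2]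
    ring

end Blocks

end Vale.Agent.P170
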