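import Vale.Agent.P170.Operators

/-!
Counting proper clauses and the probability that a random clause kills a solution set.
-/

namespace Vale.Agent.P170

open Finset

section Clauses

variable {k : ℕ} {V : Type} [Fintype V] [DecidableEq V]

noncomputable instance : Fintype (ProperClause k V) := by
  classical
  exact Fintype.ofFinite _

/-- Assignments satisfying the clause. -/
def sols (C : ProperClause k V) : Finset (V → Bool) :=
  Finset.univ.filter fun σ => ∃ l ∈ C.1, σ l.1 = l.2

lemma mem_sols (C : ProperClause k V) (σ : V → Bool) :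
    σ ∈ sols C ↔ ∃ l ∈ C.1, σ l.1 = l.2 := by
  simp [sols]

/-- Indicator of nonemptiness. -/
noncomputable def nonemp {X : Type} (S : Finset X) : ℝ := by
  classical
  exact if S.Nonempty then 1 else 0

lemma nonemp_of_nonempty {X : Type} {S : Finset X} (h : S.Nonempty) : nonemp S = 1 := by
  simp [nonemp, h]

lemma nonemp_empty {X : Type} : nonemp (∅ : Finset X) = 0 := by
  simp [nonemp]

lemma nonemp_nonneg {X : Type} (S : Finset X) : 0 ≤ nonemp S := by
  unfold nonemp; split_ifs <;> norm_num

lemma nonemp_le_one {X : Type} (S : Finset X) : nonemp S ≤ 1 := by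
  unfold nonemp; split_ifs <;> norm_num

lemma nonemp_mono {X : Type} {S T : Finset X} (h : S ⊆ T) : nonemp S ≤ nonemp T := by
  unfold nonemp
  split_ifs with h1 h2 h2
  · exact le_rfl
  · exact absurd (h1.mono h) h2
  · norm_num
  · exact le_rfl

/-- Literals that are false under every assignment in `S`. -/
def falseLits (S : Finset (V → Bool)) : Finset (V × Bool) :=
  Finset.univ.filter fun l => ∀ σ ∈ S, σ l.1 ≠ l.2

lemma mem_falseLits (S : Finset (V → Bool)) (l : V × Bool) :
    l ∈ falseLits S ↔ ∀ σ ∈ S, σ l.1 ≠ l.2 := by
  simp [falseLits]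

lemma falseLits_injOn {S : Finset (V → Bool)} (hS : S.Nonempty) :
    Set.InjOn Prod.fst (falseLits S : Set (V × Bool)) := by
  obtain ⟨σ, hσ⟩ := hS
  rintro ⟨v, b⟩ hb ⟨v', b'⟩ hb' h
  simp only [Finset.mem_coe, mem_falseLits] at hb hb'
  simp only at h
  subst h
  have h1 := hb σ hσ
  have h2 := hb' σ hσ
  simp only [ne_eq] at h1 h2
  ext
  · rfl
  · simp only
    cases b <;> cases b' <;> cases hσv : σ v <;> simp_all

lemma inter_sols_eq_empty {S : Finset (V → Bool)} (C : ProperClause k V) :
    S ∩ sols C = ∅ ↔ C.1 ⊆ falseLits S := by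
  constructor
  · intro h l hl
    rw [mem_falseLits]
    intro σ hσ he
    have : σ ∈ S ∩ sols C := by
      rw [Finset.mem_inter, mem_sols]
      exact ⟨hσ, l, hl, he⟩
    rw [h] at this
    simp at this
  · intro h
    rw [Finset.eq_empty_iff_forall_notMem]
    intro σ hσ
    rw [Finset.mem_inter, mem_sols] at hσ
    obtain ⟨hσ, l, hl, he⟩ := hσ
    exact (mem_falseLits S l).1 (h hl) σ hσ he

/-- The number of proper clauses contained in a set `L` of literals on distinct variables. -/
lemma card_clauses_subset (L : Finset (V × Bool)) (hL : Set.InjOn Prod.fst (L : Set (V × Bool))) :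
    (Finset.univ.filter fun C : ProperClause k V => C.1 ⊆ L).card = L.card.choose k := by
  classical
  rw [← Finset.card_powersetCard]
  refine Finset.card_bij (fun C _ => C.1) ?_ ?_ ?_
  · intro C hC
    rw [Finset.mem_filter] at hC
    rw [Finset.mem_powersetCard]
    exact ⟨hC.2, C.2.1⟩
  · intro C _ C' _ h
    exact Subtype.ext h
  · intro A hA
    rw [Finset.mem_powersetCard] at hA
    refine ⟨⟨A, hA.2, hL.mono (by exact_mod_cast hA.1)⟩, ?_, rfl⟩
    rw [Finset.mem_filter]
    exact ⟨Finset.mem_univ _, hA.1⟩

/-- Total number of proper `k`-clauses. -/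
lemma card_properClause :
    Fintype.card (ProperClause k V) = 2 ^ k * (Fintype.card V).choose k := by
  classical
  -- project to the set of variables
  have hmaps : ∀ C ∈ (Finset.univ : Finset (ProperClause k V)),
      C.1.image Prod.fst ∈ (Finset.univ : Finset V).powersetCard k := by
    intro C _
    rw [Finset.mem_powersetCard]
    refine ⟨Finset.subset_univ _, ?_⟩
    rw [Finset.card_image_of_injOn C.2.2]
    exact C.2.1
  rw [← Finset.card_univ, Finset.card_eq_sum_card_fiberwise hmaps]
  have hfib : ∀ A ∈ (Finset.univ : Finset V).powersetCard k,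
      (Finset.univ.filter fun C : ProperClause k V => C.1.image Prod.fst = A).card = 2 ^ k := by
    intro A hA
    rw [Finset.mem_powersetCard] at hA
    have hpow : (2 : ℕ) ^ k = A.powerset.card := by rw [Finset.card_powerset, hA.2]
    rw [hpow]
    refine Finset.card_bij (fun C _ => A.filter fun v => (v, true) ∈ C.1) ?_ ?_ ?_
    · intro C _
      rw [Finset.mem_powerset]
      exact Finset.filter_subset _ _
    · intro C hC C' hC' h
      rw [Finset.mem_filter] at hC hC'
      apply Subtype.ext
      have key : ∀ (D : ProperClause k V), D.1.image Prod.fst = A → ∀ v ∈ A,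
          ((v, false) ∈ D.1 ↔ (v, true) ∉ D.1) := by
        intro D hD v hv
        rw [← hD, Finset.mem_image] at hv
        obtain ⟨⟨v', b⟩, hl, rfl⟩ := hv
        constructor
        · intro h1 h2
          have := D.2.2 h1 h2 rfl
          simp at this
        · intro h1
          cases b
          · exact hl
          · exact absurd hl h1
      have key2 : ∀ (D : ProperClause k V), D.1.image Prod.fst = A → ∀ l ∈ D.1, l.1 ∈ A := by
        intro D hD l hl
        rw [← hD]
        exact Finset.mem_image_of_mem _ hl
      have htrue : ∀ v ∈ A, ((v, true) ∈ C.1 ↔ (v, true) ∈ C'.1) := by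
        intro v hv
        have := Finset.ext_iff.1 h v
        simp only [Finset.mem_filter, hv, true_and] at this
        exact this
      ext ⟨v, b⟩
      constructor
      · intro hl
        have hv := key2 C hC.2 _ hl
        cases b
        · rw [key C' hC'.2 v hv, ← htrue v hv, ← key C hC.2 v hv]
          exact hl
        · rw [← htrue v hv]
          exact hl
      · intro hl
        have hv := key2 C' hC'.2 _ hl
        cases b
        · rw [key C hC.2 v hv, htrue v hv, ← key C' hC'.2 v hv]
          exact hl
        · rw [htrue v hv]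
          exact hl
    · intro B hB
      rw [Finset.mem_powerset] at hB
      have hinj : Set.InjOn (fun v : V => (v, decide (v ∈ B))) (A : Set V) := by
        intro v _ v' _ h
        simp only [Prod.mk.injEq] at h
        exact h.1
      refine ⟨⟨A.image fun v => (v, decide (v ∈ B)), ?_, ?_⟩, ?_, ?_⟩
      · rw [Finset.card_image_of_injOn hinj]
        exact hA.2
      · intro l hl l' hl' h
        simp only [Finset.coe_image, Set.mem_image, Finset.mem_coe] at hl hl'
        obtain ⟨v, _, rfl⟩ := hl
        obtain ⟨v', _, rfl⟩ := hl'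
        simp only at h
        subst h
        rfl
      · rw [Finset.mem_filter]
        refine ⟨Finset.mem_univ _, ?_⟩
        ext v
        simp [Finset.mem_image]
      · ext v
        simp only [Finset.mem_filter, Finset.mem_image, Prod.mk.injEq, decide_eq_true_eq]
        constructor
        · rintro ⟨_, v', _, rfl, h⟩
          exact h
        · intro hv
          exact ⟨hB hv, v, hB hv, rfl, hv⟩
  rw [Finset.sum_congr rfl hfib, Finset.sum_const, Finset.card_powersetCard, Finset.card_univ,
    smul_eq_mul, mul_comm]

/-- The uniform weight on clauses. -/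
noncomputable def cw (k : ℕ) (V : Type) [Fintype V] [DecidableEq V] : ProperClause k V → ℝ :=
  fun _ => 1 / (Fintype.card (ProperClause k V) : ℝ)

lemma cw_nonneg (C : ProperClause k V) : 0 ≤ cw k V C := by
  unfold cw; positivity

lemma card_properClause_pos (h : k ≤ Fintype.card V) : 0 < Fintype.card (ProperClause k V) := by
  rw [card_properClause]
  exact Nat.mul_pos (by positivity) (Nat.choose_pos h)

lemma cw_sum (h : k ≤ Fintype.card V) : ∑ C, cw k V C = 1 := by
  have := card_properClause_pos (k := k) (V := V) h
  simp only [cw, Finset.sum_const, Finset.card_univ, nsmul_eq_mul]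
  field_simp

/-- One random clause. -/
noncomputable def clauseOp (k : ℕ) (V : Type) [Fintype V] [DecidableEq V] :
    (Finset (V → Bool) → ℝ) → Finset (V → Bool) → ℝ :=
  avgOp (cw k V) sols

/-- Probability that `m` random clauses leave a solution in `S`. -/
noncomputable def surv (k : ℕ) (V : Type) [Fintype V] [DecidableEq V] (m : ℕ)
    (S : Finset (V → Bool)) : ℝ :=
  (clauseOp k V)^[m] nonemp S

lemma surv_zero (S : Finset (V → Bool)) : surv k V 0 S = nonemp S := rfl

lemma surv_succ (m : ℕ) (S : Finset (V → Bool)) :
    surv k V (m + 1) S = ∑ C : ProperClause k V, cw k V C * surv k V m (S ∩ sols C) := by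
  unfold surv clauseOp
  rw [Function.iterate_succ_apply']
  rfl

lemma surv_nonneg (m : ℕ) (S : Finset (V → Bool)) : 0 ≤ surv k V m S := by
  induction m generalizing S with
  | zero => exact nonemp_nonneg S
  | succ m ih =>
    rw [surv_succ]
    exact Finset.sum_nonneg fun C _ => mul_nonneg (cw_nonneg C) (ih _)

lemma surv_mono_set (m : ℕ) {S T : Finset (V → Bool)} (h : S ⊆ T) :
    surv k V m S ≤ surv k V m T := by
  induction m generalizing S T with
  | zero => exact nonemp_mono h
  | succ m ih =>
    rw [surv_succ, surv_succ]
    exact Finset.sum_le_sum fun C _ =>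
      mul_le_mul_of_nonneg_left (ih (Finset.inter_subset_inter h (Finset.Subset.refl _)))
        (cw_nonneg C)

lemma surv_le_one (h : k ≤ Fintype.card V) (m : ℕ) (S : Finset (V → Bool)) :
    surv k V m S ≤ 1 := by
  induction m generalizing S with
  | zero => exact nonemp_le_one S
  | succ m ih =>
    rw [surv_succ, ← cw_sum (V := V) h]
    exact Finset.sum_le_sum fun C _ => by
      have := mul_le_mul_of_nonneg_left (ih (S ∩ sols C)) (cw_nonneg C)
      simpa using this

lemma surv_succ_le (h : k ≤ Fintype.card V) (m : ℕ) (S : Finset (V → Bool)) :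
    surv k V (m + 1) S ≤ surv k V m S := by
  rw [surv_succ]
  calc ∑ C : ProperClause k V, cw k V C * surv k V m (S ∩ sols C)
      ≤ ∑ C : ProperClause k V, cw k V C * surv k V m S :=
        Finset.sum_le_sum fun C _ =>
          mul_le_mul_of_nonneg_left (surv_mono_set m Finset.inter_subset_left) (cw_nonneg C)
    _ = surv k V m S := by rw [← Finset.sum_mul, cw_sum h, one_mul]

lemma surv_antitone (h : k ≤ Fintype.card V) (S : Finset (V → Bool)) :
    Antitone fun m => surv k V m S :=
  antitone_nat_of_succ_le fun m => surv_succ_le h m S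

/-- Probability that one random clause leaves a solution, in terms of the frozen literals. -/
lemma clauseOp_nonemp {S : Finset (V → Bool)} (hS : S.Nonempty) (h : k ≤ Fintype.card V) :
    clauseOp k V nonemp S = 1 - ((falseLits S).card.choose k : ℝ) /
      (2 ^ k * ((Fintype.card V).choose k : ℝ)) := by
  classical
  have hpos := card_properClause_pos (k := k) (V := V) h
  have hN : (Fintype.card (ProperClause k V) : ℝ) ≠ 0 := by positivity
  have hcount : (∑ C : ProperClause k V, nonemp (S ∩ sols C))
      = (Fintype.card (ProperClause k V) : ℝ) - ((falseLits S).card.choose k : ℝ) := by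
    have h1 : ∀ C : ProperClause k V, nonemp (S ∩ sols C)
        = 1 - (if C.1 ⊆ falseLits S then (1 : ℝ) else 0) := by
      intro C
      by_cases hC : C.1 ⊆ falseLits S
      · rw [if_pos hC, (inter_sols_eq_empty C).2 hC, nonemp_empty]; norm_num
      · rw [if_neg hC]
        have : (S ∩ sols C).Nonempty := by
          rw [Finset.nonempty_iff_ne_empty]
          exact fun he => hC ((inter_sols_eq_empty C).1 he)
        rw [nonemp_of_nonempty this]; norm_num
    rw [Finset.sum_congr rfl fun C _ => h1 C, Finset.sum_sub_distrib, Finset.sum_const,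
      Finset.card_univ, nsmul_eq_mul, mul_one, Finset.sum_boole,
      card_clauses_subset _ (falseLits_injOn hS)]
  unfold clauseOp avgOp cw
  rw [← Finset.mul_sum, hcount]
  have h2 : (Fintype.card (ProperClause k V) : ℝ) = 2 ^ k * ((Fintype.card V).choose k : ℝ) := by
    rw [card_properClause]; push_cast; ring
  rw [← h2]
  field_simp

lemma clauseOp_nonemp_empty : clauseOp k V nonemp ∅ = 0 := by
  unfold clauseOp avgOp
  simp [nonemp_empty]

end Clauses

section Link

variable {k : ℕ}

lemma surv_mul_card {V : Type} [Fintype V] [DecidableEq V] (h : k ≤ Fintype.card V) (m : ℕ)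
    (S : Finset (V → Bool)) [DecidablePred fun F : Fin m → ProperClause k V =>
      ∃ σ ∈ S, ∀ i, σ ∈ sols (F i)] :
    surv k V m S * (Fintype.card (ProperClause k V) : ℝ) ^ m
      = ((Finset.univ.filter fun F : Fin m → ProperClause k V =>
          ∃ σ ∈ S, ∀ i, σ ∈ sols (F i)).card : ℝ) := by
  classical
  have hpos := card_properClause_pos (k := k) (V := V) h
  have hN : (Fintype.card (ProperClause k V) : ℝ) ≠ 0 := by positivity
  have main : surv k V m S * (Fintype.card (ProperClause k V) : ℝ) ^ m
      = ∑ F : Fin m → ProperClause k V, if ∃ σ ∈ S, ∀ i, σ ∈ sols (F i) then (1 : ℝ) else 0 := by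
    clear * - hN
    induction m generalizing S with
    | zero =>
      simp only [surv_zero, pow_zero, mul_one, IsEmpty.forall_iff, and_true]
      rw [Fintype.sum_unique]
      unfold nonemp
      by_cases hS : S.Nonempty
      · have hS' : ∃ σ, σ ∈ S := hS
        rw [if_pos hS, if_pos hS']
      · have hS' : ¬ ∃ σ, σ ∈ S := hS
        rw [if_neg hS, if_neg hS']
    | succ m ih =>
      rw [surv_succ, pow_succ', ← mul_assoc, Finset.sum_mul]
      have h1 : ∀ C : ProperClause k V,
          cw k V C * surv k V m (S ∩ sols C) * (Fintype.card (ProperClause k V) : ℝ)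
            = surv k V m (S ∩ sols C) := by
        intro C
        unfold cw
        field_simp
      rw [Finset.sum_congr rfl fun C _ => h1 C, Finset.sum_mul,
        Finset.sum_congr rfl fun C _ => ih (S ∩ sols C),
        ← (Fin.consEquiv fun _ : Fin (m + 1) => ProperClause k V).sum_comp,
        Fintype.sum_prod_type]
      refine Finset.sum_congr rfl fun C _ => Finset.sum_congr rfl fun F _ => ?_
      have hiff : (∃ σ ∈ S ∩ sols C, ∀ i, σ ∈ sols (F i)) ↔
          (∃ σ ∈ S, ∀ i, σ ∈ sols ((Fin.consEquiv fun _ : Fin (m + 1) => ProperClause k V)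
            (C, F) i)) := by
        constructor
        · rintro ⟨σ, hσ, hF⟩
          rw [Finset.mem_inter] at hσ
          refine ⟨σ, hσ.1, fun i => ?_⟩
          refine Fin.cases ?_ (fun i => ?_) i
          · simpa [Fin.consEquiv] using hσ.2
          · simpa [Fin.consEquiv] using hF i
        · rintro ⟨σ, hσ, hF⟩
          refine ⟨σ, ?_, fun i => ?_⟩
          · rw [Finset.mem_inter]
            exact ⟨hσ, by simpa [Fin.consEquiv] using hF 0⟩
          · simpa [Fin.consEquiv] using hF i.succ
      simp only [hiff]
  rw [main, Finset.sum_boole]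

/-- `satProb` is the survival probability started from all assignments. -/
lemma satProb_eq_surv {n : ℕ} (h : k ≤ n) (m : ℕ) :
    satProb k n m = surv k (Fin n) m Finset.univ := by
  classical
  have h' : k ≤ Fintype.card (Fin n) := by simpa using h
  have hpos := card_properClause_pos (k := k) (V := Fin n) h'
  have hN : (Fintype.card (ProperClause k (Fin n)) : ℝ) ≠ 0 := by positivity
  have h1 : Nat.card {F : Fin m → ProperClause k (Fin n) // Satisfiable F}
      = (Finset.univ.filter fun F : Fin m → ProperClause k (Fin n) =>
          ∃ σ ∈ (Finset.univ : Finset (Fin n → Bool)), ∀ i, σ ∈ sols (F i)).card := by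
    rw [Nat.card_eq_fintype_card, Fintype.card_subtype]
    congr 1
    ext F
    rw [Finset.mem_filter, Finset.mem_filter]
    simp only [Finset.mem_univ, true_and, Satisfiable, mem_sols]
  have h2 : Nat.card (Fin m → ProperClause k (Fin n))
      = Fintype.card (ProperClause k (Fin n)) ^ m := by
    rw [Nat.card_eq_fintype_card, Fintype.card_fun, Fintype.card_fin]
  unfold satProb
  rw [h1, h2, ← surv_mul_card h' m Finset.univ]
  push_cast
  field_simp

end Link

end Vale.Agent.P170
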