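import Mathlib

/-!
Random `k`-SAT: definitions, following problem P170.
-/

namespace Vale.Agent.P170

open Filter Topology

/-- A literal over Boolean variables indexed by `V`: the pair `(v, b)` is the literal that is
true under the assignment `σ` exactly when `σ v = b`. -/
abbrev Literal (V : Type) : Type := V × Bool

/-- A proper `k`-clause over `V`: a set of `k` literals on `k` distinct variables. -/
abbrev ProperClause (k : ℕ) (V : Type) : Type :=
  {C : Finset (Literal V) // C.card = k ∧ Set.InjOn Prod.fst (C : Set (Literal V))}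

/-- The formula `F 0 ∧ ... ∧ F (m-1)` is satisfiable: some assignment makes at least one literal
of every clause true. -/
def Satisfiable {k m : ℕ} {V : Type} (F : Fin m → ProperClause k V) : Prop :=
  ∃ σ : V → Bool, ∀ i, ∃ l ∈ (F i).1, σ l.1 = l.2

/-- `P_{k,n}(m)`: the probability that `m` independent uniform proper `k`-clauses on the
variables `x_1, ..., x_n` form a satisfiable formula (clauses are drawn with replacement), that
is, the proportion of satisfiable formulas among all `m`-tuples of proper `k`-clauses. -/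
noncomputable def satProb (k n m : ℕ) : ℝ :=
  (Nat.card {F : Fin m → ProperClause k (Fin n) // Satisfiable F} : ℝ) /
    (Nat.card (Fin m → ProperClause k (Fin n)) : ℝ)

/-- Random `k`-SAT has the limiting threshold `α`. -/
def HasLimitingThreshold (k : ℕ) (α : ℝ) : Prop :=
  0 < α ∧
  (∀ c : ℝ, 0 ≤ c → c < α → Tendsto (fun n : ℕ => satProb k n ⌊c * n⌋₊) atTop (𝓝 1)) ∧
  (∀ c : ℝ, α < c → Tendsto (fun n : ℕ => satProb k n ⌊c * n⌋₊) atTop (𝓝 0))

/-- `r` is a sharp threshold sequence for random `k`-SAT, as in Friedgut's theorem. -/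
def IsThresholdSequence (k : ℕ) (r : ℕ → ℝ) : Prop :=
  ∀ ε : ℝ, 0 < ε →
    Tendsto (fun n : ℕ => satProb k n ⌊(r n - ε) * n⌋₊) atTop (𝓝 1) ∧
    Tendsto (fun n : ℕ => satProb k n ⌊(r n + ε) * n⌋₊) atTop (𝓝 0)

end Vale.Agent.P170
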