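import Vale.Agent.P170.Doubling

/-!
For `k ≥ 3` and `m ≤ n / 5` a random `k`-SAT formula is satisfiable with probability at least
one half (Hall's theorem and a union bound).
-/

namespace Vale.Agent.P170

open Finset Filter Topology

section Hall

variable {k n m : ℕ}

/-- The variables of a clause. -/
def cvars {V : Type} [DecidableEq V] (C : ProperClause k V) : Finset V := C.1.image Prod.fst

lemma exists_blocking {F : Fin m → ProperClause k (Fin n)} (hF : ¬ Satisfiable F) (hmn : m ≤ n) :
    ∃ A : Finset (Fin m), A.Nonempty ∧ ∃ W ∈ (Finset.univ : Finset (Fin n)).powersetCard A.card,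
      ∀ i ∈ A, cvars (F i) ⊆ W := by
  classical
  by_contra hcon
  push Not at hcon
  apply hF
  have hall : ∀ A : Finset (Fin m), A.card ≤ (A.biUnion fun i => cvars (F i)).card := by
    intro A
    by_contra hA
    push Not at hA
    have hAne : A.Nonempty := by
      rw [Finset.nonempty_iff_ne_empty]
      rintro rfl
      simp at hA
    have hAn : A.card ≤ Fintype.card (Fin n) := by
      rw [Fintype.card_fin]
      calc A.card ≤ (Finset.univ : Finset (Fin m)).card := Finset.card_le_card (Finset.subset_univ _)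
        _ = m := by simp
        _ ≤ n := hmn
    obtain ⟨W, hW, hWc⟩ := Finset.exists_superset_card_eq hA.le hAn
    obtain ⟨i, hi, hnot⟩ := hcon A hAne W (by
      rw [Finset.mem_powersetCard]
      exact ⟨Finset.subset_univ _, hWc⟩)
    exact hnot ((Finset.subset_biUnion_of_mem (fun i => cvars (F i)) hi).trans hW)
  obtain ⟨f, hfinj, hf⟩ :=
    (Finset.all_card_le_biUnion_card_iff_exists_injective (fun i => cvars (F i))).1 hall
  have hl : ∀ i, ∃ l ∈ (F i).1, l.1 = f i := by
    intro i
    have := hf i
    simp only [cvars, Finset.mem_image] at this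
    exact this
  choose l hl1 hl2 using hl
  refine ⟨Function.extend f (fun i => (l i).2) (fun _ => true), fun i => ⟨l i, hl1 i, ?_⟩⟩
  rw [hl2 i, hfinj.extend_apply]

lemma card_cvars_subset (W : Finset (Fin n)) :
    (Finset.univ.filter fun C : ProperClause k (Fin n) => cvars C ⊆ W).card
      ≤ 2 ^ k * W.card.choose k := by
  classical
  have h1 : Fintype.card (ProperClause k W) = 2 ^ k * W.card.choose k := by
    rw [card_properClause, Fintype.card_coe]
  rw [← h1, ← Finset.card_univ (α := ProperClause k W)]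
  refine Finset.card_le_card_of_surjOn
    (mapClause (k := k) (⟨Subtype.val, Subtype.val_injective⟩ : W ↪ Fin n)) ?_
  intro C hC
  rw [Finset.mem_coe, Finset.mem_filter] at hC
  have hsub : ∀ l ∈ C.1, l.1 ∈ W := fun l hl => hC.2 (Finset.mem_image_of_mem _ hl)
  have hginj : Function.Injective
      (fun l : {l // l ∈ C.1} => ((⟨l.1.1, hsub l.1 l.2⟩ : W), l.1.2)) := by
    intro l l' h
    simp only [Prod.mk.injEq, Subtype.mk.injEq] at h
    exact Subtype.ext (Prod.ext h.1 h.2)
  have hmem : ∀ x : W × Bool, x ∈ (C.1.attach).map ⟨_, hginj⟩ ↔ (x.1.1, x.2) ∈ C.1 := by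
    intro x
    rw [Finset.mem_map]
    constructor
    · rintro ⟨l, _, rfl⟩
      exact l.2
    · intro h
      exact ⟨⟨_, h⟩, Finset.mem_attach _ _, rfl⟩
  refine ⟨⟨(C.1.attach).map ⟨_, hginj⟩, ?_, ?_⟩, ?_, ?_⟩
  · rw [Finset.card_map, Finset.card_attach]
    exact C.2.1
  · intro x hx x' hx' h
    rw [Finset.mem_coe, hmem] at hx hx'
    have h1 : x.1.1 = x'.1.1 := congrArg Subtype.val h
    have h2 := C.2.2 hx hx' h1
    have h3 : x.2 = x'.2 := congrArg (fun y : Fin n × Bool => y.2) h2
    exact Prod.ext h h3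
  · exact Finset.mem_coe.2 (Finset.mem_univ _)
  · apply Subtype.ext
    ext ⟨v, b⟩
    simp only [mapClause]
    rw [Finset.mem_map]
    constructor
    · rintro ⟨x, hx, h2⟩
      rw [hmem] at hx
      have h3 : (x.1.1, x.2) = (v, b) := h2
      rw [← h3]
      exact hx
    · intro h
      exact ⟨(⟨v, hsub _ h⟩, b), (hmem _).2 h, rfl⟩

lemma unsat_card_le (hmn : m ≤ n) :
    (Nat.card {F : Fin m → ProperClause k (Fin n) // ¬ Satisfiable F} : ℝ)
      ≤ ∑ A ∈ (Finset.univ : Finset (Fin m)).powerset, (if A.card = 0 then (0 : ℝ) else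
        (n.choose A.card : ℝ) * ((2 ^ k * (A.card.choose k : ℝ)) ^ A.card *
          (Fintype.card (ProperClause k (Fin n)) : ℝ) ^ (m - A.card))) := by
  classical
  set G : Finset (Fin n) → Finset (ProperClause k (Fin n)) := fun W =>
    Finset.univ.filter fun C : ProperClause k (Fin n) => cvars C ⊆ W with hG
  set Q : Finset (Fin m) → Finset (Fin n) → Finset (Fin m → ProperClause k (Fin n)) :=
    fun A W => Fintype.piFinset fun i => if i ∈ A then G W else Finset.univ with hQ
  have hsub : (Finset.univ.filter fun F : Fin m → ProperClause k (Fin n) => ¬ Satisfiable F)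
      ⊆ ((Finset.univ : Finset (Fin m)).powerset.filter fun A => A.card ≠ 0).biUnion fun A =>
        ((Finset.univ : Finset (Fin n)).powersetCard A.card).biUnion fun W => Q A W := by
    intro F hF
    rw [Finset.mem_filter] at hF
    obtain ⟨A, hA, W, hW, hAW⟩ := exists_blocking hF.2 hmn
    rw [Finset.mem_biUnion]
    refine ⟨A, ?_, ?_⟩
    · rw [Finset.mem_filter]
      exact ⟨Finset.mem_powerset.2 (Finset.subset_univ _), (Finset.card_pos.2 hA).ne'⟩
    · rw [Finset.mem_biUnion]
      refine ⟨W, hW, ?_⟩
      rw [hQ, Fintype.mem_piFinset]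
      intro i
      split_ifs with hi
      · rw [hG, Finset.mem_filter]
        exact ⟨Finset.mem_univ _, hAW i hi⟩
      · exact Finset.mem_univ _
  have hcardQ : ∀ A : Finset (Fin m), ∀ W ∈ (Finset.univ : Finset (Fin n)).powersetCard A.card,
      (Q A W).card ≤ (2 ^ k * A.card.choose k) ^ A.card *
        (Fintype.card (ProperClause k (Fin n))) ^ (m - A.card) := by
    intro A W hW
    rw [Finset.mem_powersetCard] at hW
    simp only [hQ]
    rw [Fintype.card_piFinset]
    have h1 : ∀ i : Fin m, (if i ∈ A then G W else Finset.univ).card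
        = if i ∈ A then (G W).card else Fintype.card (ProperClause k (Fin n)) := by
      intro i
      split_ifs <;> simp
    rw [Finset.prod_congr rfl fun i _ => h1 i, Finset.prod_ite, Finset.prod_const,
      Finset.prod_const]
    have h2 : (Finset.univ.filter fun i : Fin m => i ∈ A).card = A.card := by
      rw [Finset.filter_mem_eq_inter, Finset.univ_inter]
    have h3 : (Finset.univ.filter fun i : Fin m => i ∉ A).card = m - A.card := by
      have : (Finset.univ.filter fun i : Fin m => i ∉ A) = Aᶜ := by
        ext i; simp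
      rw [this, Finset.card_compl, Fintype.card_fin]
    rw [h2, h3]
    apply Nat.mul_le_mul_right
    apply Nat.pow_le_pow_left
    rw [← hW.2]
    exact card_cvars_subset W
  have hN : (Nat.card {F : Fin m → ProperClause k (Fin n) // ¬ Satisfiable F})
      = (Finset.univ.filter fun F : Fin m → ProperClause k (Fin n) => ¬ Satisfiable F).card := by
    rw [Nat.card_eq_fintype_card, Fintype.card_subtype]
  have hnat : (Nat.card {F : Fin m → ProperClause k (Fin n) // ¬ Satisfiable F})
      ≤ ∑ A ∈ (Finset.univ : Finset (Fin m)).powerset.filter (fun A => A.card ≠ 0),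
        n.choose A.card * ((2 ^ k * A.card.choose k) ^ A.card *
        (Fintype.card (ProperClause k (Fin n))) ^ (m - A.card)) := by
    rw [hN]
    refine (Finset.card_le_card hsub).trans (Finset.card_biUnion_le.trans ?_)
    refine Finset.sum_le_sum fun A _ => Finset.card_biUnion_le.trans ?_
    refine (Finset.sum_le_sum fun W hW => hcardQ A W hW).trans ?_
    rw [Finset.sum_const, Finset.card_powersetCard, Finset.card_univ, Fintype.card_fin, smul_eq_mul]
  have hreal : (Nat.card {F : Fin m → ProperClause k (Fin n) // ¬ Satisfiable F} : ℝ)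
      ≤ ((∑ A ∈ (Finset.univ : Finset (Fin m)).powerset.filter (fun A => A.card ≠ 0),
        n.choose A.card * ((2 ^ k * A.card.choose k) ^ A.card *
        (Fintype.card (ProperClause k (Fin n))) ^ (m - A.card)) : ℕ) : ℝ) := by
    exact_mod_cast hnat
  refine hreal.trans (le_of_eq ?_)
  rw [Finset.sum_filter]
  push_cast
  refine Finset.sum_congr rfl fun A _ => ?_
  by_cases hA : A.card = 0
  · simp [hA]
  · simp [hA]

end Hall

/-- Term estimate in the union bound. -/
lemma term_le {n m s : ℕ} (hs : 1 ≤ s) (hsm : s ≤ m) (hm : (m : ℝ) ≤ n / 5) :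
    (m.choose s : ℝ) * ((n.choose s : ℝ) * ((s : ℝ) / n) ^ (3 * s)) ≤ (1 / 3) ^ s := by
  have hs0 : (0 : ℝ) < s := by exact_mod_cast hs
  have hsmR : (s : ℝ) ≤ m := by exact_mod_cast hsm
  have hm0 : (0 : ℝ) < m := by linarith
  have hn0 : (0 : ℝ) < n := by linarith
  have hfac : (0 : ℝ) < s.factorial := by exact_mod_cast Nat.factorial_pos s
  have hexp : (s : ℝ) ^ s / s.factorial ≤ Real.exp 1 ^ s := by
    have := Real.pow_div_factorial_le_exp (s : ℝ) hs0.le s
    rw [← Real.exp_nat_mul, mul_one]
    exact this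
  have hch : ∀ N : ℕ, (N.choose s : ℝ) ≤ (N / s * Real.exp 1) ^ s := by
    intro N
    calc (N.choose s : ℝ) ≤ (N : ℝ) ^ s / s.factorial := Nat.choose_le_pow_div s N
      _ = (N / s : ℝ) ^ s * ((s : ℝ) ^ s / s.factorial) := by
          rw [div_pow]
          field_simp
      _ ≤ (N / s : ℝ) ^ s * Real.exp 1 ^ s := by
          apply mul_le_mul_of_nonneg_left hexp (by positivity)
      _ = (N / s * Real.exp 1) ^ s := by rw [mul_pow]
  have he : Real.exp 1 ^ 2 ≤ 8 := by
    have h1 := Real.exp_one_lt_d9
    have h2 := Real.exp_pos 1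
    nlinarith
  calc (m.choose s : ℝ) * ((n.choose s : ℝ) * ((s : ℝ) / n) ^ (3 * s))
      ≤ (m / s * Real.exp 1) ^ s * ((n / s * Real.exp 1) ^ s * ((s : ℝ) / n) ^ (3 * s)) := by
        have h1 := hch m
        have h2 := hch n
        have h3 : (0 : ℝ) ≤ ((s : ℝ) / n) ^ (3 * s) := by positivity
        exact mul_le_mul h1 (mul_le_mul_of_nonneg_right h2 h3) (by positivity) (by positivity)
    _ = (Real.exp 1 ^ 2 * (m / n) * (s / n)) ^ s := by
        rw [pow_mul, ← mul_pow, ← mul_pow]
        congr 1
        field_simp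
    _ ≤ (1 / 3) ^ s := by
        apply pow_le_pow_left₀ (by positivity)
        have h1 : (m : ℝ) / n ≤ 1 / 5 := by
          rw [div_le_iff₀ hn0]; linarith
        have h2 : (s : ℝ) / n ≤ 1 / 5 := by
          rw [div_le_iff₀ hn0]; linarith
        calc Real.exp 1 ^ 2 * (m / n) * (s / n) ≤ 8 * (1 / 5) * (1 / 5) := by gcongr
          _ ≤ 1 / 3 := by norm_num

lemma geom_third (m : ℕ) :
    ∑ s ∈ Finset.range (m + 1), (if s = 0 then (0 : ℝ) else (1 / 3) ^ s) ≤ 1 / 2 := by
  have h : ∀ m : ℕ, ∑ s ∈ Finset.range (m + 1), (if s = 0 then (0 : ℝ) else (1 / 3) ^ s)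
      = 1 / 2 - 1 / 2 * (1 / 3) ^ m := by
    intro m
    induction m with
    | zero => simp
    | succ m ih =>
      rw [Finset.sum_range_succ, ih, if_neg (by omega)]
      ring
  rw [h]
  have : (0 : ℝ) ≤ (1 / 3) ^ m := by positivity
  linarith

/-- At density at most `1 / 5` the formula is satisfiable with probability at least `1 / 2`. -/
theorem satProb_pos {k n m : ℕ} (hk : 3 ≤ k) (hkn : k ≤ n) (hm : (m : ℝ) ≤ n / 5) :
    1 / 2 ≤ satProb k n m := by
  classical
  have hn0 : (0 : ℝ) < n := by
    have : 0 < n := by omega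
    exact_mod_cast this
  have hmn : m ≤ n := by
    have : (m : ℝ) ≤ n := by linarith
    exact_mod_cast this
  have hpos := card_properClause_pos (k := k) (V := Fin n) (by simpa using hkn)
  set N : ℝ := (Fintype.card (ProperClause k (Fin n)) : ℝ) with hN
  have hNpos : 0 < N := by rw [hN]; exact_mod_cast hpos
  have htot : (Nat.card (Fin m → ProperClause k (Fin n)) : ℝ) = N ^ m := by
    rw [Nat.card_eq_fintype_card, Fintype.card_fun, Fintype.card_fin]
    push_cast
    rw [hN]
  have hsplit : (Nat.card {F : Fin m → ProperClause k (Fin n) // Satisfiable F} : ℝ)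
      + (Nat.card {F : Fin m → ProperClause k (Fin n) // ¬ Satisfiable F} : ℝ) = N ^ m := by
    rw [← htot, ← Nat.cast_add]
    congr 1
    rw [Nat.card_eq_fintype_card, Nat.card_eq_fintype_card, Nat.card_eq_fintype_card,
      Fintype.card_subtype_compl]
    have := Fintype.card_subtype_le (fun F : Fin m → ProperClause k (Fin n) => Satisfiable F)
    omega
  have hun := unsat_card_le (k := k) hmn
  rw [← hN] at hun
  have hterm : ∀ A ∈ (Finset.univ : Finset (Fin m)).powerset, (if A.card = 0 then (0 : ℝ) else
        (n.choose A.card : ℝ) * ((2 ^ k * (A.card.choose k : ℝ)) ^ A.card *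
          N ^ (m - A.card))) ≤ (fun s : ℕ => N ^ m * (if s = 0 then (0 : ℝ) else
            (n.choose s : ℝ) * ((s : ℝ) / n) ^ (3 * s))) A.card := by
    intro A hA
    have hAm : A.card ≤ m := by
      calc A.card ≤ (Finset.univ : Finset (Fin m)).card := Finset.card_le_card (Finset.subset_univ _)
        _ = m := by simp
    simp only
    by_cases hA0 : A.card = 0
    · simp [hA0]
    · rw [if_neg hA0, if_neg hA0]
      have hAn : A.card ≤ n := hAm.trans hmn
      have h1 : (2 ^ k * (A.card.choose k : ℝ)) ≤ N * ((A.card : ℝ) / n) ^ 3 := by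
        have h2 := choose_div_choose_le hAn hkn
        have hchpos : (0 : ℝ) < (n.choose k : ℝ) := by exact_mod_cast Nat.choose_pos hkn
        have h3 : N = 2 ^ k * (n.choose k : ℝ) := by
          rw [hN, card_properClause, Fintype.card_fin]
          push_cast
          ring
        have h4 : ((A.card : ℝ) / n) ^ k ≤ ((A.card : ℝ) / n) ^ 3 := by
          apply pow_le_pow_of_le_one (by positivity) _ hk
          rw [div_le_one hn0]
          exact_mod_cast hAn
        rw [div_le_iff₀ hchpos] at h2
        rw [h3]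
        calc (2 : ℝ) ^ k * (A.card.choose k : ℝ)
            ≤ 2 ^ k * (((A.card : ℝ) / n) ^ 3 * (n.choose k : ℝ)) := by
              apply mul_le_mul_of_nonneg_left _ (by positivity)
              exact h2.trans (mul_le_mul_of_nonneg_right h4 hchpos.le)
          _ = _ := by ring
      have h5 : (2 ^ k * (A.card.choose k : ℝ)) ^ A.card
          ≤ N ^ A.card * ((A.card : ℝ) / n) ^ (3 * A.card) := by
        calc (2 ^ k * (A.card.choose k : ℝ)) ^ A.card ≤ (N * ((A.card : ℝ) / n) ^ 3) ^ A.card :=
              pow_le_pow_left₀ (by positivity) h1 _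
          _ = _ := by rw [mul_pow, ← pow_mul]
      have h6 : N ^ A.card * N ^ (m - A.card) = N ^ m := by
        rw [← pow_add]
        congr 1
        omega
      calc (n.choose A.card : ℝ) * ((2 ^ k * (A.card.choose k : ℝ)) ^ A.card * N ^ (m - A.card))
          ≤ (n.choose A.card : ℝ) * ((N ^ A.card * ((A.card : ℝ) / n) ^ (3 * A.card))
            * N ^ (m - A.card)) := by gcongr
        _ = (N ^ A.card * N ^ (m - A.card)) *
            ((n.choose A.card : ℝ) * ((A.card : ℝ) / n) ^ (3 * A.card)) := by ring
        _ = _ := by rw [h6]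
  have hun2 := hun.trans (Finset.sum_le_sum hterm)
  have hcard := Finset.sum_powerset_apply_card (x := (Finset.univ : Finset (Fin m)))
    (fun s : ℕ => N ^ m * (if s = 0 then (0 : ℝ) else
      (n.choose s : ℝ) * ((s : ℝ) / n) ^ (3 * s)))
  rw [Finset.card_univ, Fintype.card_fin] at hcard
  replace hun2 := hun2.trans (le_of_eq hcard)
  have hsum : ∑ s ∈ Finset.range (m + 1), m.choose s • (N ^ m * (if s = 0 then (0 : ℝ) else
      (n.choose s : ℝ) * ((s : ℝ) / n) ^ (3 * s))) ≤ N ^ m * (1 / 2) := by
    calc ∑ s ∈ Finset.range (m + 1), m.choose s • (N ^ m * (if s = 0 then (0 : ℝ) else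
          (n.choose s : ℝ) * ((s : ℝ) / n) ^ (3 * s)))
        ≤ ∑ s ∈ Finset.range (m + 1), N ^ m * (if s = 0 then (0 : ℝ) else (1 / 3) ^ s) := by
          refine Finset.sum_le_sum fun s hs => ?_
          rw [Finset.mem_range] at hs
          rw [nsmul_eq_mul]
          by_cases hs0 : s = 0
          · simp [hs0]
          · rw [if_neg hs0, if_neg hs0]
            have := term_le (n := n) (m := m) (s := s) (by omega) (by omega) hm
            calc (m.choose s : ℝ) * (N ^ m * ((n.choose s : ℝ) * ((s : ℝ) / n) ^ (3 * s)))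
                = N ^ m * ((m.choose s : ℝ) * ((n.choose s : ℝ) * ((s : ℝ) / n) ^ (3 * s))) := by
                  ring
              _ ≤ N ^ m * (1 / 3) ^ s := mul_le_mul_of_nonneg_left this (by positivity)
      _ = N ^ m * ∑ s ∈ Finset.range (m + 1), (if s = 0 then (0 : ℝ) else (1 / 3) ^ s) := by
          rw [Finset.mul_sum]
      _ ≤ N ^ m * (1 / 2) := mul_le_mul_of_nonneg_left (geom_third m) (by positivity)
  have hun3 := hun2.trans hsum
  unfold satProb
  rw [htot, le_div_iff₀ (by positivity)]
  linarith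

end Vale.Agent.P170
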