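import Vale.Agent.P170.Window

/-!
Convergence of the threshold location along `n = 2 ^ j`.
-/

namespace Vale.Agent.P170

open Finset Filter Topology

variable {k : ℕ}

/-- The first `m` with `P_{k,n}(m) < 1/2`. -/
noncomputable def thr (k n : ℕ) : ℕ := sInf {m | satProb k n m < 1 / 2}

lemma thr_spec {n : ℕ} (hkn : k ≤ n) (hk : 1 ≤ k) : satProb k n (thr k n) < 1 / 2 := by
  have hne : {m | satProb k n m < 1 / 2}.Nonempty := by
    have h1 : Tendsto (fun m : ℕ => (2 : ℝ) ^ n * (1 - 1 / 2 ^ k) ^ m) atTop (𝓝 0) := by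
      have h2 : (1 : ℝ) / 2 ^ k ≤ 1 / 2 := by
        apply one_div_le_one_div_of_le (by norm_num)
        calc (2 : ℝ) = 2 ^ 1 := by norm_num
          _ ≤ 2 ^ k := pow_le_pow_right₀ (by norm_num) hk
      have h3 : (0 : ℝ) < 1 / 2 ^ k := by positivity
      have := (tendsto_pow_atTop_nhds_zero_of_lt_one (r := 1 - 1 / (2 : ℝ) ^ k)
        (by linarith) (by linarith)).const_mul ((2 : ℝ) ^ n)
      simpa using this
    obtain ⟨m, hm⟩ := (h1.eventually_lt_const (by norm_num : (0 : ℝ) < 1 / 2)).exists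
    exact ⟨m, lt_of_le_of_lt (satProb_first_moment hkn m) hm⟩
  exact Nat.sInf_mem hne

lemma half_le_of_lt_thr {n m : ℕ} (h : m < thr k n) : 1 / 2 ≤ satProb k n m := by
  by_contra hcon
  push Not at hcon
  exact Nat.notMem_of_lt_sInf h hcon

lemma lt_thr {n m : ℕ} (hkn : k ≤ n) (hk : 1 ≤ k) (h : 1 / 2 ≤ satProb k n m) :
    m < thr k n := by
  by_contra hcon
  push Not at hcon
  have h1 := satProb_antitone hkn hcon
  have h2 := thr_spec hkn hk
  linarith

lemma thr_pos {n : ℕ} (hkn : k ≤ n) (hk : 1 ≤ k) : 0 < thr k n :=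
  lt_thr hkn hk (by rw [satProb_zero hkn]; norm_num)

lemma satProb_small (hk : 2 ≤ k) {δ : ℝ} (hδ : 0 < δ) :
    ∃ n₀ : ℕ, ∀ n, n₀ ≤ n → ∀ m : ℕ, δ ≤ satProb k n m → (m : ℝ) ≤ 2 ^ k * n := by
  obtain ⟨n₀, hn₀⟩ := eventually_atTop.1 ((tendsto_two_pow (k := k) hk).eventually_lt_const hδ)
  refine ⟨max n₀ k, fun n hn m hm => ?_⟩
  by_contra hbig
  push Not at hbig
  have h3 : ⌊(2 : ℝ) ^ k * n⌋₊ ≤ m := by
    have h4 := Nat.floor_le (by positivity : 0 ≤ (2 : ℝ) ^ k * n)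
    have h5 : ((⌊(2 : ℝ) ^ k * n⌋₊ : ℕ) : ℝ) < m := by linarith
    exact_mod_cast h5.le
  have h6 := satProb_antitone (k := k) (n := n) (le_of_max_le_right hn) h3
  have h7 := hn₀ n (le_of_max_le_left hn)
  linarith

/-- Close to `thr` there is a point of larger probability. -/
lemma exists_good (hk : 3 ≤ k) : ∃ n₀ : ℕ, ∀ n : ℕ, n₀ ≤ n → ∃ m : ℕ,
    3 / 4 ≤ satProb k n m ∧ (thr k n : ℝ) - 2 - (n : ℝ) ^ (15 / 16 : ℝ) ≤ m := by
  obtain ⟨n₀, hn₀⟩ := window hk (ε := 1 / 4) (by norm_num) (by norm_num)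
  refine ⟨max n₀ k, fun n hn => ?_⟩
  have hkn : k ≤ n := le_of_max_le_right hn
  set x : ℝ := (thr k n : ℝ) - 2 - (n : ℝ) ^ (15 / 16 : ℝ) with hx
  refine ⟨⌈x⌉₊, ?_, Nat.le_ceil x⟩
  rcases le_or_gt x 0 with hx0 | hx0
  · rw [Nat.ceil_eq_zero.2 hx0, satProb_zero hkn]
    norm_num
  · by_contra hcon
    push Not at hcon
    have hpos := thr_pos (k := k) hkn (by omega)
    have h1 := hn₀ n (le_of_max_le_left hn) ⌈x⌉₊ (thr k n - 1) (by linarith)
      (by
        have := half_le_of_lt_thr (k := k) (n := n) (m := thr k n - 1) (by omega)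
        linarith)
    have h2 := Nat.ceil_lt_add_one hx0.le
    have h3 : ((thr k n - 1 : ℕ) : ℝ) = (thr k n : ℝ) - 1 := by
      rw [Nat.cast_sub (by omega)]
      norm_num
    rw [h3] at h1
    rw [hx] at h2
    linarith

/-- Error terms in the doubling step. -/
lemma doubling_err {D z m M m' N : ℝ} (hk : 2 ≤ k) (hD : 1 ≤ D)
    (hz : 16 * (4 + 2 * D * ((k : ℝ) ^ 2) ^ k) + 5 ≤ z) (hN : N = z ^ 16)
    (hm : z ^ 15 < m) (hmD : m ≤ D * N) (hM : M ≤ (1 - 1 / z) * (2 * m))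
    (hM' : (1 - 1 / z) * (2 * m) - 1 ≤ M) (hm' : m' ≤ (1 - 4 / z) * (2 * m)) :
    M / 2 < m ∧ m' < (1 - 1 / z) * M ∧
    M / (m - M / 2) ^ 2 + M / ((1 - 1 / z) * M - m') ^ 2
      + M * ((k : ℝ) ^ 2 / (1 / z * N)) ^ k ≤ 1 / 16 := by
  have hQ : 0 ≤ 2 * D * ((k : ℝ) ^ 2) ^ k := by positivity
  set Q : ℝ := 2 * D * ((k : ℝ) ^ 2) ^ k with hQdef
  have hz69 : 69 ≤ z := by linarith
  have hz0 : 0 < z := by linarith
  have hz1 : 1 ≤ z := by linarith
  have hm0 : 0 < m := lt_trans (by positivity) hm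
  have hmz : z ^ 14 ≤ m / z := by
    rw [le_div_iff₀ hz0]
    calc z ^ 14 * z = z ^ 15 := by ring
      _ ≤ m := hm.le
  have hmz1 : 1 ≤ m / z := le_trans (one_le_pow₀ hz1) hmz
  have e1 : (1 - 1 / z) * (2 * m) = 2 * m - 2 * (m / z) := by ring
  have e2 : (1 - 4 / z) * (2 * m) = 2 * m - 8 * (m / z) := by ring
  rw [e1] at hM hM'
  rw [e2] at hm'
  set w : ℝ := m / z with hw
  have hw0 : 0 < w := by linarith
  have hMpos : 0 ≤ M := by
    have : w ≤ m / 69 := by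
      rw [hw]
      exact div_le_div_of_nonneg_left hm0.le (by norm_num) hz69
    linarith
  have hM2 : M ≤ 2 * m := by linarith
  have d1 : w ≤ m - M / 2 := by linarith
  have hMz : M / z ≤ 2 * w := by
    rw [hw, ← mul_div_assoc]
    exact div_le_div_of_nonneg_right hM2 hz0.le
  have e3 : (1 - 1 / z) * M = M - M / z := by ring
  have d2 : w ≤ (1 - 1 / z) * M - m' := by
    rw [e3]
    linarith
  have hsq : M / w ^ 2 ≤ 2 / z ^ 13 := by
    have h1 : M / w ^ 2 ≤ 2 * m / w ^ 2 := div_le_div_of_nonneg_right hM2 (by positivity)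
    have h2 : 2 * m / w ^ 2 = 2 * z ^ 2 / m := by
      rw [hw]
      field_simp
    rw [h2] at h1
    refine h1.trans ?_
    rw [div_le_div_iff₀ hm0 (by positivity)]
    calc 2 * z ^ 2 * z ^ 13 = 2 * z ^ 15 := by ring
      _ ≤ 2 * m := by linarith
  refine ⟨by linarith, by linarith, ?_⟩
  have t1 : M / (m - M / 2) ^ 2 ≤ 2 / z ^ 13 :=
    le_trans (div_le_div_of_nonneg_left hMpos (by positivity) (pow_le_pow_left₀ hw0.le d1 2)) hsq
  have t2 : M / ((1 - 1 / z) * M - m') ^ 2 ≤ 2 / z ^ 13 :=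
    le_trans (div_le_div_of_nonneg_left hMpos (by positivity) (pow_le_pow_left₀ hw0.le d2 2)) hsq
  have t3 : M * ((k : ℝ) ^ 2 / (1 / z * N)) ^ k ≤ Q / z ^ 14 := by
    have h1 : (k : ℝ) ^ 2 / (1 / z * N) = (k : ℝ) ^ 2 * (1 / z ^ 15) := by
      rw [hN]
      field_simp
    rw [h1, mul_pow]
    have h2 : (1 / z ^ 15) ^ k ≤ (1 / z ^ 15) ^ 2 := by
      apply pow_le_pow_of_le_one (by positivity) _ hk
      rw [div_le_one (by positivity)]
      exact one_le_pow₀ hz1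
    calc M * (((k : ℝ) ^ 2) ^ k * (1 / z ^ 15) ^ k)
        ≤ (2 * (D * N)) * (((k : ℝ) ^ 2) ^ k * (1 / z ^ 15) ^ 2) := by
          apply mul_le_mul (by linarith) _ (by positivity) (by rw [hN]; positivity)
          exact mul_le_mul_of_nonneg_left h2 (by positivity)
      _ = Q / z ^ 14 := by
          rw [hN, hQdef]
          field_simp
          try ring
  have hpow : ∀ (c : ℝ) (j : ℕ), 0 ≤ c → 1 ≤ j → c / z ^ j ≤ c / z := by
    intro c j hc hj
    apply div_le_div_of_nonneg_left hc hz0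
    calc z = z ^ 1 := by ring
      _ ≤ z ^ j := pow_le_pow_right₀ hz1 hj
  have t4 := hpow 2 13 (by norm_num) (by norm_num)
  have t5 := hpow Q 14 hQ (by norm_num)
  have t6 : 2 / z + 2 / z + Q / z ≤ 1 / 16 := by
    rw [← add_div, ← add_div, div_le_div_iff₀ hz0 (by norm_num)]
    linarith
  linarith

/-- The doubling step. -/
theorem doubling (hk : 3 ≤ k) : ∃ C : ℝ, 0 < C ∧ ∃ n₀ : ℕ, ∀ n : ℕ, n₀ ≤ n →
    (thr k n : ℝ) / n - C * (n : ℝ) ^ (-(1 / 16) : ℝ) ≤ (thr k (2 * n) : ℝ) / ((2 * n : ℕ) : ℝ) := by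
  set D : ℝ := 2 ^ k with hD
  have hD1 : 1 ≤ D := one_le_pow₀ (by norm_num)
  obtain ⟨n₁, hn₁⟩ := exists_good hk
  obtain ⟨n₂, hn₂⟩ := satProb_small (k := k) (by omega) (δ := 3 / 4) (by norm_num)
  set Z : ℝ := 16 * (4 + 2 * D * ((k : ℝ) ^ 2) ^ k) + 5 with hZ
  have hZ5 : 5 ≤ Z := by
    have : 0 ≤ 2 * D * ((k : ℝ) ^ 2) ^ k := by positivity
    rw [hZ]; linarith
  have hzlim : Tendsto (fun n : ℕ => (n : ℝ) ^ (1 / 16 : ℝ)) atTop atTop :=
    (tendsto_rpow_atTop (by norm_num : (0 : ℝ) < 1 / 16)).comp tendsto_natCast_atTop_atTop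
  obtain ⟨n₃, hn₃⟩ := eventually_atTop.1 (hzlim.eventually_ge_atTop Z)
  refine ⟨4 * D + 4, by positivity, max (max n₁ n₂) (max n₃ (max k 1)), fun n hn => ?_⟩
  have hnn₁ : n₁ ≤ n := le_trans (le_max_left _ _) (le_of_max_le_left hn)
  have hnn₂ : n₂ ≤ n := le_trans (le_max_right _ _) (le_of_max_le_left hn)
  have hnn₃ : n₃ ≤ n := le_of_max_le_left (le_of_max_le_right hn)
  have hkn : k ≤ n := le_of_max_le_left (le_of_max_le_right (le_of_max_le_right hn))
  have hn1 : 1 ≤ n := le_of_max_le_right (le_of_max_le_right (le_of_max_le_right hn))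
  have hnpos : (0 : ℝ) < n := by exact_mod_cast hn1
  set z : ℝ := (n : ℝ) ^ (1 / 16 : ℝ) with hz
  have hzZ : Z ≤ z := hn₃ n hnn₃
  have hz0 : 0 < z := by linarith
  have hz1 : 1 ≤ z := by linarith
  have hzpow : ∀ j : ℕ, z ^ j = (n : ℝ) ^ ((j : ℝ) / 16) := by
    intro j
    rw [hz, ← Real.rpow_natCast, ← Real.rpow_mul hnpos.le]
    congr 1
    ring
  have hz16 : z ^ 16 = n := by
    rw [hzpow 16]
    norm_num
  have hz15 : (n : ℝ) ^ (15 / 16 : ℝ) = z ^ 15 := by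
    rw [hzpow 15]
    norm_num
  have hzinv : (n : ℝ) ^ (-(1 / 16) : ℝ) = 1 / z := by
    rw [Real.rpow_neg hnpos.le, ← hz, one_div]
  obtain ⟨m, hm34, hmthr⟩ := hn₁ n hnn₁
  have hmD := hn₂ n hnn₂ m hm34
  rw [← hD] at hmD
  rw [hz15] at hmthr
  rw [hzinv]
  have h16 : (1 : ℝ) / z = z ^ 15 / n := by
    rw [← hz16]
    field_simp
  have hone : (1 : ℝ) ≤ z ^ 15 := one_le_pow₀ hz1
  rcases le_or_gt (m : ℝ) (z ^ 15) with hsmall | hbig
  · have h1 : (thr k n : ℝ) / n ≤ 4 * (1 / z) := by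
      rw [h16, ← mul_div_assoc]
      apply div_le_div_of_nonneg_right _ hnpos.le
      linarith
    have h2 : (0 : ℝ) ≤ (thr k (2 * n) : ℝ) / ((2 * n : ℕ) : ℝ) := by positivity
    have h3 : 4 * (1 / z) ≤ (4 * D + 4) * (1 / z) := by
      apply mul_le_mul_of_nonneg_right _ (by positivity)
      linarith
    linarith
  · set M : ℕ := ⌊(1 - 1 / z) * (2 * m)⌋₊ with hM
    set m' : ℕ := ⌊(1 - 4 / z) * (2 * m)⌋₊ with hm'
    have hz4 : 4 / z ≤ 1 := by
      rw [div_le_one hz0]; linarith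
    have hz14 : 1 / z ≤ 1 := by
      rw [div_le_one hz0]; linarith
    have hMle : (M : ℝ) ≤ (1 - 1 / z) * (2 * m) :=
      Nat.floor_le (mul_nonneg (by linarith) (by positivity))
    have hMge : (1 - 1 / z) * (2 * m) - 1 ≤ (M : ℝ) := (Nat.sub_one_lt_floor _).le
    have hm'le : (m' : ℝ) ≤ (1 - 4 / z) * (2 * m) :=
      Nat.floor_le (mul_nonneg (by linarith) (by positivity))
    have hm'ge : (1 - 4 / z) * (2 * m) < (m' : ℝ) + 1 := Nat.lt_floor_add_one _
    obtain ⟨g1, g2, g3⟩ := doubling_err (k := k) (by omega) hD1 (by rw [← hZ]; exact hzZ)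
      hz16.symm hbig hmD hMle hMge hm'le
    have hmul := satProb_mul (k := k) (q := 2) (n := n) (by norm_num) (by omega) hkn
      (θ := 1 / z) (by positivity) hz14 (M := M) (m := m) (m' := m') (by exact_mod_cast g1) g2
    have hsq : (9 / 16 : ℝ) ≤ satProb k n m ^ 2 := by
      have := pow_le_pow_left₀ (by norm_num : (0 : ℝ) ≤ 3 / 4) hm34 2
      linarith
    have hhalf : 1 / 2 ≤ satProb k (2 * n) m' := by
      push_cast at hmul
      linarith
    have hlt := lt_thr (k := k) (n := 2 * n) (by omega) (by omega) hhalf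
    have hlt' : (m' : ℝ) + 1 ≤ (thr k (2 * n) : ℝ) := by exact_mod_cast hlt
    have h2n : (0 : ℝ) < ((2 * n : ℕ) : ℝ) := by push_cast; linarith
    rw [le_div_iff₀ h2n]
    push_cast
    have e1 : ((thr k n : ℝ) / n - (4 * D + 4) * (1 / z)) * (2 * n)
        = 2 * (thr k n : ℝ) - 2 * (4 * D + 4) * (n * (1 / z)) := by
      field_simp
    have e2 : (n : ℝ) * (1 / z) = z ^ 15 := by
      rw [h16]
      field_simp
    rw [e1, e2]
    have e3 : (1 - 4 / z) * (2 * (m : ℝ)) = 2 * m - 8 * (m / z) := by ring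
    have e4 : (m : ℝ) / z ≤ D * z ^ 15 := by
      rw [div_le_iff₀ hz0]
      calc (m : ℝ) ≤ D * n := hmD
        _ = D * z ^ 15 * z := by rw [← hz16]; ring
    linarith

lemma conv_of_almost_mono {t : ℕ → ℝ} {C r U : ℝ} {j₀ : ℕ} (hC : 0 ≤ C) (hr0 : 0 < r)
    (hr1 : r < 1) (h : ∀ j, j₀ ≤ j → t j - C * r ^ j ≤ t (j + 1))
    (hU : ∀ j, j₀ ≤ j → t j ≤ U) : ∃ τ : ℝ, Tendsto t atTop (𝓝 τ) := by
  have hr1' : 0 < 1 - r := by linarith
  set c : ℝ := C / (1 - r) with hc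
  have hc0 : 0 ≤ c := by rw [hc]; positivity
  set s : ℕ → ℝ := fun j => t (j + j₀) - c * r ^ (j + j₀) with hs
  have hmono : Monotone s := by
    refine monotone_nat_of_le_succ fun j => ?_
    have h1 := h (j + j₀) (by omega)
    have h2 : j + 1 + j₀ = (j + j₀) + 1 := by omega
    simp only [hs]
    rw [h2, pow_succ]
    have h3 : c * r ^ (j + j₀) - c * (r ^ (j + j₀) * r) = C * r ^ (j + j₀) := by
      rw [hc]
      field_simp
    linarith
  have hbdd : BddAbove (Set.range s) := by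
    refine ⟨U, ?_⟩
    rintro _ ⟨j, rfl⟩
    have h1 := hU (j + j₀) (by omega)
    have h2 : 0 ≤ c * r ^ (j + j₀) := by positivity
    simp only [hs]
    linarith
  have hlim := tendsto_atTop_ciSup hmono hbdd
  have hpow : Tendsto (fun j : ℕ => c * r ^ (j + j₀)) atTop (𝓝 0) := by
    have h1 := ((tendsto_pow_atTop_nhds_zero_of_lt_one hr0.le hr1).comp
      (tendsto_add_atTop_nat j₀)).const_mul c
    simpa using h1
  refine ⟨⨆ j, s j, ?_⟩
  rw [← tendsto_add_atTop_iff_nat j₀]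
  have h2 := hlim.add hpow
  simp only [add_zero] at h2
  refine h2.congr fun j => ?_
  simp only [hs]
  ring

/-- The threshold location converges along powers of two. -/
theorem thr_converges (hk : 3 ≤ k) : ∃ τ : ℝ,
    Tendsto (fun j : ℕ => (thr k (2 ^ j) : ℝ) / ((2 ^ j : ℕ) : ℝ)) atTop (𝓝 τ) := by
  obtain ⟨C, hC, n₀, hn₀⟩ := doubling hk
  obtain ⟨n₁, hn₁⟩ := satProb_small (k := k) (by omega) (δ := 1 / 2) (by norm_num)
  have hlarge : ∀ N : ℕ, ∃ j₀ : ℕ, ∀ j, j₀ ≤ j → N ≤ 2 ^ j := by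
    intro N
    refine ⟨N, fun j hj => ?_⟩
    exact le_trans (Nat.lt_two_pow_self).le (Nat.pow_le_pow_right (by norm_num) hj)
  obtain ⟨j₀, hj₀⟩ := hlarge (max (max n₀ n₁) (max k 1))
  set r : ℝ := (2 : ℝ) ^ (-(1 / 16) : ℝ) with hr
  have hr0 : 0 < r := Real.rpow_pos_of_pos (by norm_num) _
  have hr1 : r < 1 := Real.rpow_lt_one_of_one_lt_of_neg (by norm_num) (by norm_num)
  refine conv_of_almost_mono (C := C) (r := r) (U := 2 ^ k + 1) (j₀ := j₀) hC.le hr0 hr1 ?_ ?_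
  · intro j hj
    have h1 := hj₀ j hj
    have h2 := hn₀ (2 ^ j) (le_trans (le_max_left _ _) (le_of_max_le_left h1))
    have h3 : (((2 ^ j : ℕ)) : ℝ) ^ (-(1 / 16) : ℝ) = r ^ j := by
      rw [hr]
      push_cast
      rw [← Real.rpow_natCast, ← Real.rpow_natCast, ← Real.rpow_mul (by norm_num),
        ← Real.rpow_mul (by norm_num), mul_comm]
    rw [h3] at h2
    have h4 : 2 * 2 ^ j = 2 ^ (j + 1) := by ring
    rw [h4] at h2
    exact h2
  · intro j hj
    have h1 := hj₀ j hj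
    have hkn : k ≤ 2 ^ j := le_of_max_le_left (le_of_max_le_right h1)
    have hpos := thr_pos (k := k) hkn (by omega)
    have h2 := hn₁ (2 ^ j) (le_trans (le_max_right _ _) (le_of_max_le_left h1))
      (thr k (2 ^ j) - 1) (half_le_of_lt_thr (by omega))
    have h3 : (1 : ℝ) ≤ ((2 ^ j : ℕ) : ℝ) := by exact_mod_cast Nat.one_le_two_pow
    rw [div_le_iff₀ (by linarith)]
    have h4 : ((thr k (2 ^ j) - 1 : ℕ) : ℝ) = (thr k (2 ^ j) : ℝ) - 1 := by
      rw [Nat.cast_sub (by omega)]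
      norm_num
    rw [h4] at h2
    nlinarith

/-- Along powers of two there is a sharp threshold at the limit. -/
theorem along_two_pow (hk : 3 ≤ k) {τ : ℝ}
    (hτ : Tendsto (fun j : ℕ => (thr k (2 ^ j) : ℝ) / ((2 ^ j : ℕ) : ℝ)) atTop (𝓝 τ)) :
    ThresholdAlong k τ (fun j => 2 ^ j) := by
  have hnj : Tendsto (fun j : ℕ => ((2 ^ j : ℕ) : ℝ)) atTop atTop := by
    have : Tendsto (fun j : ℕ => 2 ^ j) atTop atTop :=
      tendsto_pow_atTop_atTop_of_one_lt (by norm_num)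
    exact tendsto_natCast_atTop_atTop.comp this
  have hnj' : Tendsto (fun j : ℕ => 2 ^ j) atTop (atTop : Filter ℕ) :=
    tendsto_pow_atTop_atTop_of_one_lt (by norm_num)
  -- `n ^ (15/16) / n` tends to zero
  have hwin : Tendsto (fun j : ℕ => ((2 ^ j : ℕ) : ℝ) ^ (15 / 16 : ℝ) / ((2 ^ j : ℕ) : ℝ))
      atTop (𝓝 0) := by
    have h1 := (tendsto_rpow_neg_atTop (by norm_num : (0 : ℝ) < 1 / 16)).comp hnj
    refine h1.congr' ?_
    filter_upwards with j
    have hpos : (0 : ℝ) < ((2 ^ j : ℕ) : ℝ) := by positivity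
    simp only [Function.comp_apply]
    rw [eq_div_iff hpos.ne', ← Real.rpow_add_one hpos.ne']
    norm_num
  have hinv : Tendsto (fun j : ℕ => 2 / ((2 ^ j : ℕ) : ℝ)) atTop (𝓝 0) :=
    hnj.const_div_atTop 2
  constructor
  · intro c hc0 hcτ
    rw [tendsto_order]
    constructor
    · intro a ha
      set ε : ℝ := min ((1 - a) / 2) (1 / 2) with hε
      have hε0 : 0 < ε := by rw [hε]; apply lt_min <;> linarith
      have hε1 : ε ≤ 1 / 2 := min_le_right _ _
      have hεa : a < 1 - ε := by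
        have : ε ≤ (1 - a) / 2 := min_le_left _ _
        linarith
      obtain ⟨n₀, hn₀⟩ := window hk hε0 hε1
      have hlim : Tendsto (fun j : ℕ => (thr k (2 ^ j) : ℝ) / ((2 ^ j : ℕ) : ℝ)
          - 2 / ((2 ^ j : ℕ) : ℝ)
          - ((2 ^ j : ℕ) : ℝ) ^ (15 / 16 : ℝ) / ((2 ^ j : ℕ) : ℝ)) atTop (𝓝 τ) := by
        simpa using (hτ.sub hinv).sub hwin
      filter_upwards [hlim.eventually_const_lt hcτ, hnj'.eventually_ge_atTop (max n₀ k)] with j hj hjn
      have hkn : k ≤ 2 ^ j := le_of_max_le_right hjn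
      have hpos : (0 : ℝ) < ((2 ^ j : ℕ) : ℝ) := by positivity
      have htp := thr_pos (k := k) hkn (by omega)
      by_contra hcon
      push Not at hcon
      have h1 := hn₀ (2 ^ j) (le_of_max_le_left hjn) ⌊c * ((2 ^ j : ℕ) : ℝ)⌋₊ (thr k (2 ^ j) - 1)
        (by linarith) (by
          have := half_le_of_lt_thr (k := k) (n := 2 ^ j) (m := thr k (2 ^ j) - 1) (by omega)
          linarith)
      have h2 : ((thr k (2 ^ j) - 1 : ℕ) : ℝ) = (thr k (2 ^ j) : ℝ) - 1 := by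
        rw [Nat.cast_sub (by omega)]
        norm_num
      rw [h2] at h1
      have h3 := Nat.floor_le (by positivity : 0 ≤ c * ((2 ^ j : ℕ) : ℝ))
      rw [← sub_div, ← sub_div, lt_div_iff₀ hpos] at hj
      linarith
    · intro a ha
      filter_upwards with j
      exact lt_of_le_of_lt (satProb_le_one _ _) ha
  · intro c hcτ
    rw [tendsto_order]
    constructor
    · intro a ha
      filter_upwards with j
      exact lt_of_lt_of_le ha (satProb_nonneg _ _)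
    · intro a ha
      set ε : ℝ := min (a / 2) (1 / 2) with hε
      have hε0 : 0 < ε := by rw [hε]; apply lt_min <;> linarith
      have hε1 : ε ≤ 1 / 2 := min_le_right _ _
      have hεa : ε < a := by
        have : ε ≤ a / 2 := min_le_left _ _
        linarith
      obtain ⟨n₀, hn₀⟩ := window hk hε0 hε1
      have hlim : Tendsto (fun j : ℕ => (thr k (2 ^ j) : ℝ) / ((2 ^ j : ℕ) : ℝ)
          + 2 / ((2 ^ j : ℕ) : ℝ)
          + ((2 ^ j : ℕ) : ℝ) ^ (15 / 16 : ℝ) / ((2 ^ j : ℕ) : ℝ)) atTop (𝓝 τ) := by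
        simpa using (hτ.add hinv).add hwin
      filter_upwards [hlim.eventually_lt_const hcτ, hnj'.eventually_ge_atTop (max n₀ k)] with j hj hjn
      have hkn : k ≤ 2 ^ j := le_of_max_le_right hjn
      have hpos : (0 : ℝ) < ((2 ^ j : ℕ) : ℝ) := by positivity
      by_contra hcon
      push Not at hcon
      have h1 := hn₀ (2 ^ j) (le_of_max_le_left hjn) (thr k (2 ^ j)) ⌊c * ((2 ^ j : ℕ) : ℝ)⌋₊
        (by
          have := thr_spec (k := k) hkn (by omega)
          linarith) (by linarith)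
      have h3 := Nat.sub_one_lt_floor (c * ((2 ^ j : ℕ) : ℝ))
      rw [← add_div, ← add_div, div_lt_iff₀ hpos] at hj
      linarith

end Vale.Agent.P170
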