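import Vale.Agent.P170.Variance

/-!
Bounding the expected fraction of frozen literals: a random literal is compared with a random
`k`-clause through the formula on one variable less.
-/

namespace Vale.Agent.P170

open Finset

section Powers

variable {k : ℕ} {V : Type} [Fintype V] [DecidableEq V]

lemma card_falseLits_le {S : Finset (V → Bool)} (hS : S.Nonempty) :
    (falseLits S).card ≤ Fintype.card V := by
  rw [← Finset.card_image_of_injOn (falseLits_injOn hS), ← Finset.card_univ]
  exact Finset.card_le_card (Finset.subset_univ _)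

/-- The probability that a random clause destroys all solutions. -/
lemma kill_eq {S : Finset (V → Bool)} (hS : S.Nonempty) (h : k ≤ Fintype.card V) :
    nonemp S - clauseOp k V nonemp S = ((falseLits S).card.choose k : ℝ) /
      ((Fintype.card V).choose k : ℝ) / 2 ^ k := by
  rw [clauseOp_nonemp hS h, nonemp_of_nonempty hS, div_div, mul_comm (2 ^ k : ℝ)]
  ring

lemma kill_le_fp (h : k ≤ Fintype.card V) (S : Finset (V → Bool)) :
    nonemp S - clauseOp k V nonemp S ≤ fp k S := by
  rcases Finset.eq_empty_or_nonempty S with hS | hS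
  · subst hS
    rw [clauseOp_nonemp_empty, nonemp_empty]
    simp [fp, nonemp_empty]
  · rw [kill_eq hS h]
    unfold fp
    rw [nonemp_of_nonempty hS, one_mul]
    have h3 := choose_div_choose_le (card_falseLits_le hS) h
    calc ((falseLits S).card.choose k : ℝ) / ((Fintype.card V).choose k : ℝ) / 2 ^ k
        ≤ (((falseLits S).card : ℝ) / Fintype.card V) ^ k / 2 ^ k := by gcongr
      _ = (((falseLits S).card : ℝ) / (2 * Fintype.card V)) ^ k := by
          rw [← div_pow, div_div, mul_comm]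

lemma fp_le_kill (h : k ≤ Fintype.card V) (hk : 1 ≤ k) (S : Finset (V → Bool)) :
    fp k S ≤ 2 * (nonemp S - clauseOp k V nonemp S)
      + 2 * ((k : ℝ) ^ 2 / Fintype.card V) ^ k * nonemp S := by
  rcases Finset.eq_empty_or_nonempty S with hS | hS
  · subst hS
    rw [clauseOp_nonemp_empty, nonemp_empty]
    simp [fp, nonemp_empty]
  · rw [kill_eq hS h]
    unfold fp
    rw [nonemp_of_nonempty hS, one_mul, mul_one]
    have hV : 0 < Fintype.card V := by omega
    have hVR : (0 : ℝ) < Fintype.card V := by exact_mod_cast hV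
    have h3 := lower_choose h (card_falseLits_le hS) (θ := 1 / 2) (by norm_num) (by norm_num) hk
    have h4 : (((falseLits S).card : ℝ) / (2 * Fintype.card V)) ^ k
        = (((falseLits S).card : ℝ) / Fintype.card V) ^ k / 2 ^ k := by
      rw [← div_pow, div_div, mul_comm]
    have h5 : ((k : ℝ) ^ 2 / (1 / 2 * Fintype.card V)) ^ k
        = 2 ^ k * ((k : ℝ) ^ 2 / Fintype.card V) ^ k := by
      rw [← mul_pow]
      congr 1
      field_simp
    rw [h5] at h3
    rw [h4]
    have h6 : (0 : ℝ) < 2 ^ k := by positivity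
    have h7 : (((falseLits S).card : ℝ) / Fintype.card V) ^ k / 2 ^ k
        ≤ 2 * ((((falseLits S).card.choose k : ℝ) / ((Fintype.card V).choose k : ℝ)
          + 2 ^ k * ((k : ℝ) ^ 2 / Fintype.card V) ^ k) / 2 ^ k) := by
      rw [← mul_div_assoc]
      apply div_le_div_of_nonneg_right _ h6.le
      linarith
    refine h7.trans (le_of_eq ?_)
    field_simp

lemma fp_pred_le {K : ℕ} {y : ℝ} (hy : 0 < y) (S : Finset (V → Bool)) :
    fp K S ≤ (1 / y) * fp (K + 1) S + y ^ K * nonemp S := by
  unfold fp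
  set a : ℝ := ((falseLits S).card : ℝ) / (2 * Fintype.card V) with ha
  have ha0 : 0 ≤ a := by rw [ha]; positivity
  have hν := nonemp_nonneg S
  have key : a ^ K ≤ (1 / y) * a ^ (K + 1) + y ^ K := by
    rcases le_total a y with hay | hay
    · have h1 : a ^ K ≤ y ^ K := pow_le_pow_left₀ ha0 hay K
      have h2 : 0 ≤ (1 / y) * a ^ (K + 1) := by positivity
      linarith
    · have h1 : a ^ K ≤ (1 / y) * a ^ (K + 1) := by
        rw [pow_succ', one_div, inv_mul_eq_div, le_div_iff₀ hy]
        nlinarith [pow_nonneg ha0 K]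
      have h2 : 0 ≤ y ^ K := by positivity
      linarith
  calc nonemp S * a ^ K ≤ nonemp S * ((1 / y) * a ^ (K + 1) + y ^ K) :=
        mul_le_mul_of_nonneg_left key hν
    _ = _ := by ring

/-- The hypothesis of `surv_var`. -/
lemma fp_pred_le_kill {K : ℕ} (h : K + 1 ≤ Fintype.card V) {y : ℝ} (hy : 0 < y)
    (S : Finset (V → Bool)) :
    fp K S ≤ (2 / y) * (nonemp S - clauseOp (K + 1) V nonemp S)
      + (2 * (((K + 1 : ℕ) : ℝ) ^ 2 / Fintype.card V) ^ (K + 1) / y + y ^ K) * nonemp S := by
  have h1 := fp_pred_le (K := K) hy S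
  have h2 := fp_le_kill h (by omega) S
  have h3 : (1 / y) * fp (K + 1) S ≤ (1 / y) * (2 * (nonemp S - clauseOp (K + 1) V nonemp S)
      + 2 * (((K + 1 : ℕ) : ℝ) ^ 2 / Fintype.card V) ^ (K + 1) * nonemp S) :=
    mul_le_mul_of_nonneg_left h2 (by positivity)
  refine h1.trans ((add_le_add_left h3 _).trans (le_of_eq ?_))
  ring

end Powers

section Telescope

/-- Deterministic telescoping estimate. -/
lemma telescope {x : ℕ → ℕ → ℝ} (hx0 : ∀ i l, 0 ≤ x i l) (hx1 : ∀ i l, x i l ≤ 1) {a E : ℝ}
    (ha : 0 ≤ a) (hE : 0 ≤ E)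
    (hstep : ∀ i l, x (i + 1) l - x i (l + 1) ≤ a * (x i l - x (i + 1) l) + E)
    {m₁ m₂ : ℕ} (hm : m₁ ≤ m₂) :
    ∑ m ∈ Finset.Ico m₁ m₂, (x m 0 - x 0 m) ≤ a * m₂ + E * m₂ * (m₂ - m₁) := by
  set Φ : ℕ → ℝ := fun m => ∑ l ∈ Finset.range m, x (m - 1 - l) l with hΦ
  have h1 : ∀ m, x m 0 - x 0 m ≤ a * (Φ m - Φ (m + 1) + x 0 m) + E * m := by
    intro m
    have h2 : x m 0 - x 0 m = ∑ l ∈ Finset.range m, (x (m - l) l - x (m - (l + 1)) (l + 1)) := by
      rw [Finset.sum_range_sub' (fun l => x (m - l) l) m]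
      simp
    have h3 : Φ (m + 1) = ∑ l ∈ Finset.range m, x (m - l) l + x 0 m := by
      simp only [hΦ]
      rw [Finset.sum_range_succ]
      simp
    rw [h2, h3]
    have h4 : a * (Φ m - (∑ l ∈ Finset.range m, x (m - l) l + x 0 m) + x 0 m) + E * m
        = ∑ l ∈ Finset.range m, (a * (x (m - 1 - l) l - x (m - l) l) + E) := by
      rw [Finset.sum_add_distrib, ← Finset.mul_sum, Finset.sum_sub_distrib, Finset.sum_const,
        Finset.card_range, nsmul_eq_mul]
      ring
    rw [h4]
    refine Finset.sum_le_sum fun l hl => ?_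
    rw [Finset.mem_range] at hl
    have h5 : m - l = (m - 1 - l) + 1 := by omega
    have h6 : m - (l + 1) = m - 1 - l := by omega
    rw [h6, h5]
    exact hstep _ _
  have h7 : ∑ m ∈ Finset.Ico m₁ m₂, (Φ m - Φ (m + 1)) = Φ m₁ - Φ m₂ := by
    rw [Finset.sum_Ico_eq_sub _ hm, Finset.sum_range_sub', Finset.sum_range_sub']
    ring
  have h8 : Φ m₁ ≤ m₁ := by
    calc Φ m₁ ≤ ∑ _l ∈ Finset.range m₁, (1 : ℝ) := Finset.sum_le_sum fun l _ => hx1 _ _
      _ = m₁ := by simp
  have h9 : 0 ≤ Φ m₂ := Finset.sum_nonneg fun l _ => hx0 _ _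
  have h10 : ∑ m ∈ Finset.Ico m₁ m₂, x 0 m ≤ m₂ - m₁ := by
    calc ∑ m ∈ Finset.Ico m₁ m₂, x 0 m ≤ ∑ _m ∈ Finset.Ico m₁ m₂, (1 : ℝ) :=
          Finset.sum_le_sum fun m _ => hx1 _ _
      _ = m₂ - m₁ := by
          rw [Finset.sum_const, Nat.card_Ico, nsmul_eq_mul, mul_one, Nat.cast_sub hm]
  have h11 : ∑ m ∈ Finset.Ico m₁ m₂, E * (m : ℝ) ≤ E * m₂ * (m₂ - m₁) := by
    calc ∑ m ∈ Finset.Ico m₁ m₂, E * (m : ℝ) ≤ ∑ _m ∈ Finset.Ico m₁ m₂, E * (m₂ : ℝ) := by
          refine Finset.sum_le_sum fun m hm' => ?_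
          rw [Finset.mem_Ico] at hm'
          exact mul_le_mul_of_nonneg_left (by exact_mod_cast hm'.2.le) hE
      _ = E * m₂ * (m₂ - m₁) := by
          rw [Finset.sum_const, Nat.card_Ico, nsmul_eq_mul, Nat.cast_sub hm]
          ring
  calc ∑ m ∈ Finset.Ico m₁ m₂, (x m 0 - x 0 m)
      ≤ ∑ m ∈ Finset.Ico m₁ m₂, (a * (Φ m - Φ (m + 1) + x 0 m) + E * m) :=
        Finset.sum_le_sum fun m _ => h1 m
    _ = a * ((Φ m₁ - Φ m₂) + ∑ m ∈ Finset.Ico m₁ m₂, x 0 m)
          + ∑ m ∈ Finset.Ico m₁ m₂, E * (m : ℝ) := by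
        rw [Finset.sum_add_distrib, ← Finset.mul_sum, Finset.sum_add_distrib, h7]
    _ ≤ a * m₂ + E * m₂ * (m₂ - m₁) := by
        have : a * ((Φ m₁ - Φ m₂) + ∑ m ∈ Finset.Ico m₁ m₂, x 0 m) ≤ a * m₂ :=
          mul_le_mul_of_nonneg_left (by linarith) ha
        linarith

end Telescope

section Extend

variable {K : ℕ} {V V' : Type} [Fintype V] [DecidableEq V] [Fintype V'] [DecidableEq V']

omit [Fintype V] [DecidableEq V] [Fintype V'] [DecidableEq V'] in
lemma notMem_mapClause {k : ℕ} (e : V' ↪ V) {v : V} (hv : ∀ u, e u ≠ v) (C : ProperClause k V')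
    (b : Bool) : (v, b) ∉ (mapClause e C).1 := by
  simp only [mapClause, Finset.mem_map]
  rintro ⟨x, _, hx⟩
  have : e x.1 = v := by simpa using congrArg Prod.fst hx
  exact hv _ this

/-- Adding a literal on a new variable to a clause. -/
def insClause (e : V' ↪ V) {v : V} (hv : ∀ u, e u ≠ v) (b : Bool) (C : ProperClause K V') :
    ProperClause (K + 1) V :=
  ⟨insert (v, b) (mapClause e C).1, by
    rw [Finset.card_insert_of_notMem (notMem_mapClause e hv C b), (mapClause e C).2.1], by
    intro l hl l' hl' h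
    rw [Finset.mem_coe, Finset.mem_insert] at hl hl'
    rcases hl with rfl | hl <;> rcases hl' with rfl | hl'
    · rfl
    · exfalso
      rcases l' with ⟨v', b'⟩
      simp only at h
      subst h
      exact notMem_mapClause e hv C b' hl'
    · exfalso
      rcases l with ⟨v', b'⟩
      simp only at h
      subst h
      exact notMem_mapClause e hv C b' hl
    · exact (mapClause e C).2.2 hl hl' h⟩

lemma mem_sols_insClause (e : V' ↪ V) {v : V} (hv : ∀ u, e u ≠ v) (b : Bool)
    (C : ProperClause K V') (σ : V → Bool) :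
    σ ∈ sols (insClause e hv b C) ↔ σ v = b ∨ (fun u => σ (e u)) ∈ sols C := by
  rw [← mem_sols_mapClause, mem_sols, mem_sols]
  simp only [insClause, Finset.mem_insert]
  constructor
  · rintro ⟨l, rfl | hl, h⟩
    · exact Or.inl h
    · exact Or.inr ⟨l, hl, h⟩
  · rintro (h | ⟨l, hl, h⟩)
    · exact ⟨(v, b), Or.inl rfl, h⟩
    · exact ⟨l, Or.inr hl, h⟩

/-- The clauses used in the lower bound. -/
def extClause (e : V' ↪ V) {v : V} (hv : ∀ u, e u ≠ v) (b : Bool) :
    ProperClause (K + 1) V' ⊕ (ProperClause K V' ⊕ ProperClause K V') → ProperClause (K + 1) V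
  | Sum.inl C => mapClause e C
  | Sum.inr (Sum.inl C) => insClause e hv b C
  | Sum.inr (Sum.inr C) => insClause e hv (!b) C

omit [Fintype V] [Fintype V'] [DecidableEq V'] in
lemma insClause_inj (e : V' ↪ V) {v : V} (hv : ∀ u, e u ≠ v) (b : Bool) :
    Function.Injective (insClause (K := K) e hv b) := by
  intro C C' h
  apply mapClause_injective e
  apply Subtype.ext
  have h1 : (insert (v, b) (mapClause e C).1) = insert (v, b) (mapClause e C').1 :=
    congrArg Subtype.val h
  rw [← Finset.erase_insert (notMem_mapClause e hv C b), h1,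
    Finset.erase_insert (notMem_mapClause e hv C' b)]

lemma extClause_injective (e : V' ↪ V) {v : V} (hv : ∀ u, e u ≠ v) (b : Bool) :
    Function.Injective (extClause (K := K) e hv b) := by
  have hmem : ∀ (b : Bool) (C : ProperClause K V'), (v, b) ∈ (insClause e hv b C).1 := by
    intro b C
    exact Finset.mem_insert_self _ _
  have hnot : ∀ (b : Bool) (C : ProperClause K V'), (v, !b) ∉ (insClause e hv b C).1 := by
    intro b C h
    simp only [insClause] at h
    rw [Finset.mem_insert] at h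
    rcases h with h | h
    · simp at h
    · exact notMem_mapClause e hv C _ h
  rintro (C | C | C) (C' | C' | C') h
  · exact congrArg Sum.inl (mapClause_injective e h)
  · exfalso
    have h1 : mapClause e C = insClause e hv b C' := h
    have h2 := hmem b C'
    rw [← h1] at h2
    exact notMem_mapClause e hv C b h2
  · exfalso
    have h1 : mapClause e C = insClause e hv (!b) C' := h
    have h2 := hmem (!b) C'
    rw [← h1] at h2
    exact notMem_mapClause e hv C (!b) h2
  · exfalso
    have h1 : insClause e hv b C = mapClause e C' := h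
    have h2 := hmem b C
    rw [h1] at h2
    exact notMem_mapClause e hv C' b h2
  · exact congrArg (Sum.inr ∘ Sum.inl) (insClause_inj e hv b h)
  · exfalso
    have h1 : insClause e hv b C = insClause e hv (!b) C' := h
    have h2 := hmem (!b) C'
    rw [← h1] at h2
    exact hnot b C h2
  · exfalso
    have h1 : insClause e hv (!b) C = mapClause e C' := h
    have h2 := hmem (!b) C
    rw [h1] at h2
    exact notMem_mapClause e hv C' (!b) h2
  · exfalso
    have h1 : insClause e hv (!b) C = insClause e hv b C' := h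
    have h2 := hmem (!b) C
    rw [h1] at h2
    exact hnot b C' h2
  · exact congrArg (Sum.inr ∘ Sum.inr) (insClause_inj e hv (!b) h)

/-- Weights of the mixed operator. -/
noncomputable def mw (K : ℕ) (V : Type) [Fintype V] [DecidableEq V] (ρ : ℝ) :
    Option (ProperClause (K + 1) V ⊕ ProperClause K V) → ℝ
  | none => ρ / 2
  | some (Sum.inl C) => (1 - ρ) * cw (K + 1) V C
  | some (Sum.inr C) => ρ / 2 * cw K V C

/-- Solution sets of the mixed operator. -/
def msols : Option (ProperClause (K + 1) V ⊕ ProperClause K V) → Finset (V → Bool)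
  | none => Finset.univ
  | some (Sum.inl C) => sols C
  | some (Sum.inr C) => sols C

lemma mw_nonneg {ρ : ℝ} (h0 : 0 ≤ ρ) (h1 : ρ ≤ 1)
    (C : Option (ProperClause (K + 1) V ⊕ ProperClause K V)) : 0 ≤ mw K V ρ C := by
  rcases C with _ | C | C
  · simp only [mw]; positivity
  · exact mul_nonneg (by linarith) (cw_nonneg C)
  · exact mul_nonneg (by linarith) (cw_nonneg C)

lemma mixOp_apply (ρ : ℝ) (F : Finset (V → Bool) → ℝ) (S : Finset (V → Bool)) :
    avgOp (mw K V ρ) msols F S = ρ / 2 * F S + (1 - ρ) * clauseOp (K + 1) V F S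
      + ρ / 2 * clauseOp K V F S := by
  unfold avgOp clauseOp
  rw [Fintype.sum_option, Fintype.sum_sum_type]
  simp only [mw, msols, Finset.inter_univ, avgOp, Finset.mul_sum, mul_assoc, add_assoc]

lemma mixOp_iter_nonneg {ρ : ℝ} (h0 : 0 ≤ ρ) (h1 : ρ ≤ 1) (m : ℕ) (S : Finset (V → Bool)) :
    0 ≤ (avgOp (mw K V ρ) msols)^[m] nonemp S := by
  induction m generalizing S with
  | zero => exact nonemp_nonneg S
  | succ m ih =>
    rw [Function.iterate_succ_apply']
    exact Finset.sum_nonneg fun C _ => mul_nonneg (mw_nonneg h0 h1 C) (ih _)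

/-- Lower bound for the survival probability after fixing a literal. -/
lemma surv_extend (e : V' ↪ V) {v : V} (hv : ∀ u, e u ≠ v) (b : Bool)
    {ρ : ℝ}
    (hN : (Fintype.card (ProperClause (K + 1) V') : ℝ) /
      (Fintype.card (ProperClause (K + 1) V) : ℝ) = 1 - ρ)
    (hN' : (Fintype.card (ProperClause K V') : ℝ) /
      (Fintype.card (ProperClause (K + 1) V) : ℝ) = ρ / 2)
    (hpos' : 0 < Fintype.card (ProperClause (K + 1) V'))
    (hposK : 0 < Fintype.card (ProperClause K V'))
    (hpos : 0 < Fintype.card (ProperClause (K + 1) V))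
    (m : ℕ) (S : Finset (V → Bool)) (S' : Finset (V' → Bool))
    (hS : ∀ σ : V → Bool, σ v = b → (fun u => σ (e u)) ∈ S' → σ ∈ S) :
    (avgOp (mw K V' ρ) msols)^[m] nonemp S' ≤ surv (K + 1) V m S := by
  classical
  induction m generalizing S S' with
  | zero =>
    simp only [Function.iterate_zero, id_eq, surv_zero]
    rcases Finset.eq_empty_or_nonempty S' with hS' | ⟨σ', hσ'⟩
    · subst hS'
      rw [nonemp_empty]
      exact nonemp_nonneg S
    · have h1 : Function.extend e σ' (fun _ => b) ∈ S := by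
        apply hS
        · rw [Function.extend_apply']
          rintro ⟨u, hu⟩
          exact hv u hu
        · have : (fun u => Function.extend e σ' (fun _ => b) (e u)) = σ' := by
            funext u
            exact e.injective.extend_apply _ _ u
          rw [this]
          exact hσ'
      rw [nonemp_of_nonempty ⟨_, h1⟩]
      exact nonemp_le_one _
  | succ m ih =>
    rw [Function.iterate_succ_apply', mixOp_apply, surv_succ]
    set G := (avgOp (mw K V' ρ) msols)^[m] nonemp with hG
    have hsum : ∑ x : ProperClause (K + 1) V' ⊕ (ProperClause K V' ⊕ ProperClause K V'),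
        cw (K + 1) V (extClause e hv b x) * surv (K + 1) V m (S ∩ sols (extClause e hv b x))
        ≤ ∑ C : ProperClause (K + 1) V, cw (K + 1) V C * surv (K + 1) V m (S ∩ sols C) := by
      rw [← Finset.sum_image (s := Finset.univ) (g := extClause e hv b)
        (f := fun C => cw (K + 1) V C * surv (K + 1) V m (S ∩ sols C))
        (fun x _ y _ h => extClause_injective e hv b h)]
      exact Finset.sum_le_univ_sum_of_nonneg fun C =>
        mul_nonneg (cw_nonneg C) (surv_nonneg m _)
    refine le_trans ?_ hsum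
    rw [Fintype.sum_sum_type, Fintype.sum_sum_type]
    simp only [extClause]
    have hNR : (0 : ℝ) < Fintype.card (ProperClause (K + 1) V) := by exact_mod_cast hpos
    have hNR' : (0 : ℝ) < Fintype.card (ProperClause (K + 1) V') := by exact_mod_cast hpos'
    have hNRK : (0 : ℝ) < Fintype.card (ProperClause K V') := by exact_mod_cast hposK
    have p1 : (1 - ρ) * clauseOp (K + 1) V' G S' ≤ ∑ C : ProperClause (K + 1) V',
        cw (K + 1) V (mapClause e C) * surv (K + 1) V m (S ∩ sols (mapClause e C)) := by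
      unfold clauseOp avgOp
      rw [Finset.mul_sum]
      refine Finset.sum_le_sum fun C _ => ?_
      have h1 : cw (K + 1) V (mapClause e C) = (1 - ρ) * cw (K + 1) V' C := by
        rw [← hN]
        simp only [cw]
        field_simp
      have h0 : 0 ≤ (1 - ρ) * cw (K + 1) V' C := by
        rw [← h1]; exact cw_nonneg _
      rw [h1, ← mul_assoc]
      refine mul_le_mul_of_nonneg_left ?_ h0
      refine ih (S ∩ sols (mapClause e C)) (S' ∩ sols C) ?_
      intro σ hσv hσ
      rw [Finset.mem_inter] at hσ ⊢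
      exact ⟨hS σ hσv hσ.1, (mem_sols_mapClause e C σ).2 hσ.2⟩
    have p2 : ρ / 2 * G S' ≤ ∑ C : ProperClause K V',
        cw (K + 1) V (insClause e hv b C) * surv (K + 1) V m (S ∩ sols (insClause e hv b C)) := by
      have h1 : ∀ C : ProperClause K V', (1 / (Fintype.card (ProperClause (K + 1) V) : ℝ)) * G S'
          ≤ cw (K + 1) V (insClause e hv b C) *
            surv (K + 1) V m (S ∩ sols (insClause e hv b C)) := by
        intro C
        simp only [cw]
        refine mul_le_mul_of_nonneg_left ?_ (by positivity)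
        refine ih (S ∩ sols (insClause e hv b C)) S' ?_
        intro σ hσv hσ
        rw [Finset.mem_inter]
        exact ⟨hS σ hσv hσ, (mem_sols_insClause e hv b C σ).2 (Or.inl hσv)⟩
      refine le_trans (le_of_eq ?_) (Finset.sum_le_sum fun C _ => h1 C)
      rw [Finset.sum_const, Finset.card_univ, nsmul_eq_mul, ← hN']
      ring
    have p3 : ρ / 2 * clauseOp K V' G S' ≤ ∑ C : ProperClause K V',
        cw (K + 1) V (insClause e hv (!b) C) *
          surv (K + 1) V m (S ∩ sols (insClause e hv (!b) C)) := by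
      unfold clauseOp avgOp
      rw [Finset.mul_sum]
      refine Finset.sum_le_sum fun C _ => ?_
      have h1 : cw (K + 1) V (insClause e hv (!b) C) = ρ / 2 * cw K V' C := by
        rw [← hN']
        simp only [cw]
        field_simp
      have h0 : 0 ≤ ρ / 2 * cw K V' C := by
        rw [← h1]; exact cw_nonneg _
      rw [h1, ← mul_assoc]
      refine mul_le_mul_of_nonneg_left ?_ h0
      refine ih (S ∩ sols (insClause e hv (!b) C)) (S' ∩ sols C) ?_
      intro σ hσv hσ
      rw [Finset.mem_inter] at hσ ⊢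
      exact ⟨hS σ hσv hσ.1, (mem_sols_insClause e hv (!b) C σ).2 (Or.inr hσ.2)⟩
    linarith

end Extend

section Iter

variable {X : Type} [DecidableEq X] {ι : Type} [Fintype ι]

lemma iter_linear (w : ι → ℝ) (a : ι → Finset X) (p q : ℝ) (F G : Finset X → ℝ) (M : ℕ)
    (S : Finset X) : (avgOp w a)^[M] (fun S => p * F S + q * G S) S
      = p * (avgOp w a)^[M] F S + q * (avgOp w a)^[M] G S := by
  induction M generalizing S with
  | zero => rfl
  | succ M ih =>
    rw [Function.iterate_succ_apply', Function.iterate_succ_apply', Function.iterate_succ_apply']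
    unfold avgOp
    rw [Finset.mul_sum, Finset.mul_sum, ← Finset.sum_add_distrib]
    refine Finset.sum_congr rfl fun C _ => ?_
    have := ih (S ∩ a C)
    unfold avgOp at this
    rw [this]
    ring

lemma iter_nonneg {w : ι → ℝ} (hw : ∀ i, 0 ≤ w i) (a : ι → Finset X) {F : Finset X → ℝ}
    (hF : ∀ S, 0 ≤ F S) (M : ℕ) (S : Finset X) : 0 ≤ (avgOp w a)^[M] F S := by
  induction M generalizing S with
  | zero => exact hF S
  | succ M ih =>
    rw [Function.iterate_succ_apply']
    exact Finset.sum_nonneg fun i _ => mul_nonneg (hw i) (ih _)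

lemma iter_le_one {w : ι → ℝ} (hw : ∀ i, 0 ≤ w i) (hw1 : ∑ i, w i = 1) (a : ι → Finset X)
    {F : Finset X → ℝ} (hF : ∀ S, F S ≤ 1) (M : ℕ) (S : Finset X) :
    (avgOp w a)^[M] F S ≤ 1 := by
  induction M generalizing S with
  | zero => exact hF S
  | succ M ih =>
    rw [Function.iterate_succ_apply', ← hw1]
    refine Finset.sum_le_sum fun i _ => ?_
    have := mul_le_mul_of_nonneg_left (ih (S ∩ a i)) (hw i)
    simpa using this

end Iter

section Literals

variable {k : ℕ} {V : Type} [Fintype V] [DecidableEq V]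

/-- Assignments making the literal `l` true. -/
def hsols (l : V × Bool) : Finset (V → Bool) :=
  Finset.univ.filter fun σ => σ l.1 = l.2

/-- Uniform weights on literals. -/
noncomputable def hw (V : Type) [Fintype V] : V × Bool → ℝ :=
  fun _ => 1 / (2 * (Fintype.card V : ℝ))

omit [DecidableEq V] in
lemma hw_sum (h : 0 < Fintype.card V) : ∑ l : V × Bool, hw V l = 1 := by
  have hR : (0 : ℝ) < Fintype.card V := by exact_mod_cast h
  simp only [hw, Finset.sum_const, Finset.card_univ, Fintype.card_prod, Fintype.card_bool,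
    nsmul_eq_mul]
  push_cast
  field_simp

lemma fp_one_eq (h : 0 < Fintype.card V) (S : Finset (V → Bool)) :
    fp 1 S = nonemp S - avgOp (hw V) hsols nonemp S := by
  classical
  have hR : (0 : ℝ) < Fintype.card V := by exact_mod_cast h
  rcases Finset.eq_empty_or_nonempty S with hS | hS
  · subst hS
    simp [fp, nonemp_empty, avgOp]
  · have h1 : ∀ l : V × Bool, hw V l * nonemp (S ∩ hsols l)
        = hw V l - (1 / (2 * (Fintype.card V : ℝ))) * (if l ∈ falseLits S then (1 : ℝ) else 0) := by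
      intro l
      by_cases hl : l ∈ falseLits S
      · rw [if_pos hl]
        have : S ∩ hsols l = ∅ := by
          rw [Finset.eq_empty_iff_forall_notMem]
          intro σ hσ
          rw [Finset.mem_inter] at hσ
          simp only [hsols, Finset.mem_filter, Finset.mem_univ, true_and] at hσ
          exact (mem_falseLits S l).1 hl σ hσ.1 hσ.2
        rw [this, nonemp_empty]
        simp [hw]
      · rw [if_neg hl]
        have : (S ∩ hsols l).Nonempty := by
          rw [mem_falseLits] at hl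
          push Not at hl
          obtain ⟨σ, hσ, hl⟩ := hl
          refine ⟨σ, ?_⟩
          rw [Finset.mem_inter]
          exact ⟨hσ, by simp [hsols, hl]⟩
        rw [nonemp_of_nonempty this]
        ring
    unfold avgOp
    rw [Finset.sum_congr rfl fun l _ => h1 l, Finset.sum_sub_distrib, hw_sum h,
      ← Finset.mul_sum, Finset.sum_boole]
    unfold fp
    rw [nonemp_of_nonempty hS, Finset.filter_mem_eq_inter, Finset.univ_inter]
    field_simp
    ring

/-- The expected fraction of frozen literals as an average over literals. -/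
lemma it_fp_one (h : 0 < Fintype.card V) (m : ℕ) (S : Finset (V → Bool)) :
    it k m (fp 1) S = surv k V m S - ∑ l : V × Bool, hw V l * surv k V m (S ∩ hsols l) := by
  have h1 : (fp 1 : Finset (V → Bool) → ℝ)
      = fun S => 1 * nonemp S + (-1) * avgOp (hw V) hsols nonemp S := by
    funext S
    rw [fp_one_eq h]
    ring
  rw [h1, it_linear]
  have h2 : it k m (avgOp (hw V) hsols nonemp) S = avgOp (hw V) hsols (surv k V m) S := by
    have := congrFun (iter_comm (cw k V) sols (hw V) hsols nonemp m) S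
    exact this
  rw [h2, it_nonemp]
  unfold avgOp
  ring

end Literals

section Sum

variable {K n' : ℕ}

lemma choose_ratio (h : K + 1 ≤ n') :
    (Fintype.card (ProperClause K (Fin n')) : ℝ) /
      (Fintype.card (ProperClause (K + 1) (Fin (n' + 1))) : ℝ)
      = ((K + 1 : ℕ) : ℝ) / ((n' + 1 : ℕ) : ℝ) / 2 ∧
    (Fintype.card (ProperClause (K + 1) (Fin n')) : ℝ) /
      (Fintype.card (ProperClause (K + 1) (Fin (n' + 1))) : ℝ)
      = 1 - ((K + 1 : ℕ) : ℝ) / ((n' + 1 : ℕ) : ℝ) := by
  rw [card_properClause, card_properClause, card_properClause]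
  simp only [Fintype.card_fin]
  have h1 : (n' + 1) * n'.choose K = (n' + 1).choose (K + 1) * (K + 1) :=
    Nat.add_one_mul_choose_eq n' K
  have h2 : (n' + 1).choose (K + 1) = n'.choose K + n'.choose (K + 1) :=
    Nat.choose_succ_succ n' K
  have h1R : ((n' : ℝ) + 1) * (n'.choose K : ℝ) = ((n' + 1).choose (K + 1) : ℝ) * ((K : ℝ) + 1) := by
    exact_mod_cast h1
  have h2R : ((n' + 1).choose (K + 1) : ℝ) = (n'.choose K : ℝ) + (n'.choose (K + 1) : ℝ) := by
    exact_mod_cast h2
  have h3 : (0 : ℝ) < ((n' + 1).choose (K + 1) : ℝ) := by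
    exact_mod_cast Nat.choose_pos (by omega)
  have h4 : (0 : ℝ) < (n' : ℝ) + 1 := by positivity
  constructor
  · push_cast
    rw [pow_succ, div_div, div_eq_div_iff (by positivity) (by positivity)]
    linear_combination 2 * 2 ^ K * h1R
  · push_cast
    rw [mul_div_mul_left _ _ (by positivity : (2 : ℝ) ^ (K + 1) ≠ 0), eq_sub_iff_add_eq,
      div_add_div _ _ h3.ne' h4.ne', div_eq_one_iff_eq (by positivity)]
    linear_combination (-1 : ℝ) * h1R - ((n' : ℝ) + 1) * h2R

/-- The sum over `m` of the expected fraction of frozen literals. -/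
theorem sum_frozen_le (h : K + 1 ≤ n') {y : ℝ} (hy : 0 < y) {m₁ m₂ : ℕ} (hm : m₁ ≤ m₂) :
    ∑ m ∈ Finset.Ico m₁ m₂, it (K + 1) m (fp 1) (Finset.univ : Finset (Fin (n' + 1) → Bool))
      ≤ (((K + 1 : ℕ) : ℝ) / ((n' + 1 : ℕ) : ℝ)) /
          (y * (1 - ((K + 1 : ℕ) : ℝ) / ((n' + 1 : ℕ) : ℝ))) * m₂
        + (((K + 1 : ℕ) : ℝ) / ((n' + 1 : ℕ) : ℝ)) / 2 *
          (2 * (((K + 1 : ℕ) : ℝ) ^ 2 / (n' : ℝ)) ^ (K + 1) / y + y ^ K) * m₂ * (m₂ - m₁) := by
  classical
  obtain ⟨hr1, hr2⟩ := choose_ratio h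
  set ρ : ℝ := ((K + 1 : ℕ) : ℝ) / ((n' + 1 : ℕ) : ℝ) with hρ
  have hρ0 : 0 ≤ ρ := by rw [hρ]; positivity
  have hρ1 : ρ < 1 := by
    rw [hρ, div_lt_one (by positivity)]
    exact_mod_cast (by omega : K + 1 < n' + 1)
  have hcard' : Fintype.card (Fin n') = n' := Fintype.card_fin n'
  have hpos' := card_properClause_pos (k := K + 1) (V := Fin n') (by simpa using h)
  have hposK := card_properClause_pos (k := K) (V := Fin n') (by rw [hcard']; omega)
  have hpos := card_properClause_pos (k := K + 1) (V := Fin (n' + 1))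
    (by rw [Fintype.card_fin]; omega)
  set B₁ := avgOp (lw (K + 1) (Fin n') ρ) lsols with hB₁
  set B₂ := avgOp (mw K (Fin n') ρ) msols with hB₂
  have hw1 : ∀ C, 0 ≤ lw (K + 1) (Fin n') ρ C := fun C => lw_nonneg hρ0 hρ1.le C
  have hw2 : ∀ C, 0 ≤ mw K (Fin n') ρ C := fun C => mw_nonneg hρ0 hρ1.le C
  have hs1 : ∑ C, lw (K + 1) (Fin n') ρ C = 1 := lw_sum (by simpa using h) ρ
  have hs2 : ∑ C, mw K (Fin n') ρ C = 1 := by
    rw [Fintype.sum_option, Fintype.sum_sum_type]
    simp only [mw, ← Finset.mul_sum]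
    rw [cw_sum (by simpa using h), cw_sum (by rw [hcard']; omega)]
    ring
  set x : ℕ → ℕ → ℝ := fun i l => B₁^[i] (B₂^[l] nonemp) Finset.univ with hx
  set a : ℝ := ρ / (y * (1 - ρ)) with ha
  set E₀ : ℝ := 2 * (((K + 1 : ℕ) : ℝ) ^ 2 / (n' : ℝ)) ^ (K + 1) / y + y ^ K with hE₀
  have hρ1' : 0 < 1 - ρ := by linarith
  have ha0 : 0 ≤ a := by rw [ha]; positivity
  have hE₀0 : 0 ≤ E₀ := by rw [hE₀]; positivity
  have hx0 : ∀ i l, 0 ≤ x i l := fun i l =>
    iter_nonneg hw1 lsols (fun S => iter_nonneg hw2 msols nonemp_nonneg l S) i _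
  have hx1 : ∀ i l, x i l ≤ 1 := fun i l =>
    iter_le_one hw1 hs1 lsols (fun S => iter_le_one hw2 hs2 msols nonemp_le_one l S) i _
  -- pointwise inequality
  have hpt : ∀ S : Finset (Fin n' → Bool),
      (1 + a) * B₁ nonemp S ≤ 1 * B₂ nonemp S + (a + ρ / 2 * E₀) * nonemp S := by
    intro S
    rw [hB₁, hB₂, lazyOp_apply, mixOp_apply]
    have e1 := fp_pred_le_kill (K := K) (V := Fin n') (by simpa using h) hy S
    have e2 := kill_le_fp (k := K) (V := Fin n') (by rw [hcard']; omega) S
    rw [hcard', ← hE₀] at e1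
    have e3 : ρ / 2 * (nonemp S - clauseOp K (Fin n') nonemp S)
        ≤ ρ / 2 * ((2 / y) * (nonemp S - clauseOp (K + 1) (Fin n') nonemp S)
          + E₀ * nonemp S) := mul_le_mul_of_nonneg_left (e2.trans e1) (by positivity)
    have e4 : a * (1 - ρ) = ρ / y := by
      rw [ha]; field_simp
    have e5 : ρ / 2 * ((2 / y) * (nonemp S - clauseOp (K + 1) (Fin n') nonemp S)
          + E₀ * nonemp S) = a * (1 - ρ) * (nonemp S - clauseOp (K + 1) (Fin n') nonemp S)
          + ρ / 2 * E₀ * nonemp S := by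
      rw [e4]; ring
    rw [e5] at e3
    nlinarith [e3]
  have hstep : ∀ i l, x (i + 1) l - x i (l + 1) ≤ a * (x i l - x (i + 1) l) + ρ / 2 * E₀ := by
    intro i l
    have f1 : x (i + 1) l = B₁^[i] (B₂^[l] (B₁ nonemp)) Finset.univ := by
      have : B₂^[l] (B₁ nonemp) = B₁ (B₂^[l] nonemp) :=
        iter_comm (mw K (Fin n') ρ) msols (lw (K + 1) (Fin n') ρ) lsols nonemp l
      rw [this]
      rfl
    have f2 : x i (l + 1) = B₁^[i] (B₂^[l] (B₂ nonemp)) Finset.univ := rfl
    have g1 : ∀ S : Finset (Fin n' → Bool), B₂^[l] (fun S => (1 + a) * B₁ nonemp S) S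
        ≤ B₂^[l] (fun S => 1 * B₂ nonemp S + (a + ρ / 2 * E₀) * nonemp S) S :=
      fun S => iter_mono hw2 msols hpt l S
    have g2 : B₁^[i] (B₂^[l] (fun S => (1 + a) * B₁ nonemp S)) Finset.univ
        ≤ B₁^[i] (B₂^[l] (fun S => 1 * B₂ nonemp S + (a + ρ / 2 * E₀) * nonemp S))
          Finset.univ :=
      iter_mono hw1 lsols g1 i _
    have g3 : B₂^[l] (fun S => (1 + a) * B₁ nonemp S)
        = fun S => (1 + a) * (B₂^[l] (B₁ nonemp)) S + 0 * (B₂^[l] (B₁ nonemp)) S := by
      funext S
      have := iter_linear (mw K (Fin n') ρ) msols (1 + a) 0 (B₁ nonemp) (B₁ nonemp) l S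
      rw [← hB₂] at this
      rw [← this]
      simp
    have g4 : B₂^[l] (fun S => 1 * B₂ nonemp S + (a + ρ / 2 * E₀) * nonemp S)
        = fun S => 1 * (B₂^[l] (B₂ nonemp)) S + (a + ρ / 2 * E₀) * (B₂^[l] nonemp) S := by
      funext S
      exact iter_linear (mw K (Fin n') ρ) msols 1 (a + ρ / 2 * E₀) (B₂ nonemp) nonemp l S
    rw [g3, g4] at g2
    have g5 := iter_linear (lw (K + 1) (Fin n') ρ) lsols (1 + a) 0 (B₂^[l] (B₁ nonemp))
      (B₂^[l] (B₁ nonemp)) i Finset.univ
    have g6 := iter_linear (lw (K + 1) (Fin n') ρ) lsols 1 (a + ρ / 2 * E₀) (B₂^[l] (B₂ nonemp))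
      (B₂^[l] nonemp) i Finset.univ
    rw [← hB₁] at g5 g6
    rw [g5, g6, ← f1, ← f2] at g2
    have g7 : B₁^[i] (B₂^[l] nonemp) Finset.univ = x i l := rfl
    rw [g7] at g2
    have g8 : ρ / 2 * E₀ * x i l ≤ ρ / 2 * E₀ := by
      have : 0 ≤ ρ / 2 * E₀ := by positivity
      nlinarith [hx1 i l]
    nlinarith [g2, g8]
  have htel := telescope hx0 hx1 ha0 (by positivity : 0 ≤ ρ / 2 * E₀) hstep hm
  refine le_trans (Finset.sum_le_sum fun m _ => ?_) htel
  -- each term
  rw [it_fp_one (by simp)]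
  have up : surv (K + 1) (Fin (n' + 1)) m Finset.univ ≤ x m 0 := by
    have u1 := surv_restrict (k := K + 1) (Fin.castLEEmb (Nat.le_succ n'))
      (V := Fin (n' + 1)) (V' := Fin n') (by simpa using h) (by rw [Fintype.card_fin]; omega) m
      Finset.univ Finset.univ (fun _ _ => Finset.mem_univ _)
    rw [hr2] at u1
    have u2 := lazy_iter (k := K + 1) (V := Fin n') ρ m Finset.univ 0
    have u3 : (1 : ℝ) - (1 - ρ) = ρ := by ring
    rw [u3] at u1
    have u4 : (fun j => surv (K + 1) (Fin n') (j + 0) Finset.univ)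
        = fun j => surv (K + 1) (Fin n') j (Finset.univ : Finset (Fin n' → Bool)) := by
      funext j; rfl
    rw [u4] at u2
    rw [← u2] at u1
    exact u1
  have low : ∀ l : Fin (n' + 1) × Bool,
      x 0 m ≤ surv (K + 1) (Fin (n' + 1)) m (Finset.univ ∩ hsols l) := by
    rintro ⟨v, b⟩
    have := surv_extend (K := K) (Fin.succAboveEmb v) (v := v)
      (fun u => Fin.succAbove_ne v u) b hr2 hr1 hpos' hposK hpos m
      (Finset.univ ∩ hsols (v, b)) Finset.univ (by
        intro σ hσ _
        simp [hsols, hσ])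
    exact this
  have low2 : x 0 m ≤ ∑ l : Fin (n' + 1) × Bool,
      hw (Fin (n' + 1)) l * surv (K + 1) (Fin (n' + 1)) m (Finset.univ ∩ hsols l) := by
    calc x 0 m = ∑ l : Fin (n' + 1) × Bool, hw (Fin (n' + 1)) l * x 0 m := by
          rw [← Finset.sum_mul, hw_sum (by simp), one_mul]
      _ ≤ _ := Finset.sum_le_sum fun l _ =>
          mul_le_mul_of_nonneg_left (low l) (by simp only [hw]; positivity)
  linarith

end Sum

end Vale.Agent.P170
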