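import Vale.Agent.P170.Blocks

/-!
The quantitative interpolation inequality, the restriction inequality and the first moment bound.
-/

namespace Vale.Agent.P170

open Finset

section Numeric

lemma choose_div_choose_le {f N k : ℕ} (hf : f ≤ N) (hk : k ≤ N) :
    (f.choose k : ℝ) / (N.choose k : ℝ) ≤ ((f : ℝ) / N) ^ k := by
  have h1 : ∀ j, j ≤ N → f.descFactorial j * N ^ j ≤ f ^ j * N.descFactorial j := by
    intro j
    induction j with
    | zero => intro _; simp
    | succ j ih =>
      intro hj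
      have hj' : j ≤ N := by omega
      rw [Nat.descFactorial_succ, Nat.descFactorial_succ, pow_succ, pow_succ]
      have h2 : (f - j) * N ≤ f * (N - j) := by
        rcases Nat.lt_or_ge f j with h | h
        · rw [Nat.sub_eq_zero_of_le h.le, zero_mul]; exact Nat.zero_le _
        · have h3 : (f - j) * N + j * N = f * N := by
            rw [← Nat.add_mul, Nat.sub_add_cancel h]
          have h4 : f * (N - j) + f * j = f * N := by
            rw [← Nat.mul_add, Nat.sub_add_cancel hj']
          have h5 : f * j ≤ j * N := by rw [Nat.mul_comm f j]; exact Nat.mul_le_mul_left j hf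
          omega
      calc (f - j) * f.descFactorial j * (N ^ j * N)
          = ((f - j) * N) * (f.descFactorial j * N ^ j) := by ring
        _ ≤ (f * (N - j)) * (f ^ j * N.descFactorial j) := Nat.mul_le_mul h2 (ih hj')
        _ = f ^ j * f * ((N - j) * N.descFactorial j) := by ring
  have h2 := h1 k hk
  rw [Nat.descFactorial_eq_factorial_mul_choose, Nat.descFactorial_eq_factorial_mul_choose] at h2
  have h3 : f.choose k * N ^ k ≤ f ^ k * N.choose k := by
    have h4 : k.factorial * (f.choose k * N ^ k) ≤ k.factorial * (f ^ k * N.choose k) := by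
      calc k.factorial * (f.choose k * N ^ k) = k.factorial * f.choose k * N ^ k := by ring
        _ ≤ f ^ k * (k.factorial * N.choose k) := h2
        _ = _ := by ring
    exact Nat.le_of_mul_le_mul_left h4 (Nat.factorial_pos k)
  have hN : 0 < (N.choose k : ℝ) := by exact_mod_cast Nat.choose_pos hk
  rcases Nat.eq_zero_or_pos N with hN0 | hN0
  · subst hN0
    have : k = 0 := by omega
    subst this
    simp
  · have hNpos : (0 : ℝ) < (N : ℝ) ^ k := by positivity
    rw [div_pow, div_le_div_iff₀ hN hNpos]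
    exact_mod_cast h3

lemma le_choose_div_choose {f n k : ℕ} (hk : k ≤ n) (hfn : f ≤ n) (hkf : k ≤ f) :
    (1 - (k : ℝ) ^ 2 / f) * ((f : ℝ) / n) ^ k ≤ (f.choose k : ℝ) / (n.choose k : ℝ) := by
  rcases Nat.eq_zero_or_pos f with hf0 | hf0
  · subst hf0
    have hk0 : k = 0 := by omega
    subst hk0
    simp
  have hn0 : 0 < n := by omega
  have hfR : (0 : ℝ) < f := by exact_mod_cast hf0
  have hnR : (0 : ℝ) < n := by exact_mod_cast hn0
  have h1 : (f + 1 - k) ^ k ≤ f.descFactorial k := Nat.pow_sub_le_descFactorial f k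
  have h2 : n.descFactorial k ≤ n ^ k := Nat.descFactorial_le_pow n k
  have hchoose : (f.choose k : ℝ) / (n.choose k : ℝ)
      = (f.descFactorial k : ℝ) / (n.descFactorial k : ℝ) := by
    rw [Nat.descFactorial_eq_factorial_mul_choose, Nat.descFactorial_eq_factorial_mul_choose]
    push_cast
    have : (k.factorial : ℝ) ≠ 0 := by positivity
    rw [mul_div_mul_left _ _ this]
  rw [hchoose]
  have hdpos : (0 : ℝ) < (n.descFactorial k : ℝ) := by
    exact_mod_cast Nat.descFactorial_pos.2 hk
  have h3 : ((f : ℝ) - k) ^ k ≤ (f.descFactorial k : ℝ) := by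
    calc ((f : ℝ) - k) ^ k ≤ (((f + 1 - k : ℕ) : ℝ)) ^ k := by
          apply pow_le_pow_left₀
          · have : (k : ℝ) ≤ f := by exact_mod_cast hkf
            linarith
          · rw [Nat.cast_sub (by omega)]
            push_cast
            linarith
      _ ≤ (f.descFactorial k : ℝ) := by exact_mod_cast h1
  have h4 : (1 - (k : ℝ) ^ 2 / f) ≤ (1 - (k : ℝ) / f) ^ k := by
    have hkf' : (k : ℝ) / f ≤ 1 := by
      rw [div_le_one hfR]; exact_mod_cast hkf
    have := one_add_mul_le_pow (a := -((k : ℝ) / f)) (by linarith) k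
    calc 1 - (k : ℝ) ^ 2 / f = 1 + (k : ℝ) * -((k : ℝ) / f) := by ring
      _ ≤ (1 + -((k : ℝ) / f)) ^ k := this
      _ = _ := by ring
  calc (1 - (k : ℝ) ^ 2 / f) * ((f : ℝ) / n) ^ k
      ≤ (1 - (k : ℝ) / f) ^ k * ((f : ℝ) / n) ^ k :=
        mul_le_mul_of_nonneg_right h4 (by positivity)
    _ = ((f : ℝ) - k) ^ k / (n : ℝ) ^ k := by
        rw [← mul_pow, ← div_pow]
        congr 1
        field_simp
    _ ≤ (f.descFactorial k : ℝ) / (n : ℝ) ^ k :=
        div_le_div_of_nonneg_right h3 (by positivity)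
    _ ≤ (f.descFactorial k : ℝ) / (n.descFactorial k : ℝ) :=
        div_le_div_of_nonneg_left (by positivity) hdpos (by exact_mod_cast h2)

lemma lower_choose {f n k : ℕ} (hk : k ≤ n) (hfn : f ≤ n) {θ : ℝ} (h0 : 0 < θ) (h1 : θ ≤ 1)
    (hk1 : 1 ≤ k) :
    (1 - θ) * ((f : ℝ) / n) ^ k ≤ (f.choose k : ℝ) / (n.choose k : ℝ)
      + ((k : ℝ) ^ 2 / (θ * n)) ^ k := by
  have hn0 : 0 < n := by omega
  have hnR : (0 : ℝ) < n := by exact_mod_cast hn0
  have hkR : (1 : ℝ) ≤ k := by exact_mod_cast hk1
  by_cases hf : (k : ℝ) ^ 2 / θ ≤ f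
  · have hfpos : (0 : ℝ) < f := lt_of_lt_of_le (by positivity) hf
    have hkf : k ≤ f := by
      have h2 : (k : ℝ) ≤ (k : ℝ) ^ 2 / θ := by
        rw [le_div_iff₀ h0]
        nlinarith
      exact_mod_cast h2.trans hf
    have h3 := le_choose_div_choose hk hfn hkf
    have h4 : (k : ℝ) ^ 2 / f ≤ θ := by
      rw [div_le_iff₀ hfpos]
      rw [div_le_iff₀ h0] at hf
      linarith
    have h5 : (1 - θ) * ((f : ℝ) / n) ^ k ≤ (1 - (k : ℝ) ^ 2 / f) * ((f : ℝ) / n) ^ k :=
      mul_le_mul_of_nonneg_right (by linarith) (by positivity)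
    have h6 : 0 ≤ ((k : ℝ) ^ 2 / (θ * n)) ^ k := by positivity
    linarith
  · push Not at hf
    have h2 : ((f : ℝ) / n) ^ k ≤ ((k : ℝ) ^ 2 / (θ * n)) ^ k := by
      apply pow_le_pow_left₀ (by positivity)
      rw [← div_div]
      exact div_le_div_of_nonneg_right hf.le hnR.le
    have h3 : 0 ≤ (f.choose k : ℝ) / (n.choose k : ℝ) := by positivity
    have h4 : (1 - θ) * ((f : ℝ) / n) ^ k ≤ 1 * ((f : ℝ) / n) ^ k :=
      mul_le_mul_of_nonneg_right (by linarith) (by positivity)
    linarith

end Numeric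

section Kill

variable {k q n : ℕ}

/-- The false literals inside block `b`. -/
def blockFalse (S : Finset (Fin q × Fin n → Bool)) (b : Fin q) : Finset (Fin n × Bool) :=
  Finset.univ.filter fun l => ((b, l.1), l.2) ∈ falseLits S

lemma blockFalse_injOn {S : Finset (Fin q × Fin n → Bool)} (hS : S.Nonempty) (b : Fin q) :
    Set.InjOn Prod.fst (blockFalse S b : Set (Fin n × Bool)) := by
  intro l hl l' hl' h
  simp only [blockFalse, Finset.coe_filter, Finset.mem_univ, true_and, Set.mem_ofPred_eq] at hl hl'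
  have := falseLits_injOn hS (Finset.mem_coe.2 hl) (Finset.mem_coe.2 hl') (by simp [h])
  simp only [Prod.mk.injEq, true_and] at this
  exact Prod.ext this.1 this.2

lemma card_blockFalse_le {S : Finset (Fin q × Fin n → Bool)} (hS : S.Nonempty) (b : Fin q) :
    (blockFalse S b).card ≤ n := by
  classical
  rw [← Finset.card_image_of_injOn (blockFalse_injOn hS b)]
  calc ((blockFalse S b).image Prod.fst).card ≤ (Finset.univ : Finset (Fin n)).card :=
        Finset.card_le_card (Finset.subset_univ _)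
    _ = n := by simp

lemma sum_card_blockFalse (S : Finset (Fin q × Fin n → Bool)) :
    ∑ b, (blockFalse S b).card = (falseLits S).card := by
  classical
  have h1 : ∀ b ∈ (Finset.univ : Finset (Fin q)), (blockFalse S b).card
      = ((falseLits S).filter fun l => l.1.1 = b).card := by
    intro b _
    refine Finset.card_bij (fun l _ => ((b, l.1), l.2)) ?_ ?_ ?_
    · intro l hl
      simp only [blockFalse, Finset.mem_filter, Finset.mem_univ, true_and] at hl
      rw [Finset.mem_filter]
      exact ⟨hl, rfl⟩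
    · intro l _ l' _ h
      simp only [Prod.mk.injEq, true_and] at h
      exact Prod.ext h.1 h.2
    · rintro ⟨⟨b', i⟩, v⟩ hl
      rw [Finset.mem_filter] at hl
      obtain ⟨hl, hb⟩ := hl
      simp only at hb
      subst hb
      refine ⟨(i, v), ?_, rfl⟩
      simp only [blockFalse, Finset.mem_filter, Finset.mem_univ, true_and]
      exact hl
  rw [Finset.sum_congr rfl h1]
  exact (Finset.card_eq_sum_card_fiberwise (fun l _ => Finset.mem_coe.2 (Finset.mem_univ l.1.1))).symm

lemma inter_bsols_eq_empty {S : Finset (Fin q × Fin n → Bool)} (b : Fin q)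
    (C : ProperClause k (Fin n)) : S ∩ bsols (b, C) = ∅ ↔ C.1 ⊆ blockFalse S b := by
  constructor
  · intro h l hl
    simp only [blockFalse, Finset.mem_filter, Finset.mem_univ, true_and]
    rw [mem_falseLits]
    intro σ hσ he
    have : σ ∈ S ∩ bsols (b, C) := by
      simp only [bsols, Finset.mem_inter, Finset.mem_filter, Finset.mem_univ, true_and, mem_sols]
      exact ⟨hσ, l, hl, he⟩
    rw [h] at this
    simp at this
  · intro h
    rw [Finset.eq_empty_iff_forall_notMem]
    intro σ hσ
    simp only [bsols, Finset.mem_inter, Finset.mem_filter, Finset.mem_univ, true_and,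
      mem_sols] at hσ
    obtain ⟨hσ, l, hl, he⟩ := hσ
    have h1 := h hl
    simp only [blockFalse, Finset.mem_filter, Finset.mem_univ, true_and] at h1
    exact (mem_falseLits S _).1 h1 σ hσ he

lemma blockOp_nonemp {S : Finset (Fin q × Fin n → Bool)} (hS : S.Nonempty) (hq : 0 < q)
    (h : k ≤ n) :
    avgOp (bw k q n) bsols nonemp S = 1 - (1 / q) * ∑ b : Fin q,
      ((blockFalse S b).card.choose k : ℝ) / (2 ^ k * (n.choose k : ℝ)) := by
  classical
  have hpos := card_properClause_pos (k := k) (V := Fin n) (by simpa using h)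
  have hN : (Fintype.card (ProperClause k (Fin n)) : ℝ) ≠ 0 := by positivity
  have hqR : (q : ℝ) ≠ 0 := by positivity
  unfold avgOp
  rw [Fintype.sum_prod_type]
  have h1 : ∀ b : Fin q, ∑ C : ProperClause k (Fin n), bw k q n (b, C) * nonemp (S ∩ bsols (b, C))
      = 1 / q * (1 - ((blockFalse S b).card.choose k : ℝ) / (2 ^ k * (n.choose k : ℝ))) := by
    intro b
    have h2 : ∀ C : ProperClause k (Fin n), nonemp (S ∩ bsols (b, C))
        = 1 - (if C.1 ⊆ blockFalse S b then (1 : ℝ) else 0) := by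
      intro C
      by_cases hC : C.1 ⊆ blockFalse S b
      · rw [if_pos hC, (inter_bsols_eq_empty b C).2 hC, nonemp_empty]; norm_num
      · rw [if_neg hC]
        have : (S ∩ bsols (b, C)).Nonempty := by
          rw [Finset.nonempty_iff_ne_empty]
          exact fun he => hC ((inter_bsols_eq_empty b C).1 he)
        rw [nonemp_of_nonempty this]; norm_num
    have h3 : ∑ C : ProperClause k (Fin n), nonemp (S ∩ bsols (b, C))
        = (Fintype.card (ProperClause k (Fin n)) : ℝ) - ((blockFalse S b).card.choose k : ℝ) := by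
      rw [Finset.sum_congr rfl fun C _ => h2 C, Finset.sum_sub_distrib, Finset.sum_const,
        Finset.card_univ, nsmul_eq_mul, mul_one, Finset.sum_boole,
        card_clauses_subset _ (blockFalse_injOn hS b)]
    unfold bw cw
    rw [← Finset.mul_sum, h3]
    have h4 : (Fintype.card (ProperClause k (Fin n)) : ℝ) = 2 ^ k * (n.choose k : ℝ) := by
      rw [card_properClause]; push_cast; simp
    rw [← h4]
    field_simp
  rw [Finset.sum_congr rfl fun b _ => h1 b, ← Finset.mul_sum, Finset.sum_sub_distrib]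
  simp only [Finset.sum_const, Finset.card_univ, Fintype.card_fin, nsmul_eq_mul, mul_one]
  rw [mul_sub]
  congr 1
  field_simp

/-- A lazy global clause is less likely to kill than a block clause. -/
lemma kill_compare (hq : 0 < q) (hk1 : 1 ≤ k) (hkn : k ≤ n) {θ : ℝ} (h0 : 0 < θ) (h1 : θ ≤ 1)
    (S : Finset (Fin q × Fin n → Bool)) :
    avgOp (bw k q n) bsols nonemp S - ((k : ℝ) ^ 2 / (θ * n)) ^ k
      ≤ avgOp (lw k (Fin q × Fin n) θ) lsols nonemp S := by
  classical
  have hn0 : 0 < n := by omega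
  have hqR : (0 : ℝ) < q := by exact_mod_cast hq
  have hnR : (0 : ℝ) < n := by exact_mod_cast hn0
  have hτ : 0 ≤ ((k : ℝ) ^ 2 / (θ * n)) ^ k := by positivity
  have hcard : Fintype.card (Fin q × Fin n) = q * n := by simp
  have hkqn : k ≤ q * n := hkn.trans (Nat.le_mul_of_pos_left n hq)
  rw [lazyOp_apply]
  rcases Finset.eq_empty_or_nonempty S with hS | hS
  · subst hS
    have h2 : avgOp (bw k q n) bsols nonemp ∅ = 0 := by
      unfold avgOp; simp [nonemp_empty]
    rw [h2, clauseOp_nonemp_empty, nonemp_empty]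
    linarith
  · rw [blockOp_nonemp hS hq hkn, nonemp_of_nonempty hS,
      clauseOp_nonemp hS (by rw [hcard]; exact hkqn), hcard]
    set f : Fin q → ℝ := fun b => ((blockFalse S b).card : ℝ) with hf
    have hsumf : ((falseLits S).card : ℝ) = ∑ b, f b := by
      rw [← sum_card_blockFalse]; push_cast; rfl
    have hfle : (falseLits S).card ≤ q * n := by
      rw [← Finset.card_image_of_injOn (falseLits_injOn hS)]
      calc ((falseLits S).image Prod.fst).card ≤ (Finset.univ : Finset (Fin q × Fin n)).card :=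
            Finset.card_le_card (Finset.subset_univ _)
        _ = q * n := by simp
    have e1 : ((falseLits S).card.choose k : ℝ) / ((q * n).choose k : ℝ)
        ≤ (1 / q) * ∑ b, (f b / n) ^ k := by
      refine (choose_div_choose_le hfle hkqn).trans ?_
      have h3 := Real.pow_arith_mean_le_arith_mean_pow (Finset.univ : Finset (Fin q))
        (fun _ => 1 / (q : ℝ)) (fun b => f b / n) (fun _ _ => by positivity)
        (by simp; field_simp) (fun _ _ => by positivity) k
      have h4 : (((falseLits S).card : ℝ) / ((q * n : ℕ) : ℝ)) = ∑ b : Fin q, 1 / (q : ℝ) * (f b / n) := by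
        rw [hsumf, ← Finset.mul_sum, ← Finset.sum_div]
        push_cast
        field_simp
      rw [h4, Finset.mul_sum]
      exact h3
    have e2 : (1 - θ) * ((1 / q) * ∑ b, (f b / n) ^ k)
        ≤ (1 / q) * ∑ b, ((blockFalse S b).card.choose k : ℝ) / (n.choose k : ℝ)
          + ((k : ℝ) ^ 2 / (θ * n)) ^ k := by
      have h3 : ∀ b : Fin q, (1 - θ) * (f b / n) ^ k
          ≤ ((blockFalse S b).card.choose k : ℝ) / (n.choose k : ℝ)
            + ((k : ℝ) ^ 2 / (θ * n)) ^ k := fun b =>
        lower_choose hkn (card_blockFalse_le hS b) h0 h1 hk1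
      have h4 := Finset.sum_le_sum fun b (_ : b ∈ (Finset.univ : Finset (Fin q))) => h3 b
      rw [← Finset.mul_sum, Finset.sum_add_distrib, Finset.sum_const, Finset.card_univ,
        Fintype.card_fin, nsmul_eq_mul] at h4
      have h5 : (1 - θ) * ((1 / q) * ∑ b, (f b / n) ^ k)
          = (1 / q) * ((1 - θ) * ∑ b, (f b / n) ^ k) := by ring
      rw [h5]
      calc (1 / (q : ℝ)) * ((1 - θ) * ∑ b, (f b / n) ^ k)
          ≤ (1 / q) * (∑ b, ((blockFalse S b).card.choose k : ℝ) / (n.choose k : ℝ)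
            + q * ((k : ℝ) ^ 2 / (θ * n)) ^ k) :=
            mul_le_mul_of_nonneg_left h4 (by positivity)
        _ = _ := by field_simp
    have e3 : (1 - θ) * (((falseLits S).card.choose k : ℝ) / ((q * n).choose k : ℝ))
        ≤ (1 - θ) * ((1 / q) * ∑ b, (f b / n) ^ k) :=
      mul_le_mul_of_nonneg_left e1 (by linarith)
    have hk2 : (1 : ℝ) ≤ 2 ^ k := one_le_pow₀ (by norm_num)
    have e4 : (1 - θ) * (((falseLits S).card.choose k : ℝ) / (2 ^ k * ((q * n).choose k : ℝ)))
        ≤ (1 / q) * ∑ b, ((blockFalse S b).card.choose k : ℝ) / (2 ^ k * (n.choose k : ℝ))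
          + ((k : ℝ) ^ 2 / (θ * n)) ^ k := by
      have h3 : (1 - θ) * (((falseLits S).card.choose k : ℝ) / (2 ^ k * ((q * n).choose k : ℝ)))
          = ((1 - θ) * (((falseLits S).card.choose k : ℝ) / ((q * n).choose k : ℝ))) / 2 ^ k := by
        rw [mul_comm (2 ^ k : ℝ), ← div_div]; ring
      have h4 : (1 / (q : ℝ)) * ∑ b, ((blockFalse S b).card.choose k : ℝ) / (2 ^ k * (n.choose k : ℝ))
          = ((1 / q) * ∑ b, ((blockFalse S b).card.choose k : ℝ) / (n.choose k : ℝ)) / 2 ^ k := by
        rw [mul_div_assoc, Finset.sum_div]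
        congr 1
        refine Finset.sum_congr rfl fun b _ => ?_
        rw [mul_comm (2 ^ k : ℝ), ← div_div]
      rw [h3, h4]
      have h5 := e3.trans e2
      have h6 : ((1 - θ) * (((falseLits S).card.choose k : ℝ) / ((q * n).choose k : ℝ))) / 2 ^ k
          ≤ ((1 / q) * ∑ b, ((blockFalse S b).card.choose k : ℝ) / (n.choose k : ℝ)
          + ((k : ℝ) ^ 2 / (θ * n)) ^ k) / 2 ^ k := div_le_div_of_nonneg_right h5 (by positivity)
      refine h6.trans ?_
      rw [add_div]
      have h7 : ((k : ℝ) ^ 2 / (θ * n)) ^ k / 2 ^ k ≤ ((k : ℝ) ^ 2 / (θ * n)) ^ k :=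
        div_le_self hτ hk2
      linarith
    linarith

/-- Interpolation inequality between the block model and the lazy global model. -/
lemma interp (hq : 0 < q) (hk1 : 1 ≤ k) (hkn : k ≤ n) {θ : ℝ} (h0 : 0 < θ) (h1 : θ ≤ 1)
    (M : ℕ) :
    multiF q M (fun m => ∏ b, surv k (Fin n) (m b) Finset.univ)
        - M * ((k : ℝ) ^ 2 / (θ * n)) ^ k
      ≤ lazyF θ M (fun j => surv k (Fin q × Fin n) j Finset.univ) := by
  have hcard : Fintype.card (Fin q × Fin n) = q * n := by simp
  have hkqn : k ≤ q * n := hkn.trans (Nat.le_mul_of_pos_left n hq)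
  have h2 := hybrid (w := lw k (Fin q × Fin n) θ) (a := lsols) (v := bw k q n) (b := bsols)
    (fun C => lw_nonneg h0.le h1 C) (lw_sum (by rw [hcard]; exact hkqn) θ)
    (fun C => bw_nonneg C) (bw_sum hq hkn) (ν := nonemp)
    (τ := ((k : ℝ) ^ 2 / (θ * n)) ^ k) (kill_compare hq hk1 hkn h0 h1) M Finset.univ
  have h3 : (Finset.univ : Finset (Fin q × Fin n → Bool))
      = cyl (fun _ : Fin q => (Finset.univ : Finset (Fin n → Bool))) := by
    ext σ; simp [cyl]
  have h4 : (avgOp (bw k q n) bsols)^[M] nonemp (Finset.univ : Finset (Fin q × Fin n → Bool))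
      = multiF q M (fun m => ∏ b, surv k (Fin n) (m b) Finset.univ) := by
    rw [h3]
    exact block_iter M _
  have h5 := lazy_iter (k := k) (V := Fin q × Fin n) θ M Finset.univ 0
  have h6 : (avgOp (lw k (Fin q × Fin n) θ) lsols)^[M] nonemp Finset.univ
      = lazyF θ M (fun j => surv k (Fin q × Fin n) j Finset.univ) := by
    simpa [surv_zero] using h5
  rw [h4, h6] at h2
  exact h2

end Kill

section Main

variable {k q n : ℕ}

lemma surv_univ_zero {V : Type} [Fintype V] [DecidableEq V] : surv k V 0 Finset.univ = 1 := by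
  rw [surv_zero]
  exact nonemp_of_nonempty ⟨fun _ => true, Finset.mem_univ _⟩

lemma satProb_nonneg (n m : ℕ) : 0 ≤ satProb k n m := by
  unfold satProb; positivity

lemma satProb_le_one (n m : ℕ) : satProb k n m ≤ 1 := by
  classical
  unfold satProb
  apply div_le_one_of_le₀
  · exact_mod_cast Finite.card_subtype_le _
  · positivity

lemma satProb_antitone (h : k ≤ n) : Antitone (satProb k n) := by
  intro a b hab
  rw [satProb_eq_surv h, satProb_eq_surv h]
  exact surv_antitone (k := k) (V := Fin n) (by simpa using h) Finset.univ hab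

lemma lazyF_upper {θ : ℝ} (h0 : 0 ≤ θ) (h1 : θ ≤ 1) {M m' : ℕ} {s : ℕ → ℝ}
    (hanti : Antitone s) (hs1 : ∀ j, s j ≤ 1) (hs0 : ∀ j, 0 ≤ s j)
    (hm : (m' : ℝ) < (1 - θ) * M) :
    lazyF θ M s ≤ s m' + M / ((1 - θ) * M - m') ^ 2 := by
  set D : ℝ := (1 - θ) * M - m' with hD
  have hDpos : 0 < D := by rw [hD]; linarith
  have h2 : ∀ j, s j ≤ s m' + (1 / D ^ 2) * ((j : ℝ) + (-((1 - θ) * M))) ^ 2 := by
    intro j
    rcases le_or_gt m' j with hj | hj
    · have h3 := hanti hj
      have h4 : 0 ≤ (1 / D ^ 2) * ((j : ℝ) + (-((1 - θ) * M))) ^ 2 := by positivity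
      linarith
    · have h3 : (j : ℝ) < m' := by exact_mod_cast hj
      have h4 : D ^ 2 ≤ ((j : ℝ) + (-((1 - θ) * M))) ^ 2 := by
        have h5 : D ≤ -((j : ℝ) + (-((1 - θ) * M))) := by rw [hD]; linarith
        have h6 : ((j : ℝ) + (-((1 - θ) * M))) ^ 2 = (-((j : ℝ) + (-((1 - θ) * M)))) ^ 2 := by ring
        rw [h6]
        exact pow_le_pow_left₀ hDpos.le h5 2
      have h7 : 1 ≤ (1 / D ^ 2) * ((j : ℝ) + (-((1 - θ) * M))) ^ 2 := by
        rw [one_div, inv_mul_eq_div, le_div_iff₀ (by positivity)]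
        linarith
      have := hs1 j
      have := hs0 m'
      linarith
  have h3 := lazyF_mono h0 h1 M h2
  rw [lazyF_add, lazyF_const, lazyF_smul, lazyF_sq] at h3
  refine h3.trans ?_
  have h4 : (-((1 - θ) * (M : ℝ)) + (1 - θ) * M) ^ 2 + M * (θ * (1 - θ)) = M * (θ * (1 - θ)) := by
    ring
  rw [h4]
  have h5 : θ * (1 - θ) ≤ 1 := by nlinarith
  have h6 : (M : ℝ) * (θ * (1 - θ)) ≤ M := by
    have : (0 : ℝ) ≤ M := by positivity
    nlinarith
  have h7 : 1 / D ^ 2 * ((M : ℝ) * (θ * (1 - θ))) ≤ M / D ^ 2 := by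
    rw [one_div, inv_mul_eq_div]
    exact div_le_div_of_nonneg_right h6 (by positivity)
  linarith

lemma multiF_lower (hq : 0 < q) {M m : ℕ} {s : ℕ → ℝ} (hanti : Antitone s)
    (hs1 : ∀ j, s j ≤ 1) (hs0 : ∀ j, 0 ≤ s j) (hm : (M : ℝ) / q < m) :
    s m ^ q - M / (m - M / q) ^ 2 ≤ multiF q M (fun c => ∏ b, s (c b)) := by
  set D : ℝ := m - M / q with hD
  have hDpos : 0 < D := by rw [hD]; linarith
  have hqR : (0 : ℝ) < q := by exact_mod_cast hq
  have hp1 : s m ^ q ≤ 1 := pow_le_one₀ (hs0 m) (hs1 m)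
  have hp0 : 0 ≤ s m ^ q := pow_nonneg (hs0 m) q
  have h2 : ∀ c : Fin q → ℕ, s m ^ q + ∑ b ∈ (Finset.univ : Finset (Fin q)),
      (-(1 / D ^ 2)) * (((c b : ℝ) + (-(M / q : ℝ))) ^ 2) ≤ ∏ b, s (c b) := by
    intro c
    by_cases hc : ∀ b, c b ≤ m
    · have h3 : s m ^ q ≤ ∏ b, s (c b) := by
        calc s m ^ q = ∏ _b : Fin q, s m := by simp
          _ ≤ ∏ b, s (c b) := Finset.prod_le_prod (fun _ _ => hs0 m) (fun b _ => hanti (hc b))
      have h4 : ∑ b ∈ (Finset.univ : Finset (Fin q)),
          (-(1 / D ^ 2)) * (((c b : ℝ) + (-(M / q : ℝ))) ^ 2) ≤ 0 :=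
        Finset.sum_nonpos fun b _ => by
          have : 0 ≤ (1 / D ^ 2) * (((c b : ℝ) + (-(M / q : ℝ))) ^ 2) := by positivity
          linarith
      linarith
    · push Not at hc
      obtain ⟨b, hb⟩ := hc
      have hbR : (m : ℝ) < c b := by exact_mod_cast hb
      have h3 : 0 ≤ ∏ b, s (c b) := Finset.prod_nonneg fun b _ => hs0 _
      have h4 : D ^ 2 ≤ ((c b : ℝ) + (-(M / q : ℝ))) ^ 2 :=
        pow_le_pow_left₀ hDpos.le (by rw [hD]; linarith) 2
      have h5 : (-(1 / D ^ 2)) * (((c b : ℝ) + (-(M / q : ℝ))) ^ 2) ≤ -1 := by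
        have : 1 ≤ (1 / D ^ 2) * (((c b : ℝ) + (-(M / q : ℝ))) ^ 2) := by
          rw [one_div, inv_mul_eq_div, le_div_iff₀ (by positivity)]
          linarith
        linarith
      have h6 : ∑ b ∈ (Finset.univ : Finset (Fin q)),
          (-(1 / D ^ 2)) * (((c b : ℝ) + (-(M / q : ℝ))) ^ 2) ≤ -1 := by
        rw [← Finset.add_sum_erase _ _ (Finset.mem_univ b)]
        have : ∑ b ∈ Finset.univ.erase b,
            (-(1 / D ^ 2)) * (((c b : ℝ) + (-(M / q : ℝ))) ^ 2) ≤ 0 :=
          Finset.sum_nonpos fun b _ => by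
            have : 0 ≤ (1 / D ^ 2) * (((c b : ℝ) + (-(M / q : ℝ))) ^ 2) := by positivity
            linarith
        linarith
      linarith
  have h3 := multiF_mono q M h2
  rw [multiF_add, multiF_const hq, multiF_sum q M Finset.univ (fun _ => -(1 / D ^ 2))
    (fun b c => ((c b : ℝ) + (-(M / q : ℝ))) ^ 2)] at h3
  simp only [multiF_sq hq] at h3
  refine le_trans ?_ h3
  have h4 : (-((M : ℝ) / q) + M / q) ^ 2 = 0 := by ring
  rw [h4, Finset.sum_const, Finset.card_univ, Fintype.card_fin, nsmul_eq_mul]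
  have h5 : (q : ℝ) * (-(1 / D ^ 2) * (0 + M * (1 / q - 1 / q ^ 2)))
      = -(M / D ^ 2) * (1 - 1 / q) := by
    field_simp
    ring
  rw [h5]
  have h6 : 0 ≤ (M : ℝ) / D ^ 2 := by positivity
  have h7 : (0 : ℝ) ≤ 1 / q := by positivity
  nlinarith

/-- Quantitative superadditivity: `q` blocks of `n` variables against `q n` variables. -/
theorem satProb_mul (hq : 0 < q) (hk1 : 1 ≤ k) (hkn : k ≤ n) {θ : ℝ} (h0 : 0 < θ)
    (h1 : θ ≤ 1) {M m m' : ℕ} (hm : (M : ℝ) / q < m) (hm' : (m' : ℝ) < (1 - θ) * M) :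
    satProb k n m ^ q ≤ satProb k (q * n) m' + M / (m - M / q) ^ 2
      + M / ((1 - θ) * M - m') ^ 2 + M * ((k : ℝ) ^ 2 / (θ * n)) ^ k := by
  have hcard : Fintype.card (Fin q × Fin n) = q * n := by simp
  have hkqn : k ≤ q * n := hkn.trans (Nat.le_mul_of_pos_left n hq)
  have hk' : k ≤ Fintype.card (Fin q × Fin n) := by rw [hcard]; exact hkqn
  have hk'' : k ≤ Fintype.card (Fin n) := by simpa using hkn
  have h2 := interp (n := n) hq hk1 hkn h0 h1 M
  have h3 := lazyF_upper (s := fun j => surv k (Fin q × Fin n) j Finset.univ) h0.le h1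
    (surv_antitone hk' _) (fun j => surv_le_one hk' j _) (fun j => surv_nonneg j _) hm'
  have h4 := multiF_lower hq (s := fun j => surv k (Fin n) j Finset.univ)
    (surv_antitone hk'' _) (fun j => surv_le_one hk'' j _) (fun j => surv_nonneg j _) hm
  have h5 : surv k (Fin q × Fin n) m' Finset.univ = satProb k (q * n) m' := by
    rw [satProb_eq_surv hkqn]
    exact surv_equiv (finProdFinEquiv.symm) m' (by simpa using hkqn)
  rw [satProb_eq_surv hkn]
  simp only [h5] at h3
  linarith

/-- Restriction inequality: passing from `N` variables to `n ≤ N` variables. -/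
theorem satProb_restrict {N : ℕ} (hkn : k ≤ n) (hnN : n ≤ N) {M m : ℕ}
    (hm : (m : ℝ) < ((n.choose k : ℝ) / (N.choose k : ℝ)) * M) :
    satProb k N M ≤ satProb k n m
      + M / (((n.choose k : ℝ) / (N.choose k : ℝ)) * M - m) ^ 2 := by
  have hkN : k ≤ N := hkn.trans hnN
  have h' : k ≤ Fintype.card (Fin n) := by simpa using hkn
  have h : k ≤ Fintype.card (Fin N) := by simpa using hkN
  have h1 := surv_restrict (k := k) (Fin.castLEEmb hnN) h' h M Finset.univ Finset.univ
    (fun _ _ => Finset.mem_univ _)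
  have hρ : (Fintype.card (ProperClause k (Fin n)) : ℝ) /
      (Fintype.card (ProperClause k (Fin N)) : ℝ) = (n.choose k : ℝ) / (N.choose k : ℝ) := by
    rw [card_properClause, card_properClause]
    push_cast
    simp only [Fintype.card_fin]
    rw [mul_div_mul_left _ _ (by positivity)]
  rw [hρ] at h1
  set ρ : ℝ := (n.choose k : ℝ) / (N.choose k : ℝ) with hρdef
  have hρ0 : 0 ≤ ρ := by positivity
  have hρ1 : ρ ≤ 1 := by
    rw [hρdef]
    apply div_le_one_of_le₀
    · exact_mod_cast Nat.choose_le_choose k hnN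
    · positivity
  have h2 := lazyF_upper (θ := 1 - ρ) (M := M) (m' := m)
    (s := fun j => surv k (Fin n) j Finset.univ) (by linarith) (by linarith)
    (surv_antitone h' _) (fun j => surv_le_one h' j _) (fun j => surv_nonneg j _)
    (by rw [sub_sub_cancel]; exact hm)
  rw [sub_sub_cancel] at h2
  rw [satProb_eq_surv hkN, satProb_eq_surv hkn]
  exact h1.trans h2

lemma card_falseLits_singleton {V : Type} [Fintype V] [DecidableEq V] (σ : V → Bool) :
    (falseLits {σ}).card = Fintype.card V := by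
  have hinj : Function.Injective (fun v : V => ((v, !σ v) : V × Bool)) := fun a b h => by
    simp only [Prod.mk.injEq] at h; exact h.1
  have h : falseLits {σ} = Finset.univ.image (fun v : V => ((v, !σ v) : V × Bool)) := by
    ext ⟨v, b⟩
    rw [mem_falseLits]
    simp only [Finset.mem_singleton, forall_eq, Finset.mem_image, Finset.mem_univ, true_and,
      Prod.mk.injEq]
    constructor
    · intro h
      refine ⟨v, rfl, ?_⟩
      cases b <;> cases hσ : σ v <;> simp_all
    · rintro ⟨v', hv, hb⟩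
      subst hv
      subst hb
      cases σ v' <;> simp
  rw [h, Finset.card_image_of_injective _ hinj, Finset.card_univ]

/-- First moment bound. -/
theorem satProb_first_moment (hkn : k ≤ n) (m : ℕ) :
    satProb k n m ≤ 2 ^ n * (1 - 1 / 2 ^ k) ^ m := by
  classical
  have h' : k ≤ Fintype.card (Fin n) := by simpa using hkn
  have hpos := card_properClause_pos (k := k) (V := Fin n) h'
  have hN : (Fintype.card (ProperClause k (Fin n)) : ℝ) ≠ 0 := by positivity
  have hchoose : (0 : ℝ) < (n.choose k : ℝ) := by exact_mod_cast Nat.choose_pos hkn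
  have key : ∀ S : Finset (Fin n → Bool), ∑ C : ProperClause k (Fin n),
      cw k (Fin n) C * ((S ∩ sols C).card : ℝ) = (1 - 1 / 2 ^ k) * S.card := by
    intro S
    have h1 : ∀ C : ProperClause k (Fin n), ((S ∩ sols C).card : ℝ)
        = ∑ σ ∈ S, nonemp ({σ} ∩ sols C) := by
      intro C
      have h2 : ∀ σ ∈ S, nonemp ({σ} ∩ sols C) = if σ ∈ sols C then (1 : ℝ) else 0 := by
        intro σ _
        by_cases hσ : σ ∈ sols C
        · rw [if_pos hσ]
          exact nonemp_of_nonempty ⟨σ, by simp [hσ]⟩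
        · rw [if_neg hσ]
          have : ({σ} : Finset (Fin n → Bool)) ∩ sols C = ∅ := by
            rw [Finset.singleton_inter_of_notMem hσ]
          rw [this, nonemp_empty]
      rw [Finset.sum_congr rfl h2, Finset.sum_boole, Finset.filter_mem_eq_inter]
    have h3 : ∀ σ : Fin n → Bool, ∑ C : ProperClause k (Fin n),
        cw k (Fin n) C * nonemp ({σ} ∩ sols C) = 1 - 1 / 2 ^ k := by
      intro σ
      have h4 := clauseOp_nonemp (k := k) (S := {σ}) (Finset.singleton_nonempty σ) h'
      unfold clauseOp avgOp at h4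
      rw [h4, card_falseLits_singleton]
      simp only [Fintype.card_fin]
      have : ((n.choose k : ℝ)) / (2 ^ k * (n.choose k : ℝ)) = 1 / 2 ^ k := by
        field_simp
      rw [this]
    simp only [h1, Finset.mul_sum]
    rw [Finset.sum_comm, Finset.sum_congr rfl fun σ _ => h3 σ, Finset.sum_const, nsmul_eq_mul]
    ring
  have hk2 : (1 : ℝ) / 2 ^ k ≤ 1 := by
    rw [div_le_one (by positivity)]
    exact one_le_pow₀ (by norm_num)
  have main : ∀ (m : ℕ) (S : Finset (Fin n → Bool)),
      surv k (Fin n) m S ≤ (1 - 1 / 2 ^ k) ^ m * S.card := by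
    intro m
    induction m with
    | zero =>
      intro S
      rw [surv_zero, pow_zero, one_mul]
      rcases Finset.eq_empty_or_nonempty S with hS | hS
      · rw [hS, nonemp_empty]; simp
      · rw [nonemp_of_nonempty hS]
        exact_mod_cast hS.card_pos
    | succ m ih =>
      intro S
      rw [surv_succ]
      calc ∑ C : ProperClause k (Fin n), cw k (Fin n) C * surv k (Fin n) m (S ∩ sols C)
          ≤ ∑ C : ProperClause k (Fin n), cw k (Fin n) C *
              ((1 - 1 / 2 ^ k) ^ m * ((S ∩ sols C).card : ℝ)) :=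
            Finset.sum_le_sum fun C _ => mul_le_mul_of_nonneg_left (ih _) (cw_nonneg C)
        _ = (1 - 1 / 2 ^ k) ^ m * ∑ C : ProperClause k (Fin n),
              cw k (Fin n) C * ((S ∩ sols C).card : ℝ) := by
            rw [Finset.mul_sum]
            exact Finset.sum_congr rfl fun C _ => by ring
        _ = (1 - 1 / 2 ^ k) ^ (m + 1) * S.card := by rw [key]; ring
  rw [satProb_eq_surv hkn]
  refine (main m Finset.univ).trans (le_of_eq ?_)
  rw [Finset.card_univ]
  simp
  ring

end Main

end Vale.Agent.P170
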