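import Vale.Agent.P170.Asymp

/-!
Consequences for limiting thresholds and threshold sequences.
-/

namespace Vale.Agent.P170

open Finset Filter Topology

variable {k : ℕ}

lemma satProb_zero {n : ℕ} (h : k ≤ n) : satProb k n 0 = 1 := by
  rw [satProb_eq_surv h, surv_univ_zero]

/-- At density `2^k` the formula is unsatisfiable with high probability. -/
lemma tendsto_two_pow (_hk : 2 ≤ k) :
    Tendsto (fun n : ℕ => satProb k n ⌊((2 : ℝ) ^ k) * n⌋₊) atTop (𝓝 0) := by
  have he : (2 : ℝ) < Real.exp 1 := by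
    have := Real.exp_one_gt_d9; linarith
  have hlim : Tendsto (fun n : ℕ => ((2 : ℝ) / Real.exp 1) ^ n) atTop (𝓝 0) :=
    tendsto_pow_atTop_nhds_zero_of_lt_one (by positivity) ((div_lt_one (Real.exp_pos 1)).2 he)
  refine tendsto_of_tendsto_of_tendsto_of_le_of_le' tendsto_const_nhds hlim
    (Eventually.of_forall fun n => satProb_nonneg _ _) ?_
  filter_upwards [eventually_ge_atTop k] with n hn
  have h1 : ⌊((2 : ℝ) ^ k) * n⌋₊ = 2 ^ k * n := by
    have : ((2 : ℝ) ^ k) * n = ((2 ^ k * n : ℕ) : ℝ) := by push_cast; ring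
    rw [this, Nat.floor_natCast]
  rw [h1]
  refine (satProb_first_moment hn _).trans ?_
  have h2 : (1 - 1 / (2 : ℝ) ^ k) ≤ Real.exp (-(1 / 2 ^ k)) := by
    have := Real.add_one_le_exp (-(1 / (2 : ℝ) ^ k)); linarith
  have h3 : 0 ≤ (1 - 1 / (2 : ℝ) ^ k) := by
    have : (1 : ℝ) / 2 ^ k ≤ 1 := by
      rw [div_le_one (by positivity)]
      exact one_le_pow₀ (by norm_num)
    linarith
  have h4 : (1 - 1 / (2 : ℝ) ^ k) ^ (2 ^ k * n) ≤ (Real.exp (-1)) ^ n := by
    calc (1 - 1 / (2 : ℝ) ^ k) ^ (2 ^ k * n) ≤ (Real.exp (-(1 / 2 ^ k))) ^ (2 ^ k * n) :=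
          pow_le_pow_left₀ h3 h2 _
      _ = (Real.exp (-1)) ^ n := by
          rw [pow_mul]
          congr 1
          rw [← Real.exp_nat_mul]
          congr 1
          push_cast
          field_simp
  calc (2 : ℝ) ^ n * (1 - 1 / 2 ^ k) ^ (2 ^ k * n) ≤ 2 ^ n * (Real.exp (-1)) ^ n :=
        mul_le_mul_of_nonneg_left h4 (by positivity)
    _ = ((2 : ℝ) / Real.exp 1) ^ n := by
        rw [← mul_pow, Real.exp_neg, div_eq_mul_inv]

lemma floor_mono_mul {c c' : ℝ} (h : c ≤ c') (n : ℕ) : ⌊c * n⌋₊ ≤ ⌊c' * n⌋₊ :=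
  Nat.floor_le_floor (mul_le_mul_of_nonneg_right h (Nat.cast_nonneg n))

lemma satProb_density_anti {n : ℕ} (hn : k ≤ n) {c c' : ℝ} (h : c ≤ c') :
    satProb k n ⌊c' * n⌋₊ ≤ satProb k n ⌊c * n⌋₊ :=
  satProb_antitone hn (floor_mono_mul h n)

/-- Along a sequence `s` the threshold is `α`. -/
def ThresholdAlong (k : ℕ) (α : ℝ) (s : ℕ → ℕ) : Prop :=
  (∀ c : ℝ, 0 ≤ c → c < α → Tendsto (fun j : ℕ => satProb k (s j) ⌊c * s j⌋₊) atTop (𝓝 1)) ∧
  (∀ c : ℝ, α < c → Tendsto (fun j : ℕ => satProb k (s j) ⌊c * s j⌋₊) atTop (𝓝 0))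

lemma strictMono_tendsto {s : ℕ → ℕ} (hs : StrictMono s) :
    Tendsto (fun j => ((s j : ℕ) : ℝ)) atTop atTop :=
  tendsto_natCast_atTop_atTop.comp hs.tendsto_atTop

theorem threshold_of_subseq (hk : 2 ≤ k) {α : ℝ} (hα : 0 < α) {s : ℕ → ℕ} (hs : StrictMono s)
    {K : ℕ} (hK : ∀ j, s (j + 1) ≤ K * s j) (h : ThresholdAlong k α s) :
    HasLimitingThreshold k α := by
  refine ⟨hα, ?_, ?_⟩
  · intro c hc0 hcα
    set c₁ : ℝ := (c + α) / 2 with hc₁
    have hc₁0 : 0 < c₁ := by rw [hc₁]; linarith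
    have hcc₁ : c < c₁ := by rw [hc₁]; linarith
    have hc₁α : c₁ < α := by rw [hc₁]; linarith
    set δ : ℝ := (c₁ - c) / (2 * c₁) with hδ
    have hδ0 : 0 < δ := by rw [hδ]; apply div_pos <;> linarith
    have hδ1 : δ < 1 := by rw [hδ, div_lt_one (by positivity)]; linarith
    have hδc : c ≤ (1 - δ) * c₁ := by
      have : δ * c₁ = (c₁ - c) / 2 := by rw [hδ]; field_simp
      nlinarith
    obtain ⟨T, hT1, hT⟩ := unif_compare (k := k) hk hδ0 hδ1
    obtain ⟨C, n₀, hC, hkn₀, hcmp⟩ := hT (T * K) c₁ c₁ hc₁0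
    have ha := h.1 c₁ hc₁0.le hc₁α
    have hlim : Tendsto (fun j => satProb k (s j) ⌊c₁ * s j⌋₊ ^ (T * K) - C / (s j : ℝ)) atTop
        (𝓝 1) := by
      have h1 := ha.pow (T * K)
      have h2 : Tendsto (fun j => C / (s j : ℝ)) atTop (𝓝 0) :=
        (strictMono_tendsto hs).const_div_atTop C
      simpa using h1.sub h2
    rw [Metric.tendsto_atTop]
    intro ε hε
    have e1 : ∀ᶠ j in atTop, 1 - ε < satProb k (s j) ⌊c₁ * s j⌋₊ ^ (T * K) - C / (s j : ℝ) :=
      hlim.eventually_const_lt (by linarith)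
    have e2 : ∀ᶠ j in atTop, n₀ ≤ s j := hs.tendsto_atTop.eventually_ge_atTop n₀
    obtain ⟨J, hJ⟩ := (e1.and e2).exists_forall_of_atTop
    refine ⟨T * s J, fun N hN => ?_⟩
    have hex : ∃ j, J ≤ j ∧ N < T * s (j + 1) := by
      obtain ⟨i, hi⟩ := (hs.tendsto_atTop.eventually_gt_atTop N).exists
      refine ⟨max i J, le_max_right _ _, ?_⟩
      have h1 : s i ≤ s (max i J + 1) := hs.monotone (by omega)
      have h2 : 1 * s (max i J + 1) ≤ T * s (max i J + 1) := Nat.mul_le_mul_right _ hT1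
      omega
    classical
    set j := Nat.find hex with hj
    obtain ⟨hjJ, hjN⟩ := Nat.find_spec hex
    rw [← hj] at hjJ hjN
    have hTs : T * s j ≤ N := by
      rcases Nat.eq_or_lt_of_le hjJ with h1 | h1
      · rw [← h1]; exact hN
      · have h2 := Nat.find_min hex (m := j - 1) (by omega)
        push Not at h2
        have h3 := h2 (by omega)
        rwa [show j - 1 + 1 = j by omega] at h3
    have hNK : N ≤ (T * K) * s j := by
      calc N ≤ T * s (j + 1) := hjN.le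
        _ ≤ T * (K * s j) := Nat.mul_le_mul_left _ (hK j)
        _ = (T * K) * s j := by ring
    have h5 := hcmp (s j) (hJ j hjJ).2 N hTs hNK c₁ le_rfl le_rfl c hδc
    have h6 := (hJ j hjJ).1
    have h7 := satProb_le_one (k := k) N ⌊c * N⌋₊
    rw [Real.dist_eq, abs_lt]
    constructor <;> linarith
  · intro c hcα
    have hc0 : 0 < c := by linarith
    set c₁ : ℝ := (c + α) / 2 with hc₁
    have hc₁0 : 0 < c₁ := by rw [hc₁]; linarith
    have hc₁c : c₁ < c := by rw [hc₁]; linarith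
    have hαc₁ : α < c₁ := by rw [hc₁]; linarith
    set δ : ℝ := (c - c₁) / c with hδ
    have hδ0 : 0 < δ := by rw [hδ]; apply div_pos <;> linarith
    have hδ1 : δ < 1 := by rw [hδ, div_lt_one hc0]; linarith
    have hδc : c₁ ≤ (1 - δ) * c := by
      have : δ * c = c - c₁ := by rw [hδ]; field_simp
      linarith
    obtain ⟨T, hT1, hT⟩ := unif_compare (k := k) hk hδ0 hδ1
    obtain ⟨C, n₀, hC, hkn₀, hcmp⟩ := hT (K * T) c c hc0
    have ha := h.2 c₁ hαc₁
    have hKpos : 1 ≤ K := by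
      by_contra h0
      have h1 : K = 0 := by omega
      have h2 := hK 0
      have h3 := hs (Nat.lt_succ_self 0)
      rw [h1] at h2
      simp only [Nat.succ_eq_add_one] at h3
      omega
    have hKT : K * T ≠ 0 := by
      have := Nat.mul_pos hKpos hT1
      omega
    rw [Metric.tendsto_atTop]
    intro ε hε
    have hεp : 0 < ε ^ (K * T) / 2 := by positivity
    have e1 : ∀ᶠ j in atTop, satProb k (s j) ⌊c₁ * s j⌋₊ < ε ^ (K * T) / 2 :=
      ha.eventually_lt_const hεp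
    obtain ⟨J, hJ⟩ := e1.exists_forall_of_atTop
    have e2 : Tendsto (fun N : ℕ => C / (N : ℝ)) atTop (𝓝 0) :=
      tendsto_natCast_atTop_atTop.const_div_atTop C
    obtain ⟨N₁, hN₁⟩ := (e2.eventually_lt_const hεp).exists_forall_of_atTop
    refine ⟨max (max N₁ n₀) (s J + s 0 + 1), fun N hN => ?_⟩
    have hNN₁ : N₁ ≤ N := le_trans (le_trans (le_max_left _ _) (le_max_left _ _)) hN
    have hNn₀ : n₀ ≤ N := le_trans (le_trans (le_max_right _ _) (le_max_left _ _)) hN
    have hNs : s J + s 0 + 1 ≤ N := le_trans (le_max_right _ _) hN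
    have hex : ∃ j, T * N ≤ s j := (hs.tendsto_atTop.eventually_ge_atTop (T * N)).exists
    classical
    set j := Nat.find hex with hj
    have hjT : T * N ≤ s j := Nat.find_spec hex
    have hTN : N ≤ T * N := Nat.le_mul_of_pos_left N hT1
    have hjpos : j ≠ 0 := by
      intro h0
      rw [h0] at hjT
      omega
    have hjJ : J ≤ j := by
      by_contra h0
      push Not at h0
      have := hs.monotone h0.le
      omega
    have hmin := Nat.find_min hex (m := j - 1) (by omega)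
    push Not at hmin
    have hsj : s j ≤ (K * T) * N := by
      calc s j = s (j - 1 + 1) := by rw [show j - 1 + 1 = j by omega]
        _ ≤ K * s (j - 1) := hK _
        _ ≤ K * (T * N) := Nat.mul_le_mul_left _ hmin.le
        _ = (K * T) * N := by ring
    have h5 := hcmp N hNn₀ (s j) hjT hsj c le_rfl le_rfl c₁ hδc
    have h6 := hJ j hjJ
    have h7 := hN₁ N hNN₁
    have h8 : satProb k N ⌊c * N⌋₊ ^ (K * T) < ε ^ (K * T) := by linarith
    have h9 := lt_of_pow_lt_pow_left₀ (K * T) hε.le h8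
    rw [Real.dist_eq, sub_zero, abs_of_nonneg (satProb_nonneg _ _)]
    exact h9

lemma along_of_threshold {α : ℝ} (h : HasLimitingThreshold k α) {s : ℕ → ℕ}
    (hs : StrictMono s) : ThresholdAlong k α s :=
  ⟨fun c h0 h1 => (h.2.1 c h0 h1).comp hs.tendsto_atTop,
    fun c h1 => (h.2.2 c h1).comp hs.tendsto_atTop⟩

section Seq

variable {r : ℕ → ℝ}

lemma seq_lower (_hk : 2 ≤ k) (hr : IsThresholdSequence k r) {ε : ℝ} (hε : 0 < ε) :
    ∀ᶠ n in atTop, -ε < r n := by
  have h := (hr ε hε).2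
  have h1 : ∀ᶠ n in atTop, satProb k n ⌊(r n + ε) * n⌋₊ < 1 :=
    h.eventually_lt_const (by norm_num)
  filter_upwards [h1, eventually_ge_atTop k] with n hn hkn
  by_contra hcon
  push Not at hcon
  have h2 : (r n + ε) * n ≤ 0 := mul_nonpos_of_nonpos_of_nonneg (by linarith) (Nat.cast_nonneg n)
  rw [Nat.floor_of_nonpos h2, satProb_zero hkn] at hn
  exact lt_irrefl _ hn

lemma seq_upper (hk : 2 ≤ k) (hr : IsThresholdSequence k r) :
    ∀ᶠ n in atTop, r n ≤ 2 ^ k + 1 := by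
  have h1 : ∀ᶠ n in atTop, (1 / 2 : ℝ) < satProb k n ⌊(r n - 1) * n⌋₊ :=
    (hr 1 one_pos).1.eventually_const_lt (by norm_num)
  have h2 : ∀ᶠ n in atTop, satProb k n ⌊((2 : ℝ) ^ k) * n⌋₊ < 1 / 2 :=
    (tendsto_two_pow hk).eventually_lt_const (by norm_num)
  filter_upwards [h1, h2, eventually_ge_atTop k] with n hn1 hn2 hkn
  by_contra hcon
  push Not at hcon
  have := satProb_density_anti (k := k) hkn (c := (2 : ℝ) ^ k) (c' := r n - 1) (by linarith)
  linarith

/-- One-sided regularity: the threshold location does not drop between `n` and `N` when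
`T n ≤ N ≤ K n`. -/
theorem seq_regular (hk : 2 ≤ k) (hr : IsThresholdSequence k r) {ε : ℝ} (hε : 0 < ε) :
    ∃ T : ℕ, 1 ≤ T ∧ ∀ K : ℕ, ∃ n₀ : ℕ, ∀ n N : ℕ, n₀ ≤ n → T * n ≤ N → N ≤ K * n →
      r n - ε ≤ r N := by
  set B : ℝ := 2 ^ k + 1 with hB
  have hBpos : 0 < B := by rw [hB]; positivity
  set δ : ℝ := min (ε / (4 * B)) (1 / 2) with hδ
  have hδ0 : 0 < δ := by rw [hδ]; positivity
  have hδ1 : δ < 1 := by
    have : δ ≤ 1 / 2 := min_le_right _ _
    linarith
  have hδB : δ * B ≤ ε / 4 := by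
    have : δ ≤ ε / (4 * B) := min_le_left _ _
    calc δ * B ≤ ε / (4 * B) * B := mul_le_mul_of_nonneg_right this hBpos.le
      _ = ε / 4 := by field_simp
  obtain ⟨T, hT1, hT⟩ := unif_compare (k := k) hk hδ0 hδ1
  refine ⟨T, hT1, fun K => ?_⟩
  obtain ⟨C, n₁, hC, hkn₁, hcmp⟩ := hT K (ε / 4) B (by positivity)
  have a1 : ∀ᶠ n in atTop, -(ε / 4) < r n := seq_lower hk hr (by positivity)
  have a2 : ∀ᶠ n in atTop, r n ≤ B := seq_upper hk hr
  have hlim : Tendsto (fun n : ℕ => satProb k n ⌊(r n - ε / 4) * n⌋₊ ^ K - C / (n : ℝ)) atTop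
      (𝓝 1) := by
    have h1 := ((hr (ε / 4) (by positivity)).1).pow K
    have h2 : Tendsto (fun n : ℕ => C / (n : ℝ)) atTop (𝓝 0) :=
      tendsto_natCast_atTop_atTop.const_div_atTop C
    simpa using h1.sub h2
  have a3 : ∀ᶠ n in atTop,
      1 / 2 < satProb k n ⌊(r n - ε / 4) * n⌋₊ ^ K - C / (n : ℝ) :=
    hlim.eventually_const_lt (by norm_num)
  have a4 : ∀ᶠ n in atTop, satProb k n ⌊(r n + ε / 4) * n⌋₊ < 1 / 2 :=
    (hr (ε / 4) (by positivity)).2.eventually_lt_const (by norm_num)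
  obtain ⟨n₂, h2⟩ := ((a1.and a2).and (a3.and a4)).exists_forall_of_atTop
  refine ⟨max n₁ n₂, fun n N hn hTN hNK => ?_⟩
  have hnn₁ : n₁ ≤ n := le_trans (le_max_left _ _) hn
  have hnn₂ : n₂ ≤ n := le_trans (le_max_right _ _) hn
  have hnN : n ≤ N := by
    have : 1 * n ≤ T * n := Nat.mul_le_mul_right n hT1
    omega
  obtain ⟨⟨b1, b2⟩, b3, b4⟩ := h2 n hnn₂
  obtain ⟨⟨d1, d2⟩, d3, d4⟩ := h2 N (hnn₂.trans hnN)
  by_contra hcon
  push Not at hcon
  have hc1 : ε / 4 ≤ r n - ε / 4 := by linarith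
  have hc2 : r n - ε / 4 ≤ B := by linarith
  have hc3 : r N + ε / 4 ≤ (1 - δ) * (r n - ε / 4) := by
    have : δ * (r n - ε / 4) ≤ δ * B := mul_le_mul_of_nonneg_left hc2 hδ0.le
    nlinarith
  have h5 := hcmp n hnn₁ N hTN hNK (r n - ε / 4) hc1 hc2 (r N + ε / 4) hc3
  linarith

/-- Upper regularity. -/
theorem seq_growth (hk : 2 ≤ k) (hr : IsThresholdSequence k r) {ε : ℝ} (hε : 0 < ε) (K : ℕ) :
    ∃ n₀ : ℕ, ∀ n N : ℕ, n₀ ≤ n → n ≤ N → N ≤ K * n →
      r N ≤ ((N : ℝ) / n) ^ (k - 1) * r n + ε := by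
  rcases Nat.eq_zero_or_pos K with hK0 | hKpos
  · subst hK0
    refine ⟨1, fun n N hn hnN hNK => ?_⟩
    omega
  have hKR : (1 : ℝ) ≤ K := by exact_mod_cast hKpos
  set B : ℝ := 2 ^ k + 1 with hB
  have hBpos : 0 < B := by rw [hB]; positivity
  set κ : ℝ := 1 / (K : ℝ) ^ (k - 1) with hκ
  have hκ0 : 0 < κ := by rw [hκ]; positivity
  have hκ1 : κ ≤ 1 := by
    rw [hκ, div_le_one (by positivity)]
    exact one_le_pow₀ hKR
  set ε' : ℝ := ε / 4 * κ with hε'
  have hε'0 : 0 < ε' := by rw [hε']; positivity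
  have hε'ε : ε' ≤ ε / 4 := by
    rw [hε']
    have : ε / 4 * κ ≤ ε / 4 * 1 := mul_le_mul_of_nonneg_left hκ1 (by positivity)
    linarith
  set δ : ℝ := min (ε' / B) (1 / 2) with hδ
  have hδ0 : 0 < δ := by rw [hδ]; positivity
  have hδ1 : δ < 1 := by
    have : δ ≤ 1 / 2 := min_le_right _ _
    linarith
  have hδB : δ * B ≤ ε' := by
    have : δ ≤ ε' / B := min_le_left _ _
    calc δ * B ≤ ε' / B * B := mul_le_mul_of_nonneg_right this hBpos.le
      _ = ε' := by field_simp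
  obtain ⟨C, n₁, hC, hkn₁, hcmp⟩ := unif_restrict (k := k) hk K (B := B)
    (show 0 < ε / 4 by positivity) hδ0 hδ1
  have a1 : ∀ᶠ n in atTop, -ε' < r n := seq_lower hk hr hε'0
  have a2 : ∀ᶠ n in atTop, r n ≤ B := seq_upper hk hr
  have a3 : ∀ᶠ n in atTop, 1 / 2 < satProb k n ⌊(r n - ε / 4) * n⌋₊ :=
    (hr (ε / 4) (by positivity)).1.eventually_const_lt (by norm_num)
  have hlim : Tendsto (fun n : ℕ => satProb k n ⌊(r n + ε') * n⌋₊ + C / (n : ℝ)) atTop
      (𝓝 0) := by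
    have h1 := (hr ε' hε'0).2
    have h2 : Tendsto (fun n : ℕ => C / (n : ℝ)) atTop (𝓝 0) :=
      tendsto_natCast_atTop_atTop.const_div_atTop C
    simpa using h1.add h2
  have a4 : ∀ᶠ n in atTop, satProb k n ⌊(r n + ε') * n⌋₊ + C / (n : ℝ) < 1 / 2 :=
    hlim.eventually_lt_const (by norm_num)
  obtain ⟨n₂, h2⟩ := ((a1.and a2).and (a3.and a4)).exists_forall_of_atTop
  refine ⟨max (max n₁ n₂) 1, fun n N hn hnN hNK => ?_⟩
  have hnn₁ : n₁ ≤ n := le_trans (le_trans (le_max_left _ _) (le_max_left _ _)) hn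
  have hnn₂ : n₂ ≤ n := le_trans (le_trans (le_max_right _ _) (le_max_left _ _)) hn
  have hn1 : 1 ≤ n := le_trans (le_max_right _ _) hn
  have hnR : (0 : ℝ) < n := by exact_mod_cast hn1
  have hNR : (0 : ℝ) < N := by exact_mod_cast (lt_of_lt_of_le hn1 hnN)
  obtain ⟨⟨b1, b2⟩, b3, b4⟩ := h2 n hnn₂
  obtain ⟨⟨d1, d2⟩, d3, d4⟩ := h2 N (hnn₂.trans hnN)
  by_contra hcon
  push Not at hcon
  set a : ℝ := ((n : ℝ) / N) ^ (k - 1) with ha
  have ha0 : 0 < a := by rw [ha]; positivity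
  have ha1 : a ≤ 1 := by
    rw [ha]
    exact pow_le_one₀ (by positivity) ((div_le_one hNR).2 (by exact_mod_cast hnN))
  have hinv : ((N : ℝ) / n) ^ (k - 1) * a = 1 := by
    rw [ha, ← mul_pow]
    have : (N : ℝ) / n * (n / N) = 1 := by field_simp
    rw [this, one_pow]
  have haκ : κ ≤ a := by
    rw [ha, hκ, ← one_div_pow]
    apply pow_le_pow_left₀ (by positivity)
    rw [div_le_div_iff₀ (by positivity) hNR]
    have : (N : ℝ) ≤ K * n := by exact_mod_cast hNK
    linarith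
  -- multiply the inequality by a
  have h3 : r n + ε * a < r N * a := by
    have := mul_lt_mul_of_pos_right hcon ha0
    have h4 : (((N : ℝ) / n) ^ (k - 1) * r n + ε) * a
        = (((N : ℝ) / n) ^ (k - 1) * a) * r n + ε * a := by ring
    rw [h4, hinv, one_mul] at this
    exact this
  have hpow1 : 1 ≤ ((N : ℝ) / n) ^ (k - 1) := by
    apply one_le_pow₀
    rw [le_div_iff₀ hnR]
    have : (n : ℝ) ≤ N := by exact_mod_cast hnN
    linarith
  have hεa : 4 * ε' ≤ ε * a := by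
    rw [hε']
    have : ε * κ ≤ ε * a := mul_le_mul_of_nonneg_left haκ hε.le
    linarith
  have hrN : ε / 2 ≤ r N := by
    -- r N * a > r n + ε a ≥ -ε' + ε a ≥ (3/4) ε a
    have h4 : 3 / 4 * (ε * a) < r N * a := by linarith
    have h5 : (3 / 4 * ε) * a < r N * a := by linarith
    have := lt_of_mul_lt_mul_right h5 ha0.le
    linarith
  have hc1 : ε / 4 ≤ r N - ε / 4 := by linarith
  have hc2 : r N - ε / 4 ≤ B := by linarith
  have hc3 : r n + ε' ≤ (1 - δ) * (r N - ε / 4) * a := by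
    have e1 : δ * (r N - ε / 4) * a ≤ ε' := by
      have : δ * (r N - ε / 4) ≤ δ * B := mul_le_mul_of_nonneg_left hc2 hδ0.le
      have h4 : 0 ≤ δ * (r N - ε / 4) := mul_nonneg hδ0.le (by linarith)
      have h5 : δ * (r N - ε / 4) * a ≤ δ * (r N - ε / 4) * 1 :=
        mul_le_mul_of_nonneg_left ha1 h4
      linarith
    have e2 : (1 - δ) * (r N - ε / 4) * a = r N * a - ε / 4 * a - δ * (r N - ε / 4) * a := by
      ring
    have e3 : ε * a - ε / 4 * a = 3 / 4 * (ε * a) := by ring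
    rw [e2]
    linarith
  have h5 := hcmp n hnn₁ N hnN hNK (r N - ε / 4) hc1 hc2 (r n + ε') hc3
  linarith

/-- If a threshold sequence converges to a positive limit, that limit is a limiting threshold. -/
lemma hasLimiting_of_tendsto (_hk : 2 ≤ k) (hr : IsThresholdSequence k r) {α : ℝ} (hα : 0 < α)
    (h : Tendsto r atTop (𝓝 α)) : HasLimitingThreshold k α := by
  refine ⟨hα, fun c _ hc => ?_, fun c hc => ?_⟩
  · set ε : ℝ := (α - c) / 2 with hε
    have hε0 : 0 < ε := by rw [hε]; linarith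
    have h1 := (hr ε hε0).1
    refine tendsto_of_tendsto_of_tendsto_of_le_of_le' h1 tendsto_const_nhds ?_
      (Eventually.of_forall fun n => satProb_le_one _ _)
    have h2 : ∀ᶠ n in atTop, α - ε < r n := h.eventually_const_lt (by linarith)
    filter_upwards [h2, eventually_ge_atTop k] with n hn hkn
    exact satProb_density_anti hkn (by rw [hε] at hn ⊢; linarith)
  · set ε : ℝ := (c - α) / 2 with hε
    have hε0 : 0 < ε := by rw [hε]; linarith
    have h1 := (hr ε hε0).2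
    refine tendsto_of_tendsto_of_tendsto_of_le_of_le' tendsto_const_nhds h1
      (Eventually.of_forall fun n => satProb_nonneg _ _) ?_
    have h2 : ∀ᶠ n in atTop, r n < α + ε := h.eventually_lt_const (by linarith)
    filter_upwards [h2, eventually_ge_atTop k] with n hn hkn
    exact satProb_density_anti hkn (by rw [hε] at hn ⊢; linarith)

/-- Plateaus: if the threshold location is infinitely often below `a` and infinitely often above
`b`, then every value in between is a plateau on arbitrarily long windows. -/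
theorem seq_plateau (hk : 2 ≤ k) (hr : IsThresholdSequence k r) {a b β : ℝ}
    (ha : ∃ᶠ n in atTop, r n < a) (hb : ∃ᶠ n in atTop, b < r n) (haβ : a < β) (hβb : β < b)
    {ε : ℝ} (hε : 0 < ε) (K : ℕ) :
    ∃ᶠ n in atTop, ∀ N : ℕ, n ≤ N → N ≤ K * n → |r N - β| ≤ ε := by
  rcases Nat.eq_zero_or_pos K with hK0 | hKpos
  · subst hK0
    apply Eventually.frequently
    filter_upwards [eventually_ge_atTop 1] with n hn N hnN hN
    omega
  set ε₁ : ℝ := min (ε / 2) (min (β - a) (b - β)) with hε₁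
  have hε₁0 : 0 < ε₁ := by
    rw [hε₁]
    apply lt_min (by positivity)
    apply lt_min <;> linarith
  have hε₁a : ε₁ ≤ ε / 2 := min_le_left _ _
  have hε₁b : ε₁ ≤ β - a := (min_le_right _ _).trans (min_le_left _ _)
  have hε₁c : ε₁ ≤ b - β := (min_le_right _ _).trans (min_le_right _ _)
  obtain ⟨T₀, hT₀, hT⟩ := seq_regular hk hr hε₁0
  obtain ⟨T, hTT₀⟩ : ∃ T, T = T₀ + 1 := ⟨_, rfl⟩
  have hT1 : 1 ≤ T := by omega
  obtain ⟨n₀, hreg₀⟩ := hT (2 * K * T * T)
  have hreg : ∀ n N : ℕ, n₀ ≤ n → T * n ≤ N → N ≤ (2 * K * T * T) * n → r n - ε₁ ≤ r N := by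
    intro n N h1 h2 h3
    refine hreg₀ n N h1 (le_trans (Nat.mul_le_mul_right _ (by omega)) h2) h3
  rw [frequently_atTop] at ha hb ⊢
  intro n_
  obtain ⟨n₁, hn₁, hbn₁⟩ := hb (max (max n₀ n_) 1)
  have hn₁0 : n₀ ≤ n₁ := le_trans (le_trans (le_max_left _ _) (le_max_left _ _)) hn₁
  have hn₁_ : n_ ≤ n₁ := le_trans (le_trans (le_max_right _ _) (le_max_left _ _)) hn₁
  have hn₁1 : 1 ≤ n₁ := le_trans (le_max_right _ _) hn₁
  have hex : ∃ N, T * n₁ ≤ N ∧ r N < β - ε₁ := by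
    obtain ⟨N, hN, hrN⟩ := ha (T * n₁)
    exact ⟨N, hN, by linarith⟩
  classical
  set n₂ := Nat.find hex with hn₂
  obtain ⟨h21, h22⟩ := Nat.find_spec hex
  rw [← hn₂] at h21 h22
  have hlow : ∀ N, T * n₁ ≤ N → N < n₂ → β - ε₁ ≤ r N := by
    intro N h1 h2
    have := Nat.find_min hex h2
    push Not at this
    exact this h1
  -- n₂ is far away
  have hfar : (2 * K * T * T) * n₁ < n₂ := by
    by_contra hcon
    push Not at hcon
    have := hreg n₁ n₂ hn₁0 h21 hcon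
    linarith
  have hKT : 0 < K * T := Nat.mul_pos hKpos hT1
  set n := n₂ / (K * T) with hn
  have hn1 : K * T * n ≤ n₂ := by rw [hn]; exact Nat.mul_div_le _ _
  have hn2 : n₂ < K * T * (n + 1) := by
    rw [hn]
    have := Nat.lt_mul_div_succ n₂ hKT
    exact this
  have hTn₁ : T * n₁ < n := by
    by_contra hcon
    push Not at hcon
    have h3 : n₂ < K * T * (T * n₁ + 1) :=
      lt_of_lt_of_le hn2 (Nat.mul_le_mul_left _ (by omega))
    have h4 : K * T * (T * n₁ + 1) ≤ (2 * K * T * T) * n₁ := by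
      have h5 : T * n₁ + 1 ≤ 2 * (T * n₁) := by
        have : 1 ≤ T * n₁ := Nat.mul_pos hT1 hn₁1
        omega
      calc K * T * (T * n₁ + 1) ≤ K * T * (2 * (T * n₁)) := Nat.mul_le_mul_left _ h5
        _ = (2 * K * T * T) * n₁ := by ring
    omega
  have hn₁n : n₁ ≤ n := by
    have : 1 * n₁ ≤ T * n₁ := Nat.mul_le_mul_right _ hT1
    omega
  refine ⟨n, by omega, fun N hnN hNK => ?_⟩
  have hTN : T * N ≤ n₂ := by
    calc T * N ≤ T * (K * n) := Nat.mul_le_mul_left _ hNK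
      _ = K * T * n := by ring
      _ ≤ n₂ := hn1
  have hn₂N : n₂ ≤ (2 * K * T * T) * N := by
    have h5 : n + 1 ≤ 2 * N := by omega
    calc n₂ ≤ K * T * (n + 1) := hn2.le
      _ ≤ K * T * (2 * N) := Nat.mul_le_mul_left _ h5
      _ = (2 * K * T) * N := by ring
      _ ≤ (2 * K * T * T) * N := Nat.mul_le_mul_right _ (Nat.le_mul_of_pos_right _ hT1)
  have hNn₂ : N < n₂ := by
    rcases Nat.lt_or_ge N n₂ with h | h
    · exact h
    · exfalso
      have h6 : T * N ≤ N := hTN.trans h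
      have h7 : 2 * N ≤ T * N := Nat.mul_le_mul_right _ (by omega)
      omega
  have hup := hreg N n₂ (by omega) hTN hn₂N
  have hlo := hlow N (by omega) hNn₂
  rw [abs_le]
  constructor <;> linarith

end Seq

end Vale.Agent.P170
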