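import Vale.Agent.P170.Defs

/-!
Averaging operators on functions of a finite solution set, and the hybrid (interpolation) argument.
-/

namespace Vale.Agent.P170

open Finset

section Operators

variable {X : Type} [DecidableEq X]

/-- Average of `F (S ∩ a i)` with weights `w i`. -/
noncomputable def avgOp {ι : Type} [Fintype ι] (w : ι → ℝ) (a : ι → Finset X)
    (F : Finset X → ℝ) (S : Finset X) : ℝ :=
  ∑ i, w i * F (S ∩ a i)

variable {ι κ : Type} [Fintype ι] [Fintype κ]

lemma avgOp_mono {w : ι → ℝ} (hw : ∀ i, 0 ≤ w i) (a : ι → Finset X) {F G : Finset X → ℝ}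
    (h : ∀ S, F S ≤ G S) (S : Finset X) : avgOp w a F S ≤ avgOp w a G S :=
  Finset.sum_le_sum fun i _ => mul_le_mul_of_nonneg_left (h _) (hw i)

lemma avgOp_sub_const {w : ι → ℝ} (hw1 : ∑ i, w i = 1) (a : ι → Finset X) (F : Finset X → ℝ)
    (c : ℝ) : avgOp w a (fun S => F S - c) = fun S => avgOp w a F S - c := by
  funext S
  simp only [avgOp, mul_sub, Finset.sum_sub_distrib, ← Finset.sum_mul, hw1, one_mul]

lemma avgOp_comm (w : ι → ℝ) (a : ι → Finset X) (v : κ → ℝ) (b : κ → Finset X)
    (F : Finset X → ℝ) : avgOp w a (avgOp v b F) = avgOp v b (avgOp w a F) := by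
  funext S
  simp only [avgOp, Finset.mul_sum]
  rw [Finset.sum_comm]
  refine Finset.sum_congr rfl fun j _ => Finset.sum_congr rfl fun i _ => ?_
  rw [Finset.inter_right_comm]
  ring

lemma iter_mono {w : ι → ℝ} (hw : ∀ i, 0 ≤ w i) (a : ι → Finset X) {F G : Finset X → ℝ}
    (h : ∀ S, F S ≤ G S) (M : ℕ) (S : Finset X) :
    (avgOp w a)^[M] F S ≤ (avgOp w a)^[M] G S := by
  induction M generalizing S with
  | zero => exact h S
  | succ M ih =>
    rw [Function.iterate_succ_apply', Function.iterate_succ_apply']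
    exact avgOp_mono hw a ih S

lemma iter_sub_const {w : ι → ℝ} (hw1 : ∑ i, w i = 1) (a : ι → Finset X) (F : Finset X → ℝ)
    (c : ℝ) (M : ℕ) : (avgOp w a)^[M] (fun S => F S - c) = fun S => (avgOp w a)^[M] F S - c := by
  induction M with
  | zero => rfl
  | succ M ih =>
    rw [Function.iterate_succ_apply', Function.iterate_succ_apply', ih, avgOp_sub_const hw1]

lemma iter_comm (w : ι → ℝ) (a : ι → Finset X) (v : κ → ℝ) (b : κ → Finset X)
    (F : Finset X → ℝ) (M : ℕ) :
    (avgOp w a)^[M] (avgOp v b F) = avgOp v b ((avgOp w a)^[M] F) := by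
  induction M with
  | zero => rfl
  | succ M ih =>
    rw [Function.iterate_succ_apply', Function.iterate_succ_apply', ih, avgOp_comm]

/-- The interpolation argument: if one constraint of type `b` is, for every solution set, at
least as likely to destroy all solutions as one constraint of type `a`, up to `τ`, then the same
holds for `M` constraints up to `M τ`. -/
lemma hybrid {w : ι → ℝ} {a : ι → Finset X} {v : κ → ℝ} {b : κ → Finset X}
    (hw : ∀ i, 0 ≤ w i) (hw1 : ∑ i, w i = 1) (hv : ∀ i, 0 ≤ v i) (hv1 : ∑ i, v i = 1)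
    {ν : Finset X → ℝ} {τ : ℝ} (h : ∀ S, avgOp v b ν S - τ ≤ avgOp w a ν S) (M : ℕ)
    (S : Finset X) : (avgOp v b)^[M] ν S - M * τ ≤ (avgOp w a)^[M] ν S := by
  induction M generalizing S with
  | zero => simp
  | succ M ih =>
    have h1 : (avgOp w a)^[M] (fun S => avgOp v b ν S - τ) S ≤ (avgOp w a)^[M + 1] ν S := by
      rw [Function.iterate_succ_apply]
      exact iter_mono hw a h M S
    have h2 : (avgOp w a)^[M] (fun S => avgOp v b ν S - τ) S
        = avgOp v b ((avgOp w a)^[M] ν) S - τ := by
      rw [iter_sub_const hw1, iter_comm]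
    have h3 : avgOp v b (fun S => (avgOp v b)^[M] ν S - M * τ) S
        ≤ avgOp v b ((avgOp w a)^[M] ν) S := avgOp_mono hv b ih S
    rw [avgOp_sub_const hv1] at h3
    have h4 : (avgOp v b)^[M + 1] ν S = avgOp v b ((avgOp v b)^[M] ν) S := by
      rw [Function.iterate_succ_apply']
    push_cast
    rw [h4]
    linarith [h3]

/-- Weighted functional for lazy steps: `lazyF θ M s` is the expectation of `s` at a
`Bin(M, 1 - θ)` variable. -/
noncomputable def lazyF (θ : ℝ) : ℕ → (ℕ → ℝ) → ℝ
  | 0, s => s 0
  | M + 1, s => θ * lazyF θ M s + (1 - θ) * lazyF θ M (fun j => s (j + 1))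

lemma lazyF_mono {θ : ℝ} (h0 : 0 ≤ θ) (h1 : θ ≤ 1) (M : ℕ) {s t : ℕ → ℝ}
    (h : ∀ j, s j ≤ t j) : lazyF θ M s ≤ lazyF θ M t := by
  induction M generalizing s t with
  | zero => exact h 0
  | succ M ih =>
    have := ih h
    have h2 := ih (s := fun j => s (j + 1)) (t := fun j => t (j + 1)) (fun j => h (j + 1))
    have h3 : 0 ≤ 1 - θ := by linarith
    simp only [lazyF]
    gcongr

lemma lazyF_add (θ : ℝ) (M : ℕ) (s t : ℕ → ℝ) :
    lazyF θ M (fun j => s j + t j) = lazyF θ M s + lazyF θ M t := by
  induction M generalizing s t with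
  | zero => rfl
  | succ M ih => simp only [lazyF, ih]; ring

lemma lazyF_smul (θ : ℝ) (M : ℕ) (c : ℝ) (s : ℕ → ℝ) :
    lazyF θ M (fun j => c * s j) = c * lazyF θ M s := by
  induction M generalizing s with
  | zero => rfl
  | succ M ih => simp only [lazyF, ih]; ring

lemma lazyF_sum (θ : ℝ) (M : ℕ) {ι : Type} (s : Finset ι) (w : ι → ℝ) (c : ι → ℕ → ℝ) :
    lazyF θ M (fun m => ∑ i ∈ s, w i * c i m) = ∑ i ∈ s, w i * lazyF θ M (c i) := by
  classical
  induction s using Finset.induction_on with
  | empty =>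
    simp only [Finset.sum_empty]
    have := lazyF_smul θ M 0 (fun _ => 0)
    simpa using this
  | insert i s hi ih =>
    simp only [Finset.sum_insert hi]
    rw [lazyF_add, ih, lazyF_smul]

lemma lazyF_const (θ : ℝ) (M : ℕ) (c : ℝ) : lazyF θ M (fun _ => c) = c := by
  induction M with
  | zero => rfl
  | succ M ih => simp only [lazyF, ih]; ring

lemma lazyF_sq (θ : ℝ) (M : ℕ) (t : ℝ) :
    lazyF θ M (fun j => ((j : ℝ) + t) ^ 2) = (t + (1 - θ) * M) ^ 2 + M * (θ * (1 - θ)) := by
  induction M generalizing t with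
  | zero => simp [lazyF]
  | succ M ih =>
    have h : (fun j : ℕ => (((j + 1 : ℕ) : ℝ) + t) ^ 2) = fun j : ℕ => ((j : ℝ) + (t + 1)) ^ 2 := by
      funext j; push_cast; ring
    simp only [lazyF]
    rw [h, ih, ih]
    push_cast
    ring

/-- Multinomial functional: `multiF q M c` is the expectation of `c` at the count vector of `M`
independent uniform elements of `Fin q`. -/
noncomputable def multiF (q : ℕ) : ℕ → ((Fin q → ℕ) → ℝ) → ℝ
  | 0, c => c 0
  | M + 1, c => (∑ b : Fin q, multiF q M (fun m => c (m + Pi.single b 1))) / q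

lemma multiF_mono (q M : ℕ) {c d : (Fin q → ℕ) → ℝ} (h : ∀ m, c m ≤ d m) :
    multiF q M c ≤ multiF q M d := by
  induction M generalizing c d with
  | zero => exact h 0
  | succ M ih =>
    simp only [multiF]
    have : ∑ b : Fin q, multiF q M (fun m => c (m + Pi.single b 1))
        ≤ ∑ b : Fin q, multiF q M (fun m => d (m + Pi.single b 1)) :=
      Finset.sum_le_sum fun b _ => ih fun m => h _
    gcongr

lemma multiF_add (q M : ℕ) (c d : (Fin q → ℕ) → ℝ) :
    multiF q M (fun m => c m + d m) = multiF q M c + multiF q M d := by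
  induction M generalizing c d with
  | zero => rfl
  | succ M ih =>
    simp only [multiF, ih, Finset.sum_add_distrib]
    ring

lemma multiF_smul (q M : ℕ) (r : ℝ) (c : (Fin q → ℕ) → ℝ) :
    multiF q M (fun m => r * c m) = r * multiF q M c := by
  induction M generalizing c with
  | zero => rfl
  | succ M ih =>
    simp only [multiF, ih, ← Finset.mul_sum]
    ring

lemma multiF_sum (q M : ℕ) {ι : Type} (s : Finset ι) (w : ι → ℝ) (c : ι → (Fin q → ℕ) → ℝ) :
    multiF q M (fun m => ∑ i ∈ s, w i * c i m) = ∑ i ∈ s, w i * multiF q M (c i) := by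
  classical
  induction s using Finset.induction_on with
  | empty =>
    simp only [Finset.sum_empty]
    have := multiF_smul q M 0 (fun _ => 0)
    simpa using this
  | insert i s hi ih =>
    simp only [Finset.sum_insert hi]
    rw [multiF_add, ih, multiF_smul]

lemma multiF_const {q : ℕ} (hq : 0 < q) (M : ℕ) (c : ℝ) : multiF q M (fun _ => c) = c := by
  have hq' : (q : ℝ) ≠ 0 := by positivity
  induction M with
  | zero => rfl
  | succ M ih =>
    simp only [multiF, ih, Finset.sum_const, Finset.card_univ, Fintype.card_fin, nsmul_eq_mul]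
    field_simp

lemma multiF_sq {q : ℕ} (hq : 0 < q) (M : ℕ) (β : Fin q) (t : ℝ) :
    multiF q M (fun m => ((m β : ℝ) + t) ^ 2)
      = (t + M / q) ^ 2 + M * (1 / q - 1 / q ^ 2) := by
  have hq' : (q : ℝ) ≠ 0 := by positivity
  induction M generalizing t with
  | zero => simp [multiF]
  | succ M ih =>
    simp only [multiF]
    have hb : ∀ b : Fin q, multiF q M
        (fun m : Fin q → ℕ => ((((m + Pi.single b 1 : Fin q → ℕ) β : ℕ) : ℝ) + t) ^ 2)
        = if b = β then (t + 1 + M / q) ^ 2 + M * (1 / q - 1 / q ^ 2 : ℝ)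
          else (t + M / q) ^ 2 + M * (1 / q - 1 / q ^ 2 : ℝ) := by
      intro b
      split_ifs with hbβ
      · subst hbβ
        rw [← ih (t + 1)]
        congr 1
        funext m
        simp only [Pi.add_apply, Pi.single_eq_same]
        push_cast
        ring
      · rw [← ih t]
        congr 1
        funext m
        have : (Pi.single b 1 : Fin q → ℕ) β = 0 := by
          rw [Pi.single_apply, if_neg (fun h => hbβ h.symm)]
        simp [Pi.add_apply, this]
    rw [Finset.sum_congr rfl fun b _ => hb b, Finset.sum_ite]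
    simp only [Finset.sum_const, Finset.filter_eq', Finset.mem_univ, if_true, Finset.card_singleton,
      nsmul_eq_mul]
    have hcard : ((Finset.univ.filter fun b : Fin q => ¬ b = β).card : ℝ) = q - 1 := by
      have h1 : (Finset.univ.filter fun b : Fin q => ¬ b = β) = Finset.univ.erase β := by
        ext b; simp
      rw [h1, Finset.card_erase_of_mem (Finset.mem_univ β), Finset.card_univ, Fintype.card_fin,
        Nat.cast_sub hq, Nat.cast_one]
    rw [hcard]
    push_cast
    field_simp
    ring

end Operators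

end Vale.Agent.P170
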