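import Vale.Agent.P170.Clauses

/-!
Random `k`-SAT of small density is satisfiable with probability at least `1/2`.
-/

namespace Vale.Agent.P170

open Finset

namespace PositivityAux

section Count

variable {k : ℕ} {V : Type} [Fintype V] [DecidableEq V]

/-- The variables of a clause. -/
def vars (C : ProperClause k V) : Finset V := C.1.image Prod.fst

lemma card_fiber (A : Finset V) (hA : A.card = k) :
    (Finset.univ.filter fun C : ProperClause k V => vars C = A).card ≤ 2 ^ k := by
  classical
  have hpow : (2 : ℕ) ^ k = A.powerset.card := by rw [Finset.card_powerset, hA]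
  rw [hpow]
  refine Finset.card_le_card_of_injOn (fun C => A.filter fun v => (v, true) ∈ C.1) ?_ ?_
  · intro C _
    rw [Finset.mem_coe, Finset.mem_powerset]
    exact Finset.filter_subset _ _
  · intro C hC C' hC' h
    rw [Finset.mem_coe, Finset.mem_filter] at hC hC'
    apply Subtype.ext
    have key : ∀ (D : ProperClause k V), D.1.image Prod.fst = A → ∀ v ∈ A,
        ((v, false) ∈ D.1 ↔ (v, true) ∉ D.1) := by
      intro D hD v hv
      rw [← hD, Finset.mem_image] at hv
      obtain ⟨⟨v', b⟩, hl, rfl⟩ := hv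
      constructor
      · intro h1 h2
        have := D.2.2 h1 h2 rfl
        simp at this
      · intro h1
        cases b
        · exact hl
        · exact absurd hl h1
    have key2 : ∀ (D : ProperClause k V), D.1.image Prod.fst = A → ∀ l ∈ D.1, l.1 ∈ A := by
      intro D hD l hl
      rw [← hD]
      exact Finset.mem_image_of_mem _ hl
    have htrue : ∀ v ∈ A, ((v, true) ∈ C.1 ↔ (v, true) ∈ C'.1) := by
      intro v hv
      have := Finset.ext_iff.1 h v
      simp only [Finset.mem_filter, hv, true_and] at this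
      exact this
    ext ⟨v, b⟩
    constructor
    · intro hl
      have hv := key2 C hC.2 _ hl
      cases b
      · rw [key C' hC'.2 v hv, ← htrue v hv, ← key C hC.2 v hv]
        exact hl
      · rw [← htrue v hv]
        exact hl
    · intro hl
      have hv := key2 C' hC'.2 _ hl
      cases b
      · rw [key C hC.2 v hv, htrue v hv, ← key C' hC'.2 v hv]
        exact hl
      · rw [htrue v hv]
        exact hl

/-- The clauses with all variables in `A`. -/
noncomputable def inside (k : ℕ) (A : Finset V) : Finset (ProperClause k V) :=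
  Finset.univ.filter fun C : ProperClause k V => vars C ⊆ A

lemma card_inside (A : Finset V) : (inside k A).card ≤ 2 ^ k * A.card.choose k := by
  classical
  have hmaps : ∀ C ∈ inside k A, vars C ∈ A.powersetCard k := by
    intro C hC
    rw [inside, Finset.mem_filter] at hC
    rw [Finset.mem_powersetCard]
    refine ⟨hC.2, ?_⟩
    unfold vars
    rw [Finset.card_image_of_injOn C.2.2]
    exact C.2.1
  rw [Finset.card_eq_sum_card_fiberwise hmaps]
  calc ∑ B ∈ A.powersetCard k, ((inside k A).filter fun C => vars C = B).card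
      ≤ ∑ B ∈ A.powersetCard k, 2 ^ k := by
        refine Finset.sum_le_sum fun B hB => ?_
        rw [Finset.mem_powersetCard] at hB
        refine le_trans (Finset.card_le_card ?_) (card_fiber B hB.2)
        intro C hC
        rw [Finset.mem_filter] at hC ⊢
        exact ⟨Finset.mem_univ _, hC.2⟩
    _ = 2 ^ k * A.card.choose k := by
        rw [Finset.sum_const, Finset.card_powersetCard, smul_eq_mul, mul_comm]

end Count

lemma choose_mul_sq_le {a n : ℕ} (h : a ≤ n) {k : ℕ} (hk : 2 ≤ k) :
    a.choose k * n ^ 2 ≤ n.choose k * a ^ 2 := by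
  induction k, hk using Nat.le_induction with
  | base =>
    have h1 : 2 * a.choose 2 = a * (a - 1) := by
      rw [Nat.choose_two_right, Nat.mul_div_cancel' (Nat.even_mul_pred_self a).two_dvd]
    have h2 : 2 * n.choose 2 = n * (n - 1) := by
      rw [Nat.choose_two_right, Nat.mul_div_cancel' (Nat.even_mul_pred_self n).two_dvd]
    have h3 : 2 * (a.choose 2 * n ^ 2) ≤ 2 * (n.choose 2 * a ^ 2) := by
      rw [← mul_assoc, h1, ← mul_assoc, h2]
      obtain rfl | ha := Nat.eq_zero_or_pos a
      · simp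
      · obtain ⟨b, rfl⟩ : ∃ b, a = b + 1 := ⟨a - 1, by omega⟩
        obtain ⟨c, rfl⟩ : ∃ c, n = c + 1 := ⟨n - 1, by omega⟩
        simp only [Nat.add_sub_cancel]
        have : b ≤ c := by omega
        have : b * (c + 1) ≤ c * (b + 1) := by nlinarith
        calc (b + 1) * b * (c + 1) ^ 2 = (b + 1) * (c + 1) * (b * (c + 1)) := by ring
          _ ≤ (b + 1) * (c + 1) * (c * (b + 1)) := Nat.mul_le_mul_left _ this
          _ = _ := by ring
    exact Nat.le_of_mul_le_mul_left h3 (by norm_num)
  | succ k hk ih =>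
    have h1 := Nat.choose_succ_right_eq a k
    have h2 := Nat.choose_succ_right_eq n k
    have h3 : (k + 1) * (a.choose (k + 1) * n ^ 2) ≤ (k + 1) * (n.choose (k + 1) * a ^ 2) := by
      calc (k + 1) * (a.choose (k + 1) * n ^ 2) = (a.choose (k + 1) * (k + 1)) * n ^ 2 := by ring
        _ = (a.choose k * n ^ 2) * (a - k) := by rw [h1]; ring
        _ ≤ (n.choose k * a ^ 2) * (n - k) := Nat.mul_le_mul ih (by omega)
        _ = (n.choose (k + 1) * (k + 1)) * a ^ 2 := by rw [h2]; ring
        _ = _ := by ring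
    exact Nat.le_of_mul_le_mul_left h3 (by omega)

/-- If Hall's condition holds the formula is satisfiable. -/
lemma satisfiable_of_hall {k m : ℕ} {V : Type} [Fintype V] [DecidableEq V]
    (F : Fin m → ProperClause k V)
    (h : ∀ I : Finset (Fin m), I.card ≤ (I.biUnion fun i => vars (F i)).card) :
    Satisfiable F := by
  rw [Finset.all_card_le_biUnion_card_iff_exists_injective] at h
  obtain ⟨f, hf, hfm⟩ := h
  have : ∀ i, ∃ b, (f i, b) ∈ (F i).1 := by
    intro i
    obtain ⟨⟨v, b⟩, hl, hv⟩ := Finset.mem_image.1 (hfm i)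
    exact ⟨b, by rw [← hv]; exact hl⟩
  choose b hb using this
  refine ⟨Function.extend f b fun _ => false, fun i => ⟨_, hb i, ?_⟩⟩
  simp only
  rw [hf.extend_apply]

/-- The bad formulas for a set of clauses and a set of variables. -/
noncomputable def bad (k m : ℕ) {n : ℕ} (I : Finset (Fin m)) (A : Finset (Fin n)) :
    Finset (Fin m → ProperClause k (Fin n)) :=
  Fintype.piFinset fun i => if i ∈ I then inside k A else Finset.univ

lemma card_bad (k m : ℕ) {n : ℕ} (I : Finset (Fin m)) (A : Finset (Fin n)) :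
    (bad k m I A).card = (inside k A).card ^ I.card *
      Fintype.card (ProperClause k (Fin n)) ^ (m - I.card) := by
  classical
  unfold bad
  rw [Fintype.card_piFinset]
  simp only [apply_ite Finset.card, Finset.card_univ]
  rw [Finset.prod_ite, Finset.prod_const, Finset.prod_const]
  congr 2
  · simp
  · rw [Finset.filter_not, Finset.card_sdiff_of_subset (Finset.filter_subset _ _)]
    simp

lemma exists_bad {k m n : ℕ} (hmn : m ≤ n) (F : Fin m → ProperClause k (Fin n))
    (h : ¬ Satisfiable F) : ∃ s ∈ Finset.Icc 1 m, ∃ I ∈ (Finset.univ : Finset (Fin m)).powersetCard s,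
      ∃ A ∈ (Finset.univ : Finset (Fin n)).powersetCard s, F ∈ bad k m I A := by
  classical
  have h2 : ¬ ∀ I : Finset (Fin m), I.card ≤ (I.biUnion fun i => vars (F i)).card :=
    fun h3 => h (satisfiable_of_hall F h3)
  push Not at h2
  obtain ⟨I, hI⟩ := h2
  have hIm : I.card ≤ m := by simpa using Finset.card_le_univ I
  obtain ⟨A, hA1, hA2, hA3⟩ := Finset.exists_subsuperset_card_eq
    (Finset.subset_univ (I.biUnion fun i => vars (F i))) hI.le
    (by simpa using hIm.trans hmn)
  refine ⟨I.card, Finset.mem_Icc.2 ⟨by omega, hIm⟩, I, by simp [Finset.mem_powersetCard], A,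
    by simp [Finset.mem_powersetCard, hA3], ?_⟩
  unfold bad
  rw [Fintype.mem_piFinset]
  intro i
  split_ifs with hi
  · unfold inside
    rw [Finset.mem_filter]
    exact ⟨Finset.mem_univ _, (Finset.subset_biUnion_of_mem (fun i => vars (F i)) hi).trans hA1⟩
  · exact Finset.mem_univ _

lemma card_unsat_le {k m n : ℕ} (hmn : m ≤ n) :
    (Nat.card {F : Fin m → ProperClause k (Fin n) // ¬ Satisfiable F}) ≤
      ∑ s ∈ Finset.Icc 1 m, m.choose s * (n.choose s * ((2 ^ k * s.choose k) ^ s *
        Fintype.card (ProperClause k (Fin n)) ^ (m - s))) := by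
  classical
  have h1 : Nat.card {F : Fin m → ProperClause k (Fin n) // ¬ Satisfiable F} =
      (Finset.univ.filter fun F : Fin m → ProperClause k (Fin n) => ¬ Satisfiable F).card := by
    rw [Nat.card_eq_fintype_card, Fintype.card_subtype]
  rw [h1]
  have h2 : (Finset.univ.filter fun F : Fin m → ProperClause k (Fin n) => ¬ Satisfiable F) ⊆
      (Finset.Icc 1 m).biUnion fun s =>
        ((Finset.univ : Finset (Fin m)).powersetCard s).biUnion fun I =>
          ((Finset.univ : Finset (Fin n)).powersetCard s).biUnion fun A => bad k m I A := by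
    intro F hF
    rw [Finset.mem_filter] at hF
    obtain ⟨s, hs, I, hI, A, hA, hb⟩ := exists_bad hmn F hF.2
    simp only [Finset.mem_biUnion]
    exact ⟨s, hs, I, hI, A, hA, hb⟩
  refine (Finset.card_le_card h2).trans (Finset.card_biUnion_le.trans ?_)
  refine Finset.sum_le_sum fun s hs => ?_
  refine Finset.card_biUnion_le.trans ?_
  have h3 : ∀ I ∈ (Finset.univ : Finset (Fin m)).powersetCard s,
      (((Finset.univ : Finset (Fin n)).powersetCard s).biUnion fun A => bad k m I A).card ≤
      n.choose s * ((2 ^ k * s.choose k) ^ s *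
        Fintype.card (ProperClause k (Fin n)) ^ (m - s)) := by
    intro I hI
    refine Finset.card_biUnion_le.trans ?_
    have h4 : ∀ A ∈ (Finset.univ : Finset (Fin n)).powersetCard s, (bad k m I A).card ≤
        (2 ^ k * s.choose k) ^ s * Fintype.card (ProperClause k (Fin n)) ^ (m - s) := by
      intro A hA
      rw [Finset.mem_powersetCard] at hI hA
      rw [card_bad, hI.2]
      refine Nat.mul_le_mul_right _ (Nat.pow_le_pow_left ?_ _)
      rw [← hA.2]
      exact card_inside A
    refine (Finset.sum_le_card_nsmul _ _ _ h4).trans ?_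
    rw [Finset.card_powersetCard, Finset.card_univ, Fintype.card_fin, smul_eq_mul]
  refine (Finset.sum_le_card_nsmul _ _ _ h3).trans ?_
  rw [Finset.card_powersetCard, Finset.card_univ, Fintype.card_fin, smul_eq_mul]

end PositivityAux

open PositivityAux

theorem satProb_pos_density (k : ℕ) (hk : 2 ≤ k) : ∃ c₀ : ℝ, 0 < c₀ ∧ ∃ n₀ : ℕ, ∀ n : ℕ,
    n₀ ≤ n → ∀ m : ℕ, (m : ℝ) ≤ c₀ * n → 1 / 2 ≤ satProb k n m := by
  classical
  refine ⟨1 / 32, by norm_num, k, fun n hn m hm => ?_⟩
  have hn0 : 0 < n := by omega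
  have hnR : (0 : ℝ) < n := by exact_mod_cast hn0
  have hmn : m ≤ n := by
    have : (m : ℝ) ≤ n := by linarith
    exact_mod_cast this
  set T : ℕ := Fintype.card (ProperClause k (Fin n)) with hT
  have hTpos : 0 < T := card_properClause_pos (by simpa using hn)
  have hTR : (0 : ℝ) < T := by exact_mod_cast hTpos
  have hTeq : T = 2 ^ k * n.choose k := by rw [hT, card_properClause, Fintype.card_fin]
  -- the number of all formulas
  have hall : Nat.card (Fin m → ProperClause k (Fin n)) = T ^ m := by
    rw [Nat.card_eq_fintype_card, Fintype.card_fun, Fintype.card_fin]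
  have hsplit : Nat.card {F : Fin m → ProperClause k (Fin n) // Satisfiable F} +
      Nat.card {F : Fin m → ProperClause k (Fin n) // ¬ Satisfiable F} = T ^ m := by
    rw [← hall, Nat.card_eq_fintype_card, Nat.card_eq_fintype_card, Nat.card_eq_fintype_card,
      Fintype.card_subtype_compl]
    have := Fintype.card_subtype_le (fun F : Fin m → ProperClause k (Fin n) => Satisfiable F)
    omega
  have hterm : ∀ s ∈ Finset.Icc 1 m, ((m.choose s * (n.choose s * ((2 ^ k * s.choose k) ^ s *
        T ^ (m - s))) : ℕ) : ℝ) ≤ (1 / 4) ^ s * (T : ℝ) ^ m := by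
    intro s hs
    rw [Finset.mem_Icc] at hs
    have hsn : s ≤ n := hs.2.trans hmn
    -- ratio
    have hratio : ((2 ^ k * s.choose k : ℕ) : ℝ) ≤ T * ((s : ℝ) ^ 2 / (n : ℝ) ^ 2) := by
      have h := choose_mul_sq_le hsn hk
      have h' : (2 ^ k * s.choose k) * n ^ 2 ≤ T * s ^ 2 := by
        rw [hTeq, mul_assoc, mul_assoc]
        exact Nat.mul_le_mul_left _ h
      have h'' : ((2 ^ k * s.choose k : ℕ) : ℝ) * (n : ℝ) ^ 2 ≤ T * (s : ℝ) ^ 2 := by
        exact_mod_cast h'
      rw [← mul_div_assoc, le_div_iff₀ (by positivity)]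
      exact h''
    have h1 : (m.choose s : ℝ) ≤ (m : ℝ) ^ s / (s.factorial : ℝ) := Nat.choose_le_pow_div s m
    have h2 : (n.choose s : ℝ) ≤ (n : ℝ) ^ s / (s.factorial : ℝ) := Nat.choose_le_pow_div s n
    have h3 : (s : ℝ) ^ s / (s.factorial : ℝ) ≤ Real.exp s :=
      Real.pow_div_factorial_le_exp _ (Nat.cast_nonneg _) _
    have h4 : (T : ℝ) ^ m = (T : ℝ) ^ s * (T : ℝ) ^ (m - s) := by
      rw [← pow_add]; congr 1; omega
    have hexp : Real.exp 1 ^ 2 ≤ 8 := by
      have := Real.exp_one_lt_d9
      have h0 := Real.exp_pos 1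
      nlinarith
    have hfac : (0 : ℝ) < (s.factorial : ℝ) := by exact_mod_cast s.factorial_pos
    push_cast
    calc (m.choose s : ℝ) * ((n.choose s : ℝ) * (((2 : ℝ) ^ k * (s.choose k : ℝ)) ^ s *
          (T : ℝ) ^ (m - s)))
        ≤ ((m : ℝ) ^ s / (s.factorial : ℝ)) * (((n : ℝ) ^ s / (s.factorial : ℝ)) *
          ((T * ((s : ℝ) ^ 2 / (n : ℝ) ^ 2)) ^ s * (T : ℝ) ^ (m - s))) := by
          have hr : ((2 : ℝ) ^ k * (s.choose k : ℝ)) ≤ T * ((s : ℝ) ^ 2 / (n : ℝ) ^ 2) := by
            have := hratio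
            push_cast at this
            exact this
          gcongr
      _ = ((s : ℝ) ^ s / (s.factorial : ℝ)) ^ 2 * ((m : ℝ) / n) ^ s * (T : ℝ) ^ m := by
          have e1 : (m : ℝ) * n * (T * ((s : ℝ) ^ 2 / (n : ℝ) ^ 2)) =
              s * s * ((m : ℝ) / n) * T := by
            field_simp
          have e2 : (m : ℝ) ^ s / (s.factorial : ℝ) * (((n : ℝ) ^ s / (s.factorial : ℝ)) *
              ((T * ((s : ℝ) ^ 2 / (n : ℝ) ^ 2)) ^ s * (T : ℝ) ^ (m - s))) =
              ((m : ℝ) * n * (T * ((s : ℝ) ^ 2 / (n : ℝ) ^ 2))) ^ s * (T : ℝ) ^ (m - s) /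
                (s.factorial : ℝ) ^ 2 := by
            rw [mul_pow ((m : ℝ) * n), mul_pow (m : ℝ)]; ring
          rw [h4, e2, e1, mul_pow _ (T : ℝ), mul_pow _ ((m : ℝ) / n), mul_pow (s : ℝ)]
          ring
      _ ≤ (Real.exp s) ^ 2 * (1 / 32) ^ s * (T : ℝ) ^ m := by
          have hmn' : (m : ℝ) / n ≤ 1 / 32 := by
            rw [div_le_iff₀ hnR]; exact hm
          gcongr
      _ = (Real.exp 1 ^ 2 / 32) ^ s * (T : ℝ) ^ m := by
          have : Real.exp s = Real.exp 1 ^ s := by rw [← Real.exp_nat_mul, mul_one]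
          rw [this, ← pow_mul, mul_comm s 2, pow_mul, ← mul_pow]
          congr 2
          ring
      _ ≤ (1 / 4) ^ s * (T : ℝ) ^ m := by
          have : Real.exp 1 ^ 2 / 32 ≤ 1 / 4 := by linarith
          gcongr
  have hbound : (Nat.card {F : Fin m → ProperClause k (Fin n) // ¬ Satisfiable F} : ℝ) ≤
      1 / 2 * (T : ℝ) ^ m := by
    have h1 : (Nat.card {F : Fin m → ProperClause k (Fin n) // ¬ Satisfiable F} : ℝ) ≤
        ((∑ s ∈ Finset.Icc 1 m, m.choose s * (n.choose s * ((2 ^ k * s.choose k) ^ s *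
        T ^ (m - s))) : ℕ) : ℝ) := by exact_mod_cast card_unsat_le hmn
    refine h1.trans ?_
    rw [Nat.cast_sum]
    refine (Finset.sum_le_sum hterm).trans ?_
    rw [← Finset.sum_mul]
    refine mul_le_mul_of_nonneg_right ?_ (by positivity)
    have h2 : ∑ s ∈ Finset.Icc 1 m, (1 / 4 : ℝ) ^ s = (∑ s ∈ Finset.range (m + 1), (1 / 4 : ℝ) ^ s)
        - 1 := by
      rw [Finset.range_eq_Ico, Finset.sum_eq_sum_Ico_succ_bot (by omega)]
      have : Finset.Ico (0 + 1) (m + 1) = Finset.Icc 1 m := by
        ext x; simp only [Finset.mem_Ico, Finset.mem_Icc]; omega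
      rw [this]; simp
    rw [h2]
    have h3 := geom_sum_eq (by norm_num : (1 / 4 : ℝ) ≠ 1) (m + 1)
    rw [h3]
    have : (0 : ℝ) < (1 / 4 : ℝ) ^ (m + 1) := by positivity
    rw [show ((1 / 4 : ℝ) - 1) = - (3 / 4) by norm_num]
    rw [div_neg, ← sub_nonneg]
    have h5 : ((1 / 4 : ℝ) ^ (m + 1) - 1) / (3 / 4) ≥ - (4 / 3) := by
      rw [ge_iff_le, le_div_iff₀ (by norm_num)]
      linarith
    linarith
  unfold satProb
  rw [hall]
  have hcast : ((T ^ m : ℕ) : ℝ) = (T : ℝ) ^ m := by push_cast; rfl
  rw [hcast, le_div_iff₀ (by positivity)]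
  have hs : (Nat.card {F : Fin m → ProperClause k (Fin n) // Satisfiable F} : ℝ) +
      (Nat.card {F : Fin m → ProperClause k (Fin n) // ¬ Satisfiable F} : ℝ) = (T : ℝ) ^ m := by
    exact_mod_cast hsplit
  linarith

end Vale.Agent.P170
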