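import Vale.Agent.P170.Interp

/-!
A variance bound for the survival probability, via a maximal (stopping) argument.
-/

namespace Vale.Agent.P170

open Finset

section Variance

variable {k : ℕ} {V : Type} [Fintype V] [DecidableEq V]

/-- `p`-th power of the fraction of literals that are false on all of `S` (zero if `S` is
empty). -/
noncomputable def fp (p : ℕ) (S : Finset (V → Bool)) : ℝ :=
  nonemp S * (((falseLits S).card : ℝ) / (2 * Fintype.card V)) ^ p

lemma fp_nonneg (p : ℕ) (S : Finset (V → Bool)) : 0 ≤ fp p S := by
  unfold fp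
  have := nonemp_nonneg S
  positivity

/-- The effect of `i` random clauses on a functional. -/
noncomputable def it (k i : ℕ) (F : Finset (V → Bool) → ℝ) (S : Finset (V → Bool)) : ℝ :=
  (clauseOp k V)^[i] F S

lemma it_zero (F : Finset (V → Bool) → ℝ) (S : Finset (V → Bool)) : it k 0 F S = F S := rfl

lemma it_succ (i : ℕ) (F : Finset (V → Bool) → ℝ) (S : Finset (V → Bool)) :
    it k (i + 1) F S = ∑ C : ProperClause k V, cw k V C * it k i F (S ∩ sols C) := by
  unfold it clauseOp
  rw [Function.iterate_succ_apply']
  rfl

lemma it_succ' (i : ℕ) (F : Finset (V → Bool) → ℝ) (S : Finset (V → Bool)) :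
    it k (i + 1) F S = it k i (clauseOp k V F) S := by
  unfold it
  rw [Function.iterate_succ_apply]

lemma it_nonemp (i : ℕ) (S : Finset (V → Bool)) : it k i nonemp S = surv k V i S := rfl

lemma it_mono {F G : Finset (V → Bool) → ℝ} (h : ∀ S, F S ≤ G S) (i : ℕ)
    (S : Finset (V → Bool)) : it k i F S ≤ it k i G S :=
  iter_mono (fun C => cw_nonneg C) sols h i S

lemma it_nonneg {F : Finset (V → Bool) → ℝ} (h : ∀ S, 0 ≤ F S) (i : ℕ)
    (S : Finset (V → Bool)) : 0 ≤ it k i F S := by
  induction i generalizing S with
  | zero => exact h S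
  | succ i ih =>
    rw [it_succ]
    exact Finset.sum_nonneg fun C _ => mul_nonneg (cw_nonneg C) (ih _)

lemma it_linear (F G : Finset (V → Bool) → ℝ) (a b : ℝ) (i : ℕ) (S : Finset (V → Bool)) :
    it k i (fun S => a * F S + b * G S) S = a * it k i F S + b * it k i G S := by
  induction i generalizing S with
  | zero => rfl
  | succ i ih =>
    rw [it_succ, it_succ, it_succ, Finset.mul_sum, Finset.mul_sum, ← Finset.sum_add_distrib]
    refine Finset.sum_congr rfl fun C _ => ?_
    rw [ih]
    ring

/-- Base case of the two-copy estimate. -/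
lemma bilinear_zero (h : k ≤ Fintype.card V) (hk : 1 ≤ k) (S₁ S₂ : Finset (V → Bool)) :
    ∑ C : ProperClause k V, cw k V C *
      ((nonemp S₁ - nonemp (S₁ ∩ sols C)) * (nonemp S₂ - nonemp (S₂ ∩ sols C)))
      ≤ fp 1 S₁ * fp (k - 1) S₂ := by
  classical
  rcases Finset.eq_empty_or_nonempty S₁ with hS | hS₁
  · subst hS
    simp [nonemp_empty, fp]
  rcases Finset.eq_empty_or_nonempty S₂ with hS | hS₂
  · subst hS
    simp [nonemp_empty, fp]
  have hpos := card_properClause_pos (k := k) (V := V) h
  have hV : 0 < Fintype.card V := by omega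
  have hVR : (0 : ℝ) < Fintype.card V := by exact_mod_cast hV
  have key : ∀ (S : Finset (V → Bool)) (_ : S.Nonempty) (C : ProperClause k V),
      nonemp S - nonemp (S ∩ sols C) = if C.1 ⊆ falseLits S then (1 : ℝ) else 0 := by
    intro S hS C
    rw [nonemp_of_nonempty hS]
    by_cases hC : C.1 ⊆ falseLits S
    · rw [if_pos hC, (inter_sols_eq_empty C).2 hC, nonemp_empty]; norm_num
    · rw [if_neg hC]
      have : (S ∩ sols C).Nonempty := by
        rw [Finset.nonempty_iff_ne_empty]
        exact fun he => hC ((inter_sols_eq_empty C).1 he)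
      rw [nonemp_of_nonempty this]; norm_num
  set L := falseLits S₁ ∩ falseLits S₂ with hL
  have hLinj : Set.InjOn Prod.fst (L : Set (V × Bool)) :=
    (falseLits_injOn hS₁).mono (by
      intro x hx
      rw [Finset.mem_coe, hL, Finset.mem_inter] at hx
      exact hx.1)
  have hLcard : L.card ≤ Fintype.card V := by
    rw [← Finset.card_image_of_injOn hLinj, ← Finset.card_univ]
    exact Finset.card_le_card (Finset.subset_univ _)
  have h1 : ∀ C : ProperClause k V,
      (nonemp S₁ - nonemp (S₁ ∩ sols C)) * (nonemp S₂ - nonemp (S₂ ∩ sols C))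
        = if C.1 ⊆ L then (1 : ℝ) else 0 := by
    intro C
    rw [key S₁ hS₁ C, key S₂ hS₂ C, hL]
    by_cases h1 : C.1 ⊆ falseLits S₁ <;> by_cases h2 : C.1 ⊆ falseLits S₂ <;>
      simp [h1, h2, Finset.subset_inter_iff]
  have h2 : ∑ C : ProperClause k V, cw k V C *
      ((nonemp S₁ - nonemp (S₁ ∩ sols C)) * (nonemp S₂ - nonemp (S₂ ∩ sols C)))
      = (L.card.choose k : ℝ) / (2 ^ k * ((Fintype.card V).choose k : ℝ)) := by
    rw [Finset.sum_congr rfl fun C _ => by rw [h1 C]]
    unfold cw
    rw [← Finset.mul_sum, Finset.sum_boole, card_clauses_subset _ hLinj, card_properClause]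
    push_cast
    rw [one_div, inv_mul_eq_div]
  rw [h2]
  have h3 := choose_div_choose_le hLcard h
  have h4 : (L.card.choose k : ℝ) / (2 ^ k * ((Fintype.card V).choose k : ℝ))
      = (L.card.choose k : ℝ) / ((Fintype.card V).choose k : ℝ) / 2 ^ k := by
    rw [div_div, mul_comm]
  rw [h4]
  have h5 : (L.card : ℝ) ≤ (falseLits S₁).card := by
    exact_mod_cast Finset.card_le_card Finset.inter_subset_left
  have h6 : (L.card : ℝ) ≤ (falseLits S₂).card := by
    exact_mod_cast Finset.card_le_card Finset.inter_subset_right
  unfold fp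
  rw [nonemp_of_nonempty hS₁, nonemp_of_nonempty hS₂, one_mul, one_mul, pow_one]
  calc (L.card.choose k : ℝ) / ((Fintype.card V).choose k : ℝ) / 2 ^ k
      ≤ ((L.card : ℝ) / Fintype.card V) ^ k / 2 ^ k := by gcongr
    _ = ((L.card : ℝ) / (2 * Fintype.card V)) ^ k := by
        rw [← div_pow, div_div, mul_comm]
    _ = ((L.card : ℝ) / (2 * Fintype.card V)) * ((L.card : ℝ) / (2 * Fintype.card V)) ^ (k - 1) := by
        rw [← pow_succ']
        congr 1
        omega
    _ ≤ _ := by gcongr

/-- Two-copy estimate. -/
lemma bilinear (h : k ≤ Fintype.card V) (hk : 1 ≤ k) (i : ℕ) (S₁ S₂ : Finset (V → Bool)) :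
    ∑ C : ProperClause k V, cw k V C *
      ((surv k V i S₁ - surv k V i (S₁ ∩ sols C)) * (surv k V i S₂ - surv k V i (S₂ ∩ sols C)))
      ≤ it k i (fp 1) S₁ * it k i (fp (k - 1)) S₂ := by
  classical
  induction i generalizing S₁ S₂ with
  | zero => exact bilinear_zero h hk S₁ S₂
  | succ i ih =>
    have hdiff : ∀ (S : Finset (V → Bool)) (C : ProperClause k V),
        surv k V (i + 1) S - surv k V (i + 1) (S ∩ sols C)
          = ∑ D : ProperClause k V, cw k V D *
            (surv k V i (S ∩ sols D) - surv k V i (S ∩ sols D ∩ sols C)) := by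
      intro S C
      rw [surv_succ, surv_succ, ← Finset.sum_sub_distrib]
      refine Finset.sum_congr rfl fun D _ => ?_
      rw [Finset.inter_right_comm S (sols C) (sols D)]
      ring
    calc ∑ C : ProperClause k V, cw k V C *
          ((surv k V (i + 1) S₁ - surv k V (i + 1) (S₁ ∩ sols C)) *
            (surv k V (i + 1) S₂ - surv k V (i + 1) (S₂ ∩ sols C)))
        = ∑ C : ProperClause k V, ∑ D : ProperClause k V, ∑ E : ProperClause k V,
            cw k V D * cw k V E * (cw k V C *
            ((surv k V i (S₁ ∩ sols D) - surv k V i (S₁ ∩ sols D ∩ sols C)) *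
              (surv k V i (S₂ ∩ sols E) - surv k V i (S₂ ∩ sols E ∩ sols C)))) := by
          refine Finset.sum_congr rfl fun C _ => ?_
          rw [hdiff, hdiff, Finset.sum_mul_sum, Finset.mul_sum]
          refine Finset.sum_congr rfl fun D _ => ?_
          rw [Finset.mul_sum]
          refine Finset.sum_congr rfl fun E _ => ?_
          ring
      _ = ∑ D : ProperClause k V, ∑ E : ProperClause k V, cw k V D * cw k V E *
            ∑ C : ProperClause k V, (cw k V C *
            ((surv k V i (S₁ ∩ sols D) - surv k V i (S₁ ∩ sols D ∩ sols C)) *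
              (surv k V i (S₂ ∩ sols E) - surv k V i (S₂ ∩ sols E ∩ sols C)))) := by
          rw [Finset.sum_comm]
          refine Finset.sum_congr rfl fun D _ => ?_
          rw [Finset.sum_comm]
          refine Finset.sum_congr rfl fun E _ => ?_
          rw [Finset.mul_sum]
      _ ≤ ∑ D : ProperClause k V, ∑ E : ProperClause k V, cw k V D * cw k V E *
            (it k i (fp 1) (S₁ ∩ sols D) * it k i (fp (k - 1)) (S₂ ∩ sols E)) := by
          refine Finset.sum_le_sum fun D _ => Finset.sum_le_sum fun E _ => ?_
          exact mul_le_mul_of_nonneg_left (ih _ _) (mul_nonneg (cw_nonneg D) (cw_nonneg E))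
      _ = it k (i + 1) (fp 1) S₁ * it k (i + 1) (fp (k - 1)) S₂ := by
          rw [it_succ, it_succ, Finset.sum_mul_sum]
          refine Finset.sum_congr rfl fun D _ => Finset.sum_congr rfl fun E _ => ?_
          ring

/-- The right-hand side of the variance bound. -/
noncomputable def rhs (k : ℕ) (Λ B : ℝ) : ℕ → Finset (V → Bool) → ℝ
  | 0, _ => 0
  | i + 1, S => (surv k V i S - surv k V (i + 1) S) / (4 * Λ) + (i + 1) * B * it k i (fp 1) S

lemma rhs_step (h : k ≤ Fintype.card V) {Λ B : ℝ} (hΛ : 0 < Λ) (i : ℕ)
    (S : Finset (V → Bool)) :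
    ∑ C : ProperClause k V, cw k V C * rhs k Λ B i (S ∩ sols C)
      ≤ (surv k V i S - surv k V (i + 1) S) / (4 * Λ) + i * B * it k i (fp 1) S := by
  cases i with
  | zero =>
    simp only [rhs, mul_zero, Finset.sum_const_zero, CharP.cast_eq_zero, zero_mul, add_zero,
      zero_add]
    have := surv_succ_le h 0 S
    have h2 : 0 ≤ surv k V 0 S - surv k V 1 S := by
      simpa using this
    positivity
  | succ i =>
    apply le_of_eq
    simp only [rhs]
    rw [surv_succ (i + 1), surv_succ i, it_succ, ← Finset.sum_sub_distrib, Finset.sum_div,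
      Finset.mul_sum, ← Finset.sum_add_distrib]
    refine Finset.sum_congr rfl fun C _ => ?_
    push_cast
    ring

/-- The variance bound: if `surv` drops by at most `Λ` in one step then its variance increment
is controlled by the expected fraction of frozen literals. -/
theorem surv_var (h : k ≤ Fintype.card V) (hk : 1 ≤ k) {Λ a E : ℝ} (hΛ : 0 < Λ) (ha : 0 ≤ a)
    (hE : 0 ≤ E)
    (hfp : ∀ S : Finset (V → Bool),
      fp (k - 1) S ≤ a * (nonemp S - clauseOp k V nonemp S) + E * nonemp S)
    (i : ℕ) (S : Finset (V → Bool)) :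
    surv k V i S * (1 - surv k V i S) ≤ rhs k Λ (a * Λ + E) i S := by
  induction i generalizing S with
  | zero =>
    simp only [rhs, surv_zero]
    rcases Finset.eq_empty_or_nonempty S with hS | hS
    · subst hS; simp [nonemp_empty]
    · simp [nonemp_of_nonempty hS]
  | succ i ih =>
    set B : ℝ := a * Λ + E with hB
    have hB0 : 0 ≤ B := by rw [hB]; positivity
    have hα0 : 0 ≤ it k i (fp 1) S := it_nonneg (fun S => fp_nonneg 1 S) i S
    have hmono := surv_succ_le h i S
    have h0 := surv_nonneg (k := k) (i + 1) S
    have h1 := surv_le_one h (i + 1) S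
    rcases lt_or_ge Λ (surv k V i S - surv k V (i + 1) S) with hbig | hsmall
    · -- trivial case
      have h2 : (1 : ℝ) / 4 ≤ (surv k V i S - surv k V (i + 1) S) / (4 * Λ) := by
        rw [le_div_iff₀ (by positivity)]
        linarith
      have h3 : surv k V (i + 1) S * (1 - surv k V (i + 1) S) ≤ 1 / 4 := by
        nlinarith [sq_nonneg (surv k V (i + 1) S - 1 / 2)]
      have h4 : 0 ≤ ((i : ℝ) + 1) * B * it k i (fp 1) S := by positivity
      simp only [rhs]
      linarith
    · -- martingale step
      set μ := surv k V (i + 1) S with hμ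
      set g := surv k V i S with hg
      have hsum : ∑ C : ProperClause k V, cw k V C = 1 := cw_sum h
      have hμs : μ = ∑ C : ProperClause k V, cw k V C * surv k V i (S ∩ sols C) := by
        rw [hμ, surv_succ]
      -- variance identity
      have hvar : μ * (1 - μ) = ∑ C : ProperClause k V, cw k V C *
            (surv k V i (S ∩ sols C) * (1 - surv k V i (S ∩ sols C)))
          + ∑ C : ProperClause k V, cw k V C * (surv k V i (S ∩ sols C) - μ) ^ 2 := by
        rw [← Finset.sum_add_distrib]
        have : ∀ C : ProperClause k V, cw k V C *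
            (surv k V i (S ∩ sols C) * (1 - surv k V i (S ∩ sols C)))
            + cw k V C * (surv k V i (S ∩ sols C) - μ) ^ 2
            = (1 - 2 * μ) * (cw k V C * surv k V i (S ∩ sols C)) + μ ^ 2 * cw k V C := by
          intro C; ring
        rw [Finset.sum_congr rfl fun C _ => this C, Finset.sum_add_distrib, ← Finset.mul_sum,
          ← Finset.mul_sum, hsum, ← hμs]
        ring
      have hvar2 : ∑ C : ProperClause k V, cw k V C * (surv k V i (S ∩ sols C) - μ) ^ 2
          ≤ ∑ C : ProperClause k V, cw k V C *
            ((g - surv k V i (S ∩ sols C)) * (g - surv k V i (S ∩ sols C))) := by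
        have hdiff : ∑ C : ProperClause k V, cw k V C *
            ((g - surv k V i (S ∩ sols C)) * (g - surv k V i (S ∩ sols C)))
            - ∑ C : ProperClause k V, cw k V C * (surv k V i (S ∩ sols C) - μ) ^ 2
            = (g - μ) ^ 2 := by
          rw [← Finset.sum_sub_distrib]
          have : ∀ C : ProperClause k V, cw k V C *
              ((g - surv k V i (S ∩ sols C)) * (g - surv k V i (S ∩ sols C)))
              - cw k V C * (surv k V i (S ∩ sols C) - μ) ^ 2
              = (2 * μ - 2 * g) * (cw k V C * surv k V i (S ∩ sols C))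
                + (g ^ 2 - μ ^ 2) * cw k V C := by
            intro C; ring
          rw [Finset.sum_congr rfl fun C _ => this C, Finset.sum_add_distrib, ← Finset.mul_sum,
            ← Finset.mul_sum, hsum, ← hμs]
          ring
        nlinarith [sq_nonneg (g - μ)]
      have hbil := bilinear (k := k) h hk i S S
      rw [← hg] at hbil
      have hfk : it k i (fp (k - 1)) S ≤ B := by
        have h5 : it k i (fp (k - 1)) S
            ≤ it k i (fun S => a * (nonemp S - clauseOp k V nonemp S) + E * nonemp S) S :=
          it_mono hfp i S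
        have h6 : it k i (fun S => a * (nonemp S - clauseOp k V nonemp S) + E * nonemp S) S
            = a * (g - μ) + E * g := by
          have h7 : (fun S : Finset (V → Bool) =>
              a * (nonemp S - clauseOp k V nonemp S) + E * nonemp S)
              = fun S => (a + E) * nonemp S + (-a) * clauseOp k V nonemp S := by
            funext S; ring
          rw [h7, it_linear, ← it_succ', it_nonemp, it_nonemp, ← hg, ← hμ]
          ring
        have h8 : g ≤ 1 := surv_le_one h i S
        rw [h6] at h5
        rw [hB]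
        have h9 : a * (g - μ) ≤ a * Λ := mul_le_mul_of_nonneg_left hsmall ha
        have h10 : E * g ≤ E := by nlinarith
        linarith
      have hbil2 : it k i (fp 1) S * it k i (fp (k - 1)) S ≤ B * it k i (fp 1) S := by
        rw [mul_comm B]
        exact mul_le_mul_of_nonneg_left hfk hα0
      have hih : ∑ C : ProperClause k V, cw k V C *
          (surv k V i (S ∩ sols C) * (1 - surv k V i (S ∩ sols C)))
          ≤ ∑ C : ProperClause k V, cw k V C * rhs k Λ B i (S ∩ sols C) :=
        Finset.sum_le_sum fun C _ => mul_le_mul_of_nonneg_left (ih _) (cw_nonneg C)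
      have hstep := rhs_step (B := B) h hΛ i S
      rw [← hg, ← hμ] at hstep
      simp only [rhs]
      rw [← hg, ← hμ, hvar]
      have h11 : ((i : ℝ) + 1) * B * it k i (fp 1) S
          = i * B * it k i (fp 1) S + B * it k i (fp 1) S := by ring
      rw [h11]
      linarith

end Variance

end Vale.Agent.P170
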