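import Vale.Agent.P170.Frozen
import Vale.Agent.P170.Limits

/-!
The scaling window of random `k`-SAT has width at most `n ^ (15 / 16)`.
-/

namespace Vale.Agent.P170

open Finset Filter Topology

/-- Finite form of the window estimate. -/
theorem window_core {K n' : ℕ} (h : K + 1 ≤ n') {y ε : ℝ} (hy : 0 < y) (hε : 0 < ε)
    (hε' : ε ≤ 1 / 2) {m₁ m₂ : ℕ} (hm : m₁ < m₂)
    (hP1 : satProb (K + 1) (n' + 1) m₁ ≤ 1 - ε) (hP2 : ε ≤ satProb (K + 1) (n' + 1) m₂) :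
    ε * (1 - ε) / 2 ≤ 2 * m₂ *
      (2 / y * (1 / (ε * (1 - ε) * (m₂ - m₁))) +
        (2 * (((K + 1 : ℕ) : ℝ) ^ 2 / ((n' + 1 : ℕ) : ℝ)) ^ (K + 1) / y + y ^ K)) *
      (m₂ * ((((K + 1 : ℕ) : ℝ) / ((n' + 1 : ℕ) : ℝ)) /
          (y * (1 - ((K + 1 : ℕ) : ℝ) / ((n' + 1 : ℕ) : ℝ))) / (m₂ - m₁)
        + (((K + 1 : ℕ) : ℝ) / ((n' + 1 : ℕ) : ℝ)) / 2 *
          (2 * (((K + 1 : ℕ) : ℝ) ^ 2 / (n' : ℝ)) ^ (K + 1) / y + y ^ K))) := by
  have hsum := sum_frozen_le h hy hm.le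
  set ρ : ℝ := ((K + 1 : ℕ) : ℝ) / ((n' + 1 : ℕ) : ℝ) with hρ
  have hρ0 : 0 < ρ := by rw [hρ]; positivity
  have hρ1 : ρ < 1 := by
    rw [hρ, div_lt_one (by positivity)]
    exact_mod_cast (by omega : K + 1 < n' + 1)
  have hρ1' : 0 < 1 - ρ := by linarith
  set E₀ : ℝ := 2 * (((K + 1 : ℕ) : ℝ) ^ 2 / (n' : ℝ)) ^ (K + 1) / y + y ^ K with hE₀
  set E₁ : ℝ := 2 * (((K + 1 : ℕ) : ℝ) ^ 2 / ((n' + 1 : ℕ) : ℝ)) ^ (K + 1) / y + y ^ K with hE₁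
  have hE₀0 : 0 ≤ E₀ := by rw [hE₀]; positivity
  have hE₁0 : 0 ≤ E₁ := by rw [hE₁]; positivity
  set a : ℝ := ρ / (y * (1 - ρ)) with ha
  have ha0 : 0 < a := by rw [ha]; positivity
  set L : ℝ := (m₂ : ℝ) - m₁ with hL
  have hLpos : 0 < L := by
    rw [hL, sub_pos]; exact_mod_cast hm
  have hm₂ : (0 : ℝ) < m₂ := by
    have : 0 < m₂ := by omega
    exact_mod_cast this
  set A : ℝ := m₂ * (a / L + ρ / 2 * E₀) with hA
  have hApos : 0 < A := by rw [hA]; positivity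
  set Λ : ℝ := 1 / (ε * (1 - ε) * L) with hΛ
  have hε1 : 0 < 1 - ε := by linarith
  have hΛpos : 0 < Λ := by rw [hΛ]; positivity
  have hk : K + 1 ≤ n' + 1 := by omega
  have hkc : K + 1 ≤ Fintype.card (Fin (n' + 1)) := by rw [Fintype.card_fin]; omega
  set P : ℕ → ℝ := fun m => surv (K + 1) (Fin (n' + 1)) m Finset.univ with hP
  set α : ℕ → ℝ := fun m => it (K + 1) m (fp 1)
    (Finset.univ : Finset (Fin (n' + 1) → Bool)) with hα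
  have hPanti : Antitone P := surv_antitone hkc _
  rw [satProb_eq_surv hk] at hP1 hP2
  have hcard : ((Finset.Ico m₁ m₂).card : ℝ) = L := by
    rw [Nat.card_Ico, Nat.cast_sub hm.le]
  have htel : ∑ m ∈ Finset.Ico m₁ m₂, (P m - P (m + 1)) = P m₁ - P m₂ := by
    rw [Finset.sum_Ico_eq_sub _ hm.le, Finset.sum_range_sub', Finset.sum_range_sub']
    ring
  have htot : ∑ m ∈ Finset.Ico m₁ m₂, (α m + A * L * (P m - P (m + 1)))
      ≤ ∑ _m ∈ Finset.Ico m₁ m₂, 2 * A := by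
    rw [Finset.sum_add_distrib, ← Finset.mul_sum, htel, Finset.sum_const, nsmul_eq_mul, hcard]
    have h1 : ∑ m ∈ Finset.Ico m₁ m₂, α m ≤ A * L := by
      refine hsum.trans (le_of_eq ?_)
      rw [hA]
      field_simp
    have h2 : P m₁ - P m₂ ≤ 1 := by
      have h3 : P m₁ ≤ 1 := surv_le_one hkc _ _
      have h4 : 0 ≤ P m₂ := surv_nonneg _ _
      linarith
    have h3 : A * L * (P m₁ - P m₂) ≤ A * L * 1 :=
      mul_le_mul_of_nonneg_left h2 (by positivity)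
    linarith
  obtain ⟨m, hmJ, hmle⟩ := Finset.exists_le_of_sum_le
    (Finset.nonempty_Ico.2 hm) htot
  rw [Finset.mem_Ico] at hmJ
  have hα0 : 0 ≤ α m := it_nonneg (fun S => fp_nonneg 1 S) m _
  have hPd : 0 ≤ P m - P (m + 1) := by
    have := hPanti (Nat.le_succ m)
    simp only [Nat.succ_eq_add_one] at this
    linarith
  have hαm : α m ≤ 2 * A := by
    have : 0 ≤ A * L * (P m - P (m + 1)) := by positivity
    linarith
  have hPm : P m - P (m + 1) ≤ 2 / L := by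
    rw [le_div_iff₀ hLpos]
    have h5 : A * ((P m - P (m + 1)) * L) ≤ A * 2 := by
      have h6 : A * ((P m - P (m + 1)) * L) = A * L * (P m - P (m + 1)) := by ring
      rw [h6]
      linarith
    exact le_of_mul_le_mul_left h5 hApos
  have hvar := surv_var (k := K + 1) (V := Fin (n' + 1)) hkc (by omega) hΛpos
    (a := 2 / y) (E := E₁) (by positivity) hE₁0 (by
      intro S
      have := fp_pred_le_kill (K := K) (V := Fin (n' + 1)) hkc hy S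
      rw [Fintype.card_fin] at this
      exact this) (m + 1) Finset.univ
  simp only [rhs] at hvar
  have hP1' : P (m + 1) ≤ 1 - ε := (hPanti (by omega : m₁ ≤ m + 1)).trans hP1
  have hP2' : ε ≤ P (m + 1) := hP2.trans (hPanti (by omega : m + 1 ≤ m₂))
  have hlow : ε * (1 - ε) ≤ P (m + 1) * (1 - P (m + 1)) := by
    have h8 := mul_nonneg (sub_nonneg.2 hP2') (sub_nonneg.2 hP1')
    have h9 : P (m + 1) * (1 - P (m + 1))
        = ε * (1 - ε) + (P (m + 1) - ε) * (1 - ε - P (m + 1)) := by ring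
    rw [h9]
    linarith
  have hvar' : P (m + 1) * (1 - P (m + 1)) ≤ (P m - P (m + 1)) / (4 * Λ)
      + ((m : ℝ) + 1) * (2 / y * Λ + E₁) * α m := hvar
  have hfirst : (P m - P (m + 1)) / (4 * Λ) ≤ ε * (1 - ε) / 2 := by
    calc (P m - P (m + 1)) / (4 * Λ) ≤ (2 / L) / (4 * Λ) := by gcongr
      _ = ε * (1 - ε) / 2 := by
          rw [hΛ]; field_simp; ring
  have hsecond : ((m : ℝ) + 1) * (2 / y * Λ + E₁) * α m
      ≤ m₂ * (2 / y * Λ + E₁) * (2 * A) := by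
    have h6 : (m : ℝ) + 1 ≤ m₂ := by exact_mod_cast hmJ.2
    have h7 : 0 ≤ 2 / y * Λ + E₁ := by positivity
    gcongr
  calc ε * (1 - ε) / 2 ≤ m₂ * (2 / y * Λ + E₁) * (2 * A) := by linarith
    _ = 2 * m₂ * (2 / y * Λ + E₁) * A := by ring

lemma arith_err {K : ℕ} (hK : 2 ≤ K) {u N k X : ℝ} (hu : 0 < u) (hu1 : u ≤ 1) (hN1 : 1 ≤ N)
    (hNu : 1 / N = u ^ 16) (hX : N / 2 ≤ X) :
    2 * (k ^ 2 / X) ^ (K + 1) / u ^ 5 + (u ^ 5) ^ K
      ≤ (2 * (2 * k ^ 2) ^ (K + 1) + 1) * u ^ 10 := by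
  have hNpos : 0 < N := by linarith
  have hX0 : 0 < X := by linarith
  have h1 : (k ^ 2 / X) ^ (K + 1) ≤ (2 * k ^ 2) ^ (K + 1) * u ^ 16 := by
    have h2 : k ^ 2 / X ≤ (2 * k ^ 2) * (1 / N) := by
      rw [mul_one_div, div_le_div_iff₀ hX0 hNpos]
      nlinarith [sq_nonneg k]
    calc (k ^ 2 / X) ^ (K + 1) ≤ ((2 * k ^ 2) * (1 / N)) ^ (K + 1) := by gcongr
      _ = (2 * k ^ 2) ^ (K + 1) * (1 / N) ^ (K + 1) := by rw [mul_pow]
      _ ≤ (2 * k ^ 2) ^ (K + 1) * (1 / N) ^ 1 := by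
          apply mul_le_mul_of_nonneg_left _ (by positivity)
          apply pow_le_pow_of_le_one (by positivity) _ (by omega)
          rw [div_le_one hNpos]; exact hN1
      _ = (2 * k ^ 2) ^ (K + 1) * u ^ 16 := by rw [pow_one, hNu]
  have h3 : (u ^ 5) ^ K ≤ u ^ 10 := by
    rw [← pow_mul]
    exact pow_le_pow_of_le_one hu.le hu1 (by omega)
  have h4 : 2 * (k ^ 2 / X) ^ (K + 1) / u ^ 5 ≤ 2 * (2 * k ^ 2) ^ (K + 1) * u ^ 10 := by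
    rw [div_le_iff₀ (by positivity)]
    have h5 : u ^ 16 ≤ u ^ 15 := pow_le_pow_of_le_one hu.le hu1 (by norm_num)
    have h6 : 0 ≤ (2 * k ^ 2) ^ (K + 1) := by positivity
    calc 2 * (k ^ 2 / X) ^ (K + 1) ≤ 2 * ((2 * k ^ 2) ^ (K + 1) * u ^ 16) := by linarith
      _ ≤ 2 * ((2 * k ^ 2) ^ (K + 1) * u ^ 15) := by
          have := mul_le_mul_of_nonneg_left h5 h6
          linarith
      _ = 2 * (2 * k ^ 2) ^ (K + 1) * u ^ 10 * u ^ 5 := by ring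
  have h7 : (2 * (2 * k ^ 2) ^ (K + 1) + 1) * u ^ 10
      = 2 * (2 * k ^ 2) ^ (K + 1) * u ^ 10 + u ^ 10 := by ring
  rw [h7]
  linarith

lemma arith_B {u ε L F E : ℝ} (hu : 0 < u) (hε : 0 < ε) (hε' : ε ≤ 1 / 2)
    (hLinv : 1 / L ≤ u ^ 15) (hL : 0 < L) (hE : E ≤ F * u ^ 10) :
    2 / u ^ 5 * (1 / (ε * (1 - ε) * L)) + E ≤ (4 / ε + F) * u ^ 10 := by
  have hε1 : 0 < 1 - ε := by linarith
  have h1 : 1 / (ε * (1 - ε) * L) ≤ (2 / ε) * u ^ 15 := by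
    have h2 : 1 / (ε * (1 - ε) * L) = (1 / ε) * (1 / (1 - ε)) * (1 / L) := by
      field_simp
    have h3 : 1 / (1 - ε) ≤ 2 := by
      rw [div_le_iff₀ hε1]
      linarith
    rw [h2]
    calc (1 / ε) * (1 / (1 - ε)) * (1 / L) ≤ (1 / ε) * 2 * u ^ 15 := by gcongr
      _ = (2 / ε) * u ^ 15 := by ring
  have h4 : 2 / u ^ 5 * (1 / (ε * (1 - ε) * L)) ≤ 2 / u ^ 5 * ((2 / ε) * u ^ 15) :=
    mul_le_mul_of_nonneg_left h1 (by positivity)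
  have h5 : 2 / u ^ 5 * ((2 / ε) * u ^ 15) = (4 / ε) * u ^ 10 := by
    field_simp
    ring
  rw [h5] at h4
  have h6 : (4 / ε + F) * u ^ 10 = (4 / ε) * u ^ 10 + F * u ^ 10 := by ring
  rw [h6]
  linarith

lemma arith_A {u L F E k N m D : ℝ} (hu : 0 < u) (hk : 0 < k) (hN : 0 < N)
    (hρ : k / N ≤ 1 / 2) (hLinv : 1 / L ≤ u ^ 15) (hL : 0 < L) (hE0 : 0 ≤ E)
    (hE : E ≤ F * u ^ 10) (hm : m ≤ D * N) (hD : 0 < D) :
    m * (k / N / (u ^ 5 * (1 - k / N)) / L + k / N / 2 * E) ≤ D * k * (2 + F / 2) * u ^ 10 := by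
  have hρ1 : 0 < 1 - k / N := by linarith
  have h1 : k / N / (u ^ 5 * (1 - k / N)) / L ≤ 2 * (k / N) * u ^ 10 := by
    have h2 : k / N / (u ^ 5 * (1 - k / N)) / L
        = (k / N) * (1 / (1 - k / N)) * (1 / u ^ 5) * (1 / L) := by
      generalize k / N = ρ at *
      field_simp
    have h3 : 1 / (1 - k / N) ≤ 2 := by
      rw [div_le_iff₀ hρ1]
      linarith
    rw [h2]
    calc (k / N) * (1 / (1 - k / N)) * (1 / u ^ 5) * (1 / L)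
        ≤ (k / N) * 2 * (1 / u ^ 5) * u ^ 15 := by gcongr
      _ = 2 * (k / N) * u ^ 10 := by
          field_simp
  have h4 : k / N / 2 * E ≤ k / N / 2 * (F * u ^ 10) :=
    mul_le_mul_of_nonneg_left hE (by positivity)
  have h5 : 0 ≤ k / N / (u ^ 5 * (1 - k / N)) / L := by positivity
  have h6 : 0 ≤ k / N / 2 * E := by positivity
  calc m * (k / N / (u ^ 5 * (1 - k / N)) / L + k / N / 2 * E)
      ≤ (D * N) * (2 * (k / N) * u ^ 10 + k / N / 2 * (F * u ^ 10)) :=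
        mul_le_mul hm (by linarith) (by linarith) (by positivity)
    _ = D * k * (2 + F / 2) * u ^ 10 := by
        field_simp

lemma arith_final {u ε D k N F m B A : ℝ} (hD : 0 < D) (hN : 0 < N) (hε : 0 < ε)
    (hF : 0 < F) (hun : N * u ^ 16 = 1) (hm : m ≤ D * N) (hu : 0 < u)
    (hB0 : 0 ≤ B) (hA0 : 0 ≤ A) (hB : B ≤ (4 / ε + F) * u ^ 10)
    (hA : A ≤ D * k * (2 + F / 2) * u ^ 10) :
    2 * m * B * A ≤ 2 * D ^ 2 * k * (4 / ε + F) * (2 + F / 2) * u ^ 4 := by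
  calc 2 * m * B * A ≤ 2 * (D * N) * ((4 / ε + F) * u ^ 10) * (D * k * (2 + F / 2) * u ^ 10) := by
        gcongr
    _ = 2 * D ^ 2 * k * (4 / ε + F) * (2 + F / 2) * u ^ 4 * (N * u ^ 16) := by ring
    _ = 2 * D ^ 2 * k * (4 / ε + F) * (2 + F / 2) * u ^ 4 := by rw [hun, mul_one]

/-- Arithmetic part of the window estimate. -/
lemma window_arith {K : ℕ} (hK : 2 ≤ K) {n' : ℕ} (hn' : 2 * (K + 1) ≤ n') {ε u D : ℝ}
    (hε : 0 < ε) (hε' : ε ≤ 1 / 2) (hu : 0 < u) (hu1 : u ≤ 1)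
    (hun : ((n' + 1 : ℕ) : ℝ) * u ^ 16 = 1) (hD : 0 < D) {m₁ m₂ : ℕ}
    (hm : 1 / u ^ 15 ≤ (m₂ : ℝ) - m₁) (hm₂ : (m₂ : ℝ) ≤ D * ((n' + 1 : ℕ) : ℝ))
    (hP1 : satProb (K + 1) (n' + 1) m₁ ≤ 1 - ε) (hP2 : ε ≤ satProb (K + 1) (n' + 1) m₂) :
    ε / 4 ≤ 2 * D ^ 2 * ((K + 1 : ℕ) : ℝ) *
      (4 / ε + (2 * (2 * (((K + 1 : ℕ) : ℝ)) ^ 2) ^ (K + 1) + 1)) *
      (2 + (2 * (2 * (((K + 1 : ℕ) : ℝ)) ^ 2) ^ (K + 1) + 1) / 2) * u ^ 4 := by
  have hL0 : 0 < (m₂ : ℝ) - m₁ := lt_of_lt_of_le (by positivity) hm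
  have hlt : m₁ < m₂ := by
    have : (m₁ : ℝ) < m₂ := by linarith
    exact_mod_cast this
  have hcore := window_core (by omega : K + 1 ≤ n') (y := u ^ 5) (by positivity) hε hε' hlt hP1 hP2
  have hlow : ε / 4 ≤ ε * (1 - ε) / 2 := by nlinarith
  refine hlow.trans (hcore.trans ?_)
  have hNpos : (0 : ℝ) < ((n' + 1 : ℕ) : ℝ) := by positivity
  have hn'N : ((n' + 1 : ℕ) : ℝ) / 2 ≤ (n' : ℝ) := by
    push_cast
    have : (1 : ℝ) ≤ n' := by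
      have : 1 ≤ n' := by omega
      exact_mod_cast this
    linarith
  have hkpos : (0 : ℝ) < ((K + 1 : ℕ) : ℝ) := by positivity
  have hNu : 1 / ((n' + 1 : ℕ) : ℝ) = u ^ 16 := by
    rw [div_eq_iff hNpos.ne']
    linarith
  have hρ : ((K + 1 : ℕ) : ℝ) / ((n' + 1 : ℕ) : ℝ) ≤ 1 / 2 := by
    rw [div_le_div_iff₀ hNpos (by norm_num)]
    exact_mod_cast (by omega : (K + 1) * 2 ≤ 1 * (n' + 1))
  have hN1 : (1 : ℝ) ≤ ((n' + 1 : ℕ) : ℝ) := by exact_mod_cast (by omega : 1 ≤ n' + 1)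
  have hLinv : 1 / ((m₂ : ℝ) - m₁) ≤ u ^ 15 := by
    rw [div_le_iff₀ hL0]
    rw [div_le_iff₀ (by positivity)] at hm
    linarith
  have hn'0 : (0 : ℝ) ≤ (n' : ℝ) := Nat.cast_nonneg n'
  generalize hkk : ((K + 1 : ℕ) : ℝ) = k at *
  generalize hNN : ((n' + 1 : ℕ) : ℝ) = N at *
  generalize hLL : (m₂ : ℝ) - m₁ = L at *
  have hE₁ := arith_err (k := k) hK hu hu1 hN1 hNu (by linarith : N / 2 ≤ N)
  have hE₀ := arith_err (k := k) hK hu hu1 hN1 hNu hn'N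
  have hE₁0 : 0 ≤ 2 * (k ^ 2 / N) ^ (K + 1) / u ^ 5 + (u ^ 5) ^ K := by positivity
  have hE₀0 : 0 ≤ 2 * (k ^ 2 / (n' : ℝ)) ^ (K + 1) / u ^ 5 + (u ^ 5) ^ K := by positivity
  have hF : 0 < 2 * (2 * k ^ 2) ^ (K + 1) + 1 := by positivity
  have hm₂0 : (0 : ℝ) ≤ m₂ := Nat.cast_nonneg m₂
  generalize 2 * (k ^ 2 / N) ^ (K + 1) / u ^ 5 + (u ^ 5) ^ K = E₁ at *
  generalize 2 * (k ^ 2 / (n' : ℝ)) ^ (K + 1) / u ^ 5 + (u ^ 5) ^ K = E₀ at *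
  generalize 2 * (2 * k ^ 2) ^ (K + 1) + 1 = F at *
  generalize (m₂ : ℝ) = M at *
  have hB := arith_B hu hε hε' hLinv hL0 hE₁
  have hA := arith_A hu hkpos hNpos hρ hLinv hL0 hE₀0 hE₀ hm₂ hD
  have hε1 : 0 < 1 - ε := by linarith
  have hρ1 : 0 < 1 - k / N := by linarith
  exact arith_final hD hNpos hε hF hun hm₂ hu (by positivity) (by positivity) hB hA

/-- **Window lemma.** For `k ≥ 3` the scaling window of random `k`-SAT has width at most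
`n ^ (15 / 16)`. -/
theorem window {k : ℕ} (hk : 3 ≤ k) {ε : ℝ} (hε : 0 < ε) (hε' : ε ≤ 1 / 2) :
    ∃ n₀ : ℕ, ∀ n : ℕ, n₀ ≤ n → ∀ m₁ m₂ : ℕ, satProb k n m₁ ≤ 1 - ε → ε ≤ satProb k n m₂ →
      (m₂ : ℝ) - m₁ < (n : ℝ) ^ (15 / 16 : ℝ) := by
  obtain ⟨K, rfl⟩ : ∃ K, k = K + 1 := ⟨k - 1, by omega⟩
  have hK : 2 ≤ K := by omega
  set D : ℝ := 2 ^ (K + 1) with hD
  have hDpos : 0 < D := by rw [hD]; positivity
  set C : ℝ := 2 * D ^ 2 * ((K + 1 : ℕ) : ℝ) *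
      (4 / ε + (2 * (2 * (((K + 1 : ℕ) : ℝ)) ^ 2) ^ (K + 1) + 1)) *
      (2 + (2 * (2 * (((K + 1 : ℕ) : ℝ)) ^ 2) ^ (K + 1) + 1) / 2) with hC
  have hCpos : 0 < C := by rw [hC]; positivity
  -- eventually `C n^{-1/4} < ε / 4`
  have hlim : Tendsto (fun n : ℕ => C * ((n : ℝ) ^ (-(1 / 16) : ℝ)) ^ 4) atTop (𝓝 0) := by
    have h1 : Tendsto (fun n : ℕ => (n : ℝ) ^ (-(1 / 16) : ℝ)) atTop (𝓝 0) :=
      (tendsto_rpow_neg_atTop (by norm_num : (0 : ℝ) < 1 / 16)).comp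
        tendsto_natCast_atTop_atTop
    have h2 := (h1.pow 4).const_mul C
    simpa using h2
  have hev1 := hlim.eventually_lt_const (by positivity : (0 : ℝ) < ε / 4)
  have hev2 := (tendsto_two_pow (k := K + 1) (by omega)).eventually_lt_const hε
  obtain ⟨n₀, hn₀⟩ := eventually_atTop.1 (hev1.and hev2)
  refine ⟨max n₀ (2 * (K + 1) + 1), fun n hn m₁ m₂ h1 h2 => ?_⟩
  have hnn₀ : n₀ ≤ n := le_of_max_le_left hn
  have hnK : 2 * (K + 1) + 1 ≤ n := le_of_max_le_right hn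
  obtain ⟨he1, he2⟩ := hn₀ n hnn₀
  by_contra hcon
  push Not at hcon
  obtain ⟨n', rfl⟩ : ∃ n', n = n' + 1 := ⟨n - 1, by omega⟩
  have hnpos : (0 : ℝ) < ((n' + 1 : ℕ) : ℝ) := by positivity
  set u : ℝ := ((n' + 1 : ℕ) : ℝ) ^ (-(1 / 16) : ℝ) with hu
  have hu0 : 0 < u := Real.rpow_pos_of_pos hnpos _
  have hu1 : u ≤ 1 := by
    apply Real.rpow_le_one_of_one_le_of_nonpos
    · exact_mod_cast (by omega : 1 ≤ n' + 1)
    · norm_num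
  have hupow : ∀ j : ℕ, u ^ j = ((n' + 1 : ℕ) : ℝ) ^ (-(j / 16) : ℝ) := by
    intro j
    rw [hu, ← Real.rpow_natCast, ← Real.rpow_mul hnpos.le]
    congr 1
    ring
  have hun : ((n' + 1 : ℕ) : ℝ) * u ^ 16 = 1 := by
    rw [hupow 16]
    have : (-(((16 : ℕ) : ℝ) / 16) : ℝ) = -1 := by norm_num
    rw [this, Real.rpow_neg_one, mul_inv_cancel₀ hnpos.ne']
  have hm : 1 / u ^ 15 ≤ (m₂ : ℝ) - m₁ := by
    rw [hupow 15, Real.rpow_neg hnpos.le, one_div, inv_inv]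
    push_cast at hcon ⊢
    exact hcon
  have hm₂ : (m₂ : ℝ) ≤ D * ((n' + 1 : ℕ) : ℝ) := by
    by_contra hbig
    push Not at hbig
    have h3 : ⌊D * ((n' + 1 : ℕ) : ℝ)⌋₊ ≤ m₂ := by
      have h4 := Nat.floor_le (by positivity : 0 ≤ D * ((n' + 1 : ℕ) : ℝ))
      have h5 : ((⌊D * ((n' + 1 : ℕ) : ℝ)⌋₊ : ℕ) : ℝ) < m₂ := by linarith
      exact_mod_cast h5.le
    have h6 := satProb_antitone (k := K + 1) (n := n' + 1) (by omega) h3
    rw [hD] at h6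
    linarith
  have := window_arith hK (by omega : 2 * (K + 1) ≤ n') hε hε' hu0 hu1 hun hDpos hm hm₂ h1 h2
  rw [← hC] at this
  linarith

end Vale.Agent.P170
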